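import Vale.Agent.P032.H471.Rhomb

/-!
# P032: two ends of the same palette at a light/light node

Frame `Irr U T` only.  `z` light at `v` and at `q`, `v` of palette `X`, `q ≠ q'` of palette `Xᶜ` on
`S(z)`, not opposite to `v`; `w = v + q - z`, `w' = v + q' - z`.

`two_light` : `w` and `w'` are light at `v`, the missing colours at `v` of `z, w, w'` are the three
colours of `X`.
`ends_z`, `ends_w` : the `Xᶜ`-points of `S(z)` are `q, q'`, those of `S(w)` are among `q`,
`w + w' - v`.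
`heavy_x` : if `w` is heavy at `q` (a point with five colours) then `v` is the only `X`-point of
`S(w)` which is not opposite to `q`.
-/

open Set Filter Topology Metric

noncomputable section

namespace Vale.Agent.P032.S5.H450

open Vale.Agent.P032.Six

variable {U : Fin 6 → Set ℂ} {T : ℂ → Set (Fin 6)} {X : Set (Fin 6)} {z v q q' : ℂ} {r s : Fin 6}

namespace Nd

/-- the missing colour of `z` at `v` is a colour of the second centre -/
theorem mem_other (h : Irr U T) (N : Nd T X z v q) (hr : r ∈ X) (hrz : r ∉ T z) :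
    r ∈ T (v + q - z) := by
  by_contra h1
  exact N.ne_other (N.other.unique h N hr h1 hrz)

/-- the colours of `X` at a light centre -/
theorem mem_rest (h : Irr U T) (N : Nd T X z v q) (hr : r ∈ X) (hrz : r ∉ T z) {b : Fin 6}
    (hb : b ∈ X) (hbr : b ≠ r) : b ∈ T z := N.rest h hr hrz ⟨hb, hbr⟩

/-- the points of palette `Xᶜ` on the circle of a light centre are not opposite to `v` -/
theorem node_y (h : Irr U T) (N : Nd T X z v q) (hr : r ∈ X) (hrz : r ∉ T z) {y : ℂ}
    (hy : dist y z = 1) (hTy : T y = Xᶜ) : Nd T X z v y :=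
  ⟨N.hX, N.dv, by rw [dist_comm]; exact hy, N.Tv, hTy, N.anti_y h hr hrz hy hTy⟩

/-- the points of palette `X` on the circle of a centre light at `q` are not opposite to `q` -/
theorem node_x (h : Irr U T) (N : Nd T X z v q) (hs : s ∈ Xᶜ) (hsz : s ∉ T z) {x : ℂ}
    (hx : dist x z = 1) (hTx : T x = X) : Nd T X z x q :=
  ⟨N.hX, by rw [dist_comm]; exact hx, N.dq, hTx, N.Tq, N.anti_x h hs hsz hx hTx⟩

/-- **two ends of palette `Xᶜ`: the three centres at `v` are light** -/
theorem two_light (h : Irr U T) (N : Nd T X z v q) (N' : Nd T X z v q') (hqq : q ≠ q')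
    (hr : r ∈ X) (hrz : r ∉ T z) (hs : s ∈ Xᶜ) (hsz : s ∉ T z) :
    ∃ a b, a ≠ b ∧ a ≠ r ∧ b ≠ r ∧ X = {a, b, r} ∧ a ∉ T (v + q - z) ∧ b ∉ T (v + q' - z) := by
  set w := v + q - z with hw
  set w' := v + q' - z with hw'
  have Nw : Nd T X w v q := N.other
  have Nw' : Nd T X w' v q' := N'.other
  have hwz : w ≠ z := N.ne_other
  have hwz' : w' ≠ z := N'.ne_other
  have hww' : w ≠ w' := fun h1 => hqq (by linear_combination h1 - hw + hw')
  have hfw : r ∈ T w := N.mem_other h hr hrz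
  have hfw' : r ∈ T w' := N'.mem_other h hr hrz
  -- isolated `X`-points on `S(z)`
  have iso : ∀ᶠ y in 𝓝[sphere z 1] v, T y = X → y = v := N.iso471 h hs hsz N
  -- a heavy and a light centre
  have mixed : ∀ {c c' : ℂ} {b : Fin 6} {x : ℂ}, Nd T X c' v x → X ⊆ T c → dist c v = 1 →
      b ∈ X → b ∉ T c' → b ∈ T z → z ≠ c → z + c ≠ 2 * v → c ≠ c' → False := by
    intro c c' b x Nc' hc hcv hb hbc' hbz h1 h2 h3
    rcases Nc'.heavy_line h hb hbc' hcv h3 hc (p' := z) N.dv hbz with h4 | h4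
    · exact h1 h4
    · exact h2 h4
  have hin : ∀ {b : Fin 6}, b ∈ X → b ≠ r → b ∈ T z := fun hb hbf =>
    N.rest h hr hrz ⟨hb, hbf⟩
  have hW : ∃ a ∈ X, a ∉ T w := by
    by_contra hcon
    push Not at hcon
    have hW : X ⊆ T w := hcon
    by_cases hW' : X ⊆ T w'
    · rcases N.heavy_line h hr hrz Nw.dv hwz hW (p' := w') Nw'.dv hfw' with h1 | h1
      · exact hww' h1.symm
      · exact N.no_tangent h hr hrz iso Nw'.dv h1 hW' hW
    · obtain ⟨b, hb, hbw'⟩ := Set.not_subset.1 hW'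
      have hbf : b ≠ r := fun h1 => hbw' (h1 ▸ hfw')
      exact mixed Nw' hW Nw.dv hb hbw' (hin hb hbf) hwz.symm
        (fun h1 => N.ne (by linear_combination hw - h1)) hww'
  have hW' : ∃ b ∈ X, b ∉ T w' := by
    by_contra hcon
    push Not at hcon
    have hW' : X ⊆ T w' := hcon
    obtain ⟨a, ha, haw⟩ := hW
    have haf : a ≠ r := fun h1 => haw (h1 ▸ hfw)
    exact mixed Nw hW' Nw'.dv ha haw (hin ha haf) hwz'.symm
      (fun h1 => N'.ne (by linear_combination hw' - h1)) hww'.symm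
  obtain ⟨a, ha, haw⟩ := hW
  obtain ⟨b, hb, hbw'⟩ := hW'
  have haf : a ≠ r := fun h1 => haw (h1 ▸ hfw)
  have hbf : b ≠ r := fun h1 => hbw' (h1 ▸ hfw')
  have hab : a ≠ b := fun h1 => hww' (Nw.unique h Nw' ha haw (h1 ▸ hbw'))
  refine ⟨a, b, hab, haf, hbf, ?_, haw, hbw'⟩
  refine (Set.eq_of_subset_of_ncard_le ?_ ?_ (Set.toFinite _)).symm
  · rintro i (rfl | rfl | rfl)
    exacts [ha, hb, hr]
  · rw [N.hX, H471.ncard_three hab haf hbf]

/-- the points of palette `Xᶜ` on the circle of the second centre -/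
theorem ends_w (h : Irr U T) (N : Nd T X z v q) (N' : Nd T X z v q') (hqq : q ≠ q')
    (hr : r ∈ X) (hrz : r ∉ T z) (hs : s ∈ Xᶜ) (hsz : s ∉ T z) {y : ℂ}
    (hy : dist y (v + q - z) = 1) (hTy : T y = Xᶜ) :
    y = q ∨ y = v + q - z + (v + q' - z) - v := by
  obtain ⟨a, b, hab, har, hbr, hXe, ha, hb⟩ := N.two_light h N' hqq hr hrz hs hsz
  refine N.ypts h N'.other (fun i hi => ?_) hr (by rw [hXe]; exact Or.inl rfl)
    (by rw [hXe]; exact Or.inr (Or.inl rfl)) hrz ha hb (N.mem_other h hr hrz)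
    (N'.mem_other h hr hrz) (fun h1 => hqq (by linear_combination h1)) hy hTy
  rw [hXe] at hi
  rcases hi with h1 | h1 | h1
  exacts [Or.inr (Or.inl h1), Or.inr (Or.inr h1), Or.inl h1]

/-- the points of palette `Xᶜ` on the circle of the first centre -/
theorem ends_z (h : Irr U T) (N : Nd T X z v q) (N' : Nd T X z v q') (hqq : q ≠ q')
    (hr : r ∈ X) (hrz : r ∉ T z) (hs : s ∈ Xᶜ) (hsz : s ∉ T z) {y : ℂ}
    (hy : dist y z = 1) (hTy : T y = Xᶜ) : y = q ∨ y = q' := by
  obtain ⟨a, b, hab, har, hbr, hXe, ha, hb⟩ := N.two_light h N' hqq hr hrz hs hsz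
  have Ny : Nd T X z v y := N.node_y h hr hrz hy hTy
  by_cases h1 : y = q
  · exact Or.inl h1
  by_cases h2 : y = q'
  · exact Or.inr h2
  exfalso
  obtain ⟨a', b', hab', har', hbr', hXe', ha', hb'⟩ := N.two_light h Ny (Ne.symm h1) hr hrz hs hsz
  obtain ⟨a2, b2, hab2, har2, hbr2, hXe2, ha2, hb2⟩ := N'.two_light h Ny (Ne.symm h2) hr hrz hs hsz
  have haX : a ∈ X := by rw [hXe]; exact Or.inl rfl
  have hbX : b ∈ X := by rw [hXe]; exact Or.inr (Or.inl rfl)
  have e1 : b' ≠ a := by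
    rintro rfl
    have h3 := Ny.other.unique h N.other haX hb' ha
    exact h1 (by linear_combination h3)
  have e2 : b' ≠ b := by
    rintro rfl
    have h3 := Ny.other.unique h N'.other hbX hb' hb
    exact h2 (by linear_combination h3)
  have e3 : b' ∈ X := by rw [hXe']; exact Or.inr (Or.inl rfl)
  rw [hXe] at e3
  rcases e3 with h3 | h3 | h3
  exacts [e1 h3, e2 h3, hbr' h3]

/-- **a second centre which is heavy at `q` has only one point of palette `X`**, up to the point
opposite to `q` -/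
theorem heavy_x (h : Irr U T) (N : Nd T X z v q) (hs : s ∈ Xᶜ) (hsz : s ∉ T z)
    (hw : Xᶜ ⊆ T (v + q - z)) {x : ℂ} (hx : dist x (v + q - z) = 1) (hTx : T x = X)
    (hop : x + q ≠ 2 * (v + q - z)) : x = v := by
  by_contra hxv
  have Nx : Nd T X (v + q - z) x q :=
    ⟨N.hX, by rw [dist_comm]; exact hx, N.other.dq, hTx, N.Tq, hop⟩
  have hsp : s ∈ T (x + q - (v + q - z)) := by
    by_contra h1
    exact hxv (by linear_combination Nx.other.swap.unique h N.swap hs h1 hsz)
  rcases N.swap.heavy_line h hs hsz N.other.dq N.ne_other hw (p' := x + q - (v + q - z))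
    Nx.other.dq hsp with h1 | h1
  · exact Nx.ne_other h1
  · exact Nx.ne (by linear_combination h1)

/-- the second centre is light at `q` if it has a second point of palette `X` -/
theorem light_q (h : Irr U T) (N : Nd T X z v q) (hs : s ∈ Xᶜ) (hsz : s ∉ T z) {x : ℂ}
    (Nx : Nd T X (v + q - z) x q) (hxv : x ≠ v) : ∃ d ∈ Xᶜ, d ∉ T (v + q - z) := by
  by_contra hcon
  push Not at hcon
  exact hxv (N.heavy_x h hs hsz hcon Nx.dvc Nx.Tv Nx.op)

end Nd

end Vale.Agent.P032.S5.H450
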