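import Vale.Agent.P032.H838.KFour
import Vale.Agent.P032.S5.H12.LP3E
import Vale.Agent.P032.H471.Two

/-!
# P032: the frame has the fields of `CNet` (838)

`Sec4 T` : the second centre of a node of a four coloured centre has at most four colours.
`OnlyJC T` : a point of order at least four of the circle of a centre with complementary ends is a
`J`-partner.
`ee_of_nd` : a node of a four coloured centre is a pair of complementary ends.
`cnet` : `Irr`, `Sec4`, `OnlyJC` give `CNet T (EE T) (ore T) (inn U T)`.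
-/

open Set Filter Topology Metric

noncomputable section

namespace Vale.Agent.P032.H471

open Vale.Agent.P032.Six Vale.Agent.P032.S5.H450 Vale.Agent.P032.H838
  Vale.Agent.P032.Net.H672

variable {U : Fin 6 → Set ℂ} {T : ℂ → Set (Fin 6)} {X : Set (Fin 6)} {z v q m : ℂ}

/-- the second centre of a node of a four coloured centre has at most four colours -/
def Sec4 (T : ℂ → Set (Fin 6)) : Prop :=
  ∀ X c v q, Nd T X c v q → (T c).ncard = 4 → (T (v + q - c)).ncard ≤ 4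

/-- the points of order at least four of the circle of a centre with complementary ends -/
def OnlyJC (T : ℂ → Set (Fin 6)) : Prop :=
  ∀ z v q y, EE T z v → EE T z q → T q = (T v)ᶜ → dist y z = 1 → (T y).ncard ≤ 3 ∨ T y = T z

/-- complementary ends are a node -/
theorem nd_of_ee (h : Irr U T) (hv : EE T z v) (hq : EE T z q) (hc : T q = (T v)ᶜ) :
    Nd T (T v) z v q where
  hX := hv.card_v
  dv := by rw [dist_comm]; exact hv.dist
  dq := by rw [dist_comm]; exact hq.dist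
  Tv := rfl
  Tq := hc
  op := hv.anti h hq hc

/-- a four coloured centre is light at both ends -/
theorem light_of_four (h : Irr U T) (N : Nd T X z v q) (h4 : (T z).ncard = 4) :
    (∃ r ∈ X, r ∉ T z) ∧ ∃ s ∈ Xᶜ, s ∉ T z := by
  obtain ⟨s1, a1, a2, -⟩ := N.five h 0
  obtain ⟨s2, b1, b2, b3⟩ := N.five h s1
  obtain ⟨t1, c1, c2, -⟩ := N.swap.five h 0
  obtain ⟨t2, d1, d2, d3⟩ := N.swap.five h t1
  have hp : ({s1, s2} : Set (Fin 6)) ⊆ T z ∩ X := by
    rintro m (rfl | rfl)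
    · exact ⟨a1, a2⟩
    · exact ⟨b1, b2⟩
  have hp' : ({t1, t2} : Set (Fin 6)) ⊆ T z ∩ Xᶜ := by
    rintro m (rfl | rfl)
    · exact ⟨c1, c2⟩
    · exact ⟨d1, d2⟩
  have e1 := Set.ncard_le_ncard hp (Set.toFinite _)
  have e2 := Set.ncard_le_ncard hp' (Set.toFinite _)
  rw [Set.ncard_pair b3.symm] at e1
  rw [Set.ncard_pair d3.symm] at e2
  have e3 := Set.ncard_inter_add_ncard_sdiff_eq_ncard (T z) X (Set.toFinite _)
  have e4 : T z \ X = T z ∩ Xᶜ := rfl
  rw [e4, h4] at e3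
  constructor
  · by_contra hcon
    push Not at hcon
    have h1 : X ⊆ T z ∩ X := fun i hi => ⟨hcon i hi, hi⟩
    have h2 := Set.ncard_le_ncard h1 (Set.toFinite _)
    rw [N.hX] at h2
    omega
  · by_contra hcon
    push Not at hcon
    have h1 : Xᶜ ⊆ T z ∩ Xᶜ := fun i hi => ⟨hcon i hi, hi⟩
    have h2 := Set.ncard_le_ncard h1 (Set.toFinite _)
    rw [N.hXc] at h2
    omega

/-- the configuration of a node of a four coloured centre -/
theorem cfg_of_nd (h : Irr U T) (N : Nd T X z v q) (h4 : (T z).ncard = 4) :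
    ∃ a b c d e f, Cfg T z v q a b c d e f := by
  obtain ⟨⟨r, hr, hrz⟩, s, hs, hsz⟩ := light_of_four h N h4
  obtain ⟨a, b, c, d, nd, hXe, hTz, hTv, hTq, -⟩ := exists_rh h N hr hrz hs hsz
  have hn := nd
  simp only [List.nodup_cons, List.mem_cons, List.not_mem_nil, or_false, not_or, List.nodup_nil,
    and_true, not_false_eq_true] at hn
  obtain ⟨⟨ab, ar, ac, ad, as⟩, ⟨br, bc, bd, bs⟩, ⟨rc, rd, rs⟩, ⟨cd, cs⟩, ds⟩ := hn
  have e1 : X \ {r} = {a, b} := by
    rw [hXe]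
    ext i
    simp only [Set.mem_sdiff, mem_insert_iff, mem_singleton_iff]
    constructor
    · rintro ⟨h1 | h1 | h1, h2⟩
      exacts [Or.inl h1, Or.inr h1, absurd h1 h2]
    · rintro (rfl | rfl)
      exacts [⟨Or.inl rfl, ar⟩, ⟨Or.inr (Or.inl rfl), br⟩]
  have e2 : Xᶜ \ {s} = {c, d} := by
    have h0 : Xᶜ = {c, d, s} := by rw [hXe]; exact compl_of_nodup nd
    rw [h0]
    ext i
    simp only [Set.mem_sdiff, mem_insert_iff, mem_singleton_iff]
    constructor
    · rintro ⟨h1 | h1 | h1, h2⟩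
      exacts [Or.inl h1, Or.inr h1, absurd h1 h2]
    · rintro (rfl | rfl)
      exacts [⟨Or.inl rfl, cs⟩, ⟨Or.inr (Or.inl rfl), ds⟩]
  obtain ⟨g, -, hg, hgP⟩ := N.acc h hr hrz univ univ_mem
  obtain ⟨g', -, hg', hgP'⟩ := N.swap.acc h hs hsz univ univ_mem
  rw [e1] at hgP
  rw [e2] at hgP'
  exact ⟨a, b, c, d, r, s, ⟨hTz, ac, ad, bc, bd, ab, cd, ⟨g, hg, hgP⟩, ⟨g', hg', hgP'⟩⟩,
    by rw [dist_comm]; exact N.dv, by rw [dist_comm]; exact N.dq, hTv, hTq, hrz, hsz, rs⟩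

/-- the normal form -/
theorem ncfg_of_nd (h : Irr U T) (hS : Sec4 T) (N : Nd T X z v q) (h4 : (T z).ncard = 4) :
    ∃ a b c d e f, NCfg T z v q a b c d e f := by
  obtain ⟨a, b, c, d, e, f, C⟩ := cfg_of_nd h N h4
  rcases C.normal h (hS X z v q N h4) with N | N | N | N
  exacts [⟨_, _, _, _, _, _, N⟩, ⟨_, _, _, _, _, _, N⟩, ⟨_, _, _, _, _, _, N⟩,
    ⟨_, _, _, _, _, _, N⟩]

/-- **a node of a four coloured centre is a pair of complementary ends** -/
theorem ee_of_nd (h : Irr U T) (hS : Sec4 T) (N : Nd T X z v q) (h4 : (T z).ncard = 4) :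
    EE T z v ∧ EE T z q := by
  obtain ⟨a, b, c, d, e, f, C⟩ := ncfg_of_nd h hS N h4
  exact ⟨C.ee h, C.swap.ee h⟩

section fields

variable (h : Irr U T) (hS : Sec4 T) (hv : EE T z v) (hq : EE T z q) (hc : T q = (T v)ᶜ)
include h hS hv hq hc

theorem w4 : (T (v + q - z)).ncard ≤ 4 := hS _ _ _ _ (nd_of_ee h hv hq hc) hv.card_z

theorem rh471 : EE T (v + q - z) v := by
  obtain ⟨a, b, c, d, e, f, C, -, -⟩ := exists_ncfg h hv hv.dist rfl hq.dist hc (w4 h hS hv hq hc)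
  exact (C.conj h).ee h

theorem rh471' : EE T (v + q - z) q := by
  have := rh471 h hS hq hv (by rw [hc, compl_compl])
  rwa [add_comm q v] at this

theorem cov471 (i : Fin 6) : i ∈ T z ∨ i ∈ T (v + q - z) := by
  obtain ⟨a, b, c, d, e, f, C, -, -⟩ := exists_ncfg h hv hv.dist rfl hq.dist hc (w4 h hS hv hq hc)
  rw [C.dp.pal, C.TW]
  have := C.cover i
  simp only [mem_insert_iff, mem_singleton_iff]
  tauto

theorem lp1_471 : 0 < ore T z v * cr (z - v) (q - z) ↔ inn U T (v + q - z) v ∈ T z := by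
  obtain ⟨a, b, c, d, e, f, C, -, -⟩ := exists_ncfg h hv hv.dist rfl hq.dist hc (w4 h hS hv hq hc)
  obtain ⟨o, h1, h2⟩ := C.lp1 h
  have ho : ore T z v = o := h1.ore_eq C.inter (ore_spec hv.1)
  rw [ho]
  rw [show v + q - z - v = q - z by ring] at h2
  have hi := (C.conj h).inter
  have haz : a ∈ T z := by rw [C.dp.pal]; simp
  rcases h2 with ⟨h2, h3⟩ | ⟨h2, h3⟩
  · rw [EE.inn_eq h ⟨e, C.ea.symm, hi, h2⟩]
    exact ⟨fun _ => haz, fun _ => h3⟩
  · rw [EE.inn_eq h ⟨a, C.ea, by rw [hi, pair_comm], h2⟩]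
    exact ⟨fun h5 => absurd h5 (not_lt.2 h3.le), fun h5 => absurd h5 C.he⟩

theorem lp3_471 {c p : ℂ} (hv' : EE T c v) (hp : EE T c p) (hc' : T p = (T v)ᶜ) (hcz : c ≠ z)
    (hcw : c ≠ v + q - z) : ∃ a b : ℝ, 0 ≤ a ∧ 0 ≤ b ∧
      ((ore T c v : ℝ) : ℂ) * (c - v) + (a : ℂ) * (((ore T z v : ℝ) : ℂ) * (z - v))
        + (b : ℂ) * (((ore T (v + q - z) v : ℝ) : ℂ) * (q - z)) = 0 := by
  have hwv := rh471 h hS hv hq hc
  have hwq := rh471' h hS hv hq hc
  have hop := hv.anti h hq hc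
  have hvq : v ≠ q := (hv.en rfl).ne hv.card_v (hq.en hc)
  have hzw : z ≠ v + q - z := fun h5 => hop (by linear_combination -h5)
  have := h.lp3 (ore_spec hv.1) (ore_spec hwv.1) (ore_spec hv'.1) hv.2 hwv.2 hzw
    (fun h5 => hvq (by linear_combination -h5))
    (fun h5 => hzw (hv.unique_pair h hwv hq hc hwq hc h5))
    (fun h5 => hcz (hv'.unique_pair h hv hp hc' hq hc h5))
    (fun h5 => hcw (hv'.unique_pair h hwv hp hc' hwq hc h5))
  rw [show v + q - z - v = q - z by ring] at this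
  exact this

theorem auto471 (hm : dist m z = 1) (hTm : T m = T v) : EE T z m := by
  have N := nd_of_ee h hv hq hc
  obtain ⟨-, s, hs, hsz⟩ := light_of_four h N hv.card_z
  exact (ee_of_nd h hS (N.node_x h hs hsz hm hTm) hv.card_z).1

end fields

/-- separation of the two kinds of ends -/
theorem sep471 (h : Irr U T) {v₁ v₂ q₁ q₂ : ℂ} (hv₁ : EE T z v₁) (hv₂ : EE T z v₂)
    (hq₁ : EE T z q₁) (hq₂ : EE T z q₂) (hvv : T v₂ = T v₁) (h1 : T q₁ = (T v₁)ᶜ)
    (h2 : T q₂ = (T v₁)ᶜ) :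
    0 < dt (v₁ - z) (q₁ - z) * dt (v₁ - z) (q₂ - z) *
      (dt (v₂ - z) (q₁ - z) * dt (v₂ - z) (q₂ - z)) := by
  have e : ∀ {v q}, T v = T v₁ → T q = (T v₁)ᶜ → T v ∩ T z = T z \ T q := by
    intro v q h1 h2
    rw [h1, h2, Set.sdiff_compl, inter_comm]
  have l1 := hq₁.lp2 h hv₁ hv₂ (e rfl h1) (e hvv h1)
  have l2 := hq₂.lp2 h hv₁ hv₂ (e rfl h2) (e hvv h2)
  have nz : ∀ {v q}, EE T z v → EE T z q → T q = (T v)ᶜ → cr (q - z) (v - z) ≠ 0 := by
    intro v q hv hq hc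
    refine cr_ne_of hq.dist hv.dist ((hv.en rfl).ne hv.card_v (hq.en hc)).symm ?_
    rw [add_comm]
    exact hv.anti h hq hc
  have n11 := nz hv₁ hq₁ h1
  have n21 := nz hv₂ hq₁ (by rw [hvv]; exact h1)
  have n12 := nz hv₁ hq₂ h2
  have n22 := nz hv₂ hq₂ (by rw [hvv]; exact h2)
  have hP : (0 < cr (q₁ - z) (v₁ - z) * cr (q₁ - z) (v₂ - z)) ↔
      0 < cr (q₂ - z) (v₁ - z) * cr (q₂ - z) (v₂ - z) := l1.symm.trans l2
  have hpos : 0 < (cr (q₁ - z) (v₁ - z) * cr (q₁ - z) (v₂ - z)) *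
      (cr (q₂ - z) (v₁ - z) * cr (q₂ - z) (v₂ - z)) := by
    rcases lt_or_gt_of_ne (mul_ne_zero n11 n21) with h5 | h5
    · rcases lt_or_gt_of_ne (mul_ne_zero n12 n22) with h6 | h6
      · exact mul_pos_of_neg_of_neg h5 h6
      · exact absurd (hP.2 h6) (not_lt.2 h5.le)
    · exact mul_pos h5 (hP.1 h5)
  refine hpos.trans_le (le_of_eq ?_)
  unfold cr dt
  ring

/-- externally tangent circles at a common end -/
theorem tan471 (h : Irr U T) {w w' v : ℂ} (hw : EE T w v) (hw' : EE T w' v)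
    (hop : w + w' = 2 * v) : inn U T w' v ∉ T w := by
  intro hmem
  obtain ⟨a, b, c, d, h1, h2⟩ := hw'.names
  obtain ⟨i, hi⟩ := EE.innP_of_dpt h (hw'.dpt h h1 h2) hw'.dist h1
  have e1 : inn U T w' v = i := EE.inn_eq h hi
  rw [e1] at hmem
  obtain ⟨j, hij, hP, hSd⟩ := hi
  have hiv : i ∈ T v := by
    have : i ∈ T w' ∩ T v := by rw [hP]; exact Or.inl rfl
    exact this.2
  obtain ⟨⟨o, ho, hd, -, -, -, ε, hε, hg⟩, -⟩ := hw
  -- points of the arc of `S(w)` next to `v`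
  have hlim : Tendsto (fun t : ℝ => w + (v - w) * cis (-(o * t))) (𝓝[>] 0) (𝓝 v) := by
    have hc : Continuous fun t : ℝ => w + (v - w) * cis (-(o * t)) := by
      have := continuous_cis
      fun_prop
    have h3 := hc.tendsto 0
    have e : w + (v - w) * cis (-(o * 0)) = v := by
      rw [mul_zero, neg_zero, cis_zero']; ring
    rw [e] at h3
    exact h3.mono_left nhdsWithin_le_nhds
  have hsmall : ∀ᶠ t : ℝ in 𝓝[>] 0, t ∈ Ioo 0 (min ε 1) := Ioo_mem_nhdsGT (lt_min hε one_pos)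
  obtain ⟨t, h3, h4⟩ := ((hlim.eventually hSd).and hsmall).exists
  have h5 := hg t ⟨h4.1, lt_of_lt_of_le h4.2 (min_le_left _ _)⟩
  have h6 : i ∈ T (w + (v - w) * cis (-(o * t))) := by rw [h5]; exact ⟨hmem, hiv⟩
  refine h3.1 ?_ (h.sub _ h6)
  -- distance to `w'`
  have hw1 : ‖v - w‖ = 1 := by rw [← dist_eq_norm]; exact hd
  have e2 : w + (v - w) * cis (-(o * t)) - w' = (v - w) * (cis (-(o * t)) - 2) := by
    linear_combination -hop
  rw [dist_eq_norm, e2, norm_mul, hw1, one_mul]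
  have h7 : (cis (-(o * t)) - 2).re = Real.cos t - 2 := by
    have : (cis (-(o * t))).re = Real.cos (-(o * t)) := by
      unfold cis
      rw [Complex.exp_ofReal_mul_I_re]
    rw [Complex.sub_re, this]
    have h8 : Real.cos (-(o * t)) = Real.cos t := by
      rw [Real.cos_neg]
      rcases ho with rfl | rfl
      · rw [one_mul]
      · rw [neg_one_mul, Real.cos_neg]
    rw [h8]; norm_num
  have h9 : Real.cos t < 1 := by
    have ht1 : t < 1 := lt_of_lt_of_le h4.2 (min_le_right _ _)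
    have := Real.cos_lt_cos_of_nonneg_of_le_pi (x := 0) (y := t) le_rfl
      (by linarith [Real.pi_gt_three]) h4.1
    rwa [Real.cos_zero] at this
  have h10 := Complex.abs_re_le_norm (cis (-(o * t)) - 2)
  rw [h7] at h10
  have h11 : |Real.cos t - 2| = 2 - Real.cos t := by
    rw [abs_of_neg (by linarith)]; ring
  rw [h11] at h10
  linarith

/-- at most three centres at an end -/
theorem three471 (h : Irr U T) {v z₁ z₂ z₃ z₄ : ℂ} (h1 : Full T (EE T) z₁ v)
    (h2 : Full T (EE T) z₂ v) (h3 : Full T (EE T) z₃ v) (h4 : Full T (EE T) z₄ v) :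
    z₁ = z₂ ∨ z₁ = z₃ ∨ z₁ = z₄ ∨ z₂ = z₃ ∨ z₂ = z₄ ∨ z₃ = z₄ := by
  have key : ∀ {z}, Full T (EE T) z v → En T (T v) z v ∧ ∃ q, En T (T v)ᶜ z q := by
    rintro z ⟨hv, q, hq, hc⟩
    exact ⟨hv.en rfl, q, hq.en hc⟩
  exact h.en_three h1.1.card_v (key h1) (key h2) (key h3) (key h4)

/-- **the frame has the fields of `CNet`** -/
theorem cnet (h : Irr U T) (hS : Sec4 T) (hJ : OnlyJC T) :
    CNet T (EE T) (ore T) (inn U T) where
  dst := fun hv => hv.dist
  rh := fun hv hq hc => rh471 h hS hv hq hc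
  three := fun h1 h2 h3 h4 => three471 h h1 h2 h3 h4
  sep := fun h1 h2 h3 h4 h5 h6 h7 => sep471 h h1 h2 h3 h4 h5 h6 h7
  card_z := fun hv => hv.card_z
  card_v := fun hv => hv.card_v
  card_i := fun hv => hv.card_i'
  cov := fun hv hq hc => cov471 h hS hv hq hc
  ori := fun {z v} _ => ore_or T z v
  inn_mem := fun hv => hv.inn_mem h
  LP1 := fun hv hq hc => lp1_471 h hS hv hq hc
  LP2 := fun hq hv hv' h1 h2 => hq.lp2 h hv hv' h1 h2
  LP3 := fun hv hq hc hv' hp hc' hcz hcw => lp3_471 h hS hv hq hc hv' hp hc' hcz hcw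
  auto := fun hv hq hc hm hTm => auto471 h hS hv hq hc hm hTm
  tan := fun hw hw' hop => tan471 h hw hw' hop
  four := fun hv hq hc hy => hJ _ _ _ _ hv hq hc hy
  common := fun e1 _ e3 e1' _ e3' hne hcov d d' n s s' h3 =>
    e1.common h e3 e1' e3' hne hcov d d' n s s' h3

end Vale.Agent.P032.H471
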