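import Vale.Agent.P032.H471.Cross
import Vale.Agent.P032.H471.Inst
import Vale.Agent.P032.H946.JTwo3

/-!
# P032: the frame has the fields of `JNet` (946)

`ee_cross471` : a point `m` of `S(z)`, `z` a two-pair point, with three colours, two of them a pair
of `z`, and a second two-pair point on `S(m)` (off the line `m z`) with the third colour: `m` is an
end of an exact arc of `S(z)`.
`uniq471` : (UNIQ) two centres of an end miss different colours.
`ua471` : (UA) with ends.
`jnet471` : `JNet` from `Sec4` and the word facts.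
-/

open Set Filter Topology Metric

noncomputable section

namespace Vale.Agent.P032.H471

open Vale.Agent.P032.Six Vale.Agent.P032.S5.H450 Vale.Agent.P032.H838
  Vale.Agent.P032.Net.H672

variable {U : Fin 6 → Set ℂ} {T : ℂ → Set (Fin 6)} {X Y : Set (Fin 6)} {z w v q m : ℂ}

/-- two-pair point -/
def Tp (T : ℂ → Set (Fin 6)) (z : ℂ) : Prop := ∃ a b c d, DPt T z a b c d

/-- `z` is a two-pair point and `X` is one of its pairs -/
def Prs (T : ℂ → Set (Fin 6)) (z : ℂ) (X : Set (Fin 6)) : Prop :=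
  ∃ a b c d, DPt T z a b c d ∧ X = {a, b}

/-- `y` is a `J`-partner of `z` -/
def Jp (T : ℂ → Set (Fin 6)) (z y : ℂ) : Prop := Tp T z ∧ Tp T y ∧ dist y z = 1 ∧ T y = T z

theorem Jp.symm {y : ℂ} (h : Jp T z y) : Jp T y z :=
  ⟨h.2.1, h.1, by rw [dist_comm]; exact h.2.2.1, h.2.2.2.symm⟩

/-- the name of one colour of a two-pair point first -/
theorem dpt_name {a b c d e : Fin 6} (hw : DPt T w a b c d) (he : e ∈ T w) :
    ∃ b' c' d', DPt T w e b' c' d' := by
  rw [hw.pal] at he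
  rcases he with rfl | rfl | rfl | he
  · exact ⟨b, c, d, hw⟩
  · exact ⟨a, c, d, hw.swap12⟩
  · exact ⟨d, a, b, hw.swap⟩
  · rw [mem_singleton_iff] at he
    subst he
    exact ⟨c, a, b, hw.swap.swap12⟩

/-- one half branch of `S(z)` at `m` misses a given colour of another two-pair point -/
theorem half_miss (h : Irr U T) (hw : Tp T w) {e : Fin 6} (he : e ∈ T w)
    (hmz : dist m z = 1) (hmw : dist m w = 1) (h1 : w ≠ z) (h2 : w + z ≠ 2 * m) :
    ∃ τ : ℝ, (τ = 1 ∨ τ = -1) ∧ ∀ᶠ t in 𝓝[>] (0 : ℝ), e ∉ T (hbr z m τ t) := by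
  obtain ⟨a, b, c, d, hw⟩ := hw
  obtain ⟨b', c', d', hw'⟩ := dpt_name hw he
  obtain ⟨i, i', j, j', hi, -, -, -, τ, hτ, -, ho, hin⟩ := h.cross471 hw' hmw hmz (Ne.symm h1)
    (by rw [add_comm]; exact h2)
  rcases hi with ⟨rfl, rfl⟩ | ⟨rfl, rfl⟩
  · exact ⟨τ, hτ, ho.mono fun t ht => ht.1⟩
  · refine ⟨-τ, ?_, hin.mono fun t ht => ht.1⟩
    rcases hτ with rfl | rfl
    · exact Or.inr rfl
    · exact Or.inl (by norm_num)

/-- **a point of `S(z)` with three colours, two of them a pair of `z`, the third one at another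
two-pair point of `S(m)`, is an end of an exact arc of `S(z)`** -/
theorem ee_cross471 (h : Irr U T) {a b c d e : Fin 6} (hz : DPt T z a b c d) (hw : Tp T w)
    (hmz : dist m z = 1) (hmw : dist m w = 1) (h1 : w ≠ z) (h2 : w + z ≠ 2 * m)
    (hm : (T m).ncard = 3) (hab : T z ∩ T m = {a, b}) (he : e ∈ T m) (hez : e ∉ T z)
    (hew : e ∈ T w) : EE T z m := by
  obtain ⟨τ, hτ, hmiss⟩ := half_miss h hw hew hmz hmw h1 h2
  have hcz : (T z).ncard = 4 := by
    rw [hz.pal, Set.ncard_insert_of_notMem, Set.ncard_insert_of_notMem, Set.ncard_pair hz.cd]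
    · simp only [mem_insert_iff, mem_singleton_iff, not_or]
      exact ⟨hz.bc, hz.bd⟩
    · simp only [mem_insert_iff, mem_singleton_iff, not_or]
      exact ⟨hz.ab, hz.ac, hz.ad⟩
  have ham : a ∈ T m := by
    have : a ∈ T z ∩ T m := by rw [hab]; exact Or.inl rfl
    exact this.2
  have hbm : b ∈ T m := by
    have : b ∈ T z ∩ T m := by rw [hab]; exact Or.inr rfl
    exact this.2
  have hea : e ≠ a := by rintro rfl; exact hez (by rw [hz.pal]; simp)
  have heb : e ≠ b := by rintro rfl; exact hez (by rw [hz.pal]; simp)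
  have hTm : ∀ x ∈ T m, x = a ∨ x = b ∨ x = e := by
    intro x hx
    by_contra hcon
    push Not at hcon
    exact four_false hm.le hx ham hbm he hcon.1 hcon.2.1 hcon.2.2 hz.ab hea.symm heb.symm
  have hsub : ∀ᶠ t in 𝓝[>] (0 : ℝ), T (hbr z m τ t) ⊆ T m :=
    (tendsto_hbr z m τ).eventually (h.nhd m)
  have hex : ∀ᶠ t in 𝓝[>] (0 : ℝ), T (hbr z m τ t) = {a, b} := by
    filter_upwards [hmiss, hsub] with t e1 e2
    have hsub' : T (hbr z m τ t) ⊆ {a, b} := by
      intro x hx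
      rcases hTm x (e2 hx) with rfl | rfl | rfl
      · exact Or.inl rfl
      · exact Or.inr rfl
      · exact absurd hx e1
    have hsubz : T (hbr z m τ t) ⊆ T z := by
      intro x hx
      rw [hz.pal]
      rcases hsub' hx with rfl | hx
      · simp
      · rw [mem_singleton_iff] at hx; subst hx; simp
    rcases h.pair_of_subT (h.twoPairs hz) (dist_hbr hmz τ t) hsubz with k | k
    · exact Subset.antisymm hsub' k
    · exfalso
      rcases hsub' (k (Or.inl rfl)) with hx | hx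
      · exact hz.ac hx.symm
      · exact hz.bc (mem_singleton_iff.1 hx).symm
  obtain ⟨ε, hε, hs⟩ := mem_nhdsGT_iff_exists_Ioo_subset.1 hex
  refine ⟨⟨-τ, ?_, hmz, hcz, hm, ?_, ε, hε, fun t ht => ?_⟩, ?_⟩
  · rcases hτ with rfl | rfl
    · exact Or.inr rfl
    · exact Or.inl (by norm_num)
  · rw [hab]; exact Set.ncard_pair hz.ab
  · rw [hab]
    have := hs ht
    rw [mem_ofPred_eq] at this
    rw [show -(-τ * t) = τ * t by ring]
    exact this
  · obtain ⟨p, hp⟩ := hz.arc2
    refine ⟨p, ?_⟩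
    have e1 : T z \ T m = {c, d} := by
      ext x
      simp only [Set.mem_sdiff, mem_insert_iff, mem_singleton_iff]
      constructor
      · rintro ⟨k1, k2⟩
        rw [hz.pal] at k1
        rcases k1 with rfl | rfl | rfl | k1
        · exact absurd ham k2
        · exact absurd hbm k2
        · exact Or.inl rfl
        · exact Or.inr k1
      · rintro (rfl | rfl)
        · refine ⟨by rw [hz.pal]; simp, fun k => ?_⟩
          rcases hTm _ k with k | k | k
          exacts [hz.ac k.symm, hz.bc k.symm, hez (by rw [← k, hz.pal]; simp)]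
        · refine ⟨by rw [hz.pal]; simp, fun k => ?_⟩
          rcases hTm _ k with k | k | k
          exacts [hz.ad k.symm, hz.bd k.symm, hez (by rw [← k, hz.pal]; simp)]
    rw [e1]; exact hp

/-- the arc at an externally tangent point is outside the other disc -/
theorem dist_tan {w w' v : ℂ} (hw1 : dist v w = 1) (hop : w + w' = 2 * v) {o t : ℝ}
    (ho : o = 1 ∨ o = -1) (h0 : 0 < t) (ht1 : t < 1) :
    1 < dist (w + (v - w) * cis (-(o * t))) w' := by
  have hw1' : ‖v - w‖ = 1 := by rw [← dist_eq_norm]; exact hw1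
  have e2 : w + (v - w) * cis (-(o * t)) - w' = (v - w) * (cis (-(o * t)) - 2) := by
    linear_combination -hop
  rw [dist_eq_norm, e2, norm_mul, hw1', one_mul]
  have h7 : (cis (-(o * t)) - 2).re = Real.cos t - 2 := by
    have : (cis (-(o * t))).re = Real.cos (-(o * t)) := by
      unfold cis
      rw [Complex.exp_ofReal_mul_I_re]
    rw [Complex.sub_re, this]
    have h8 : Real.cos (-(o * t)) = Real.cos t := by
      rw [Real.cos_neg]
      rcases ho with rfl | rfl
      · rw [one_mul]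
      · rw [neg_one_mul, Real.cos_neg]
    rw [h8]; norm_num
  have h9 : Real.cos t < 1 := by
    have := Real.cos_lt_cos_of_nonneg_of_le_pi (x := 0) (y := t) le_rfl
      (by linarith [Real.pi_gt_three]) h0
    rwa [Real.cos_zero] at this
  have h10 := Complex.abs_re_le_norm (cis (-(o * t)) - 2)
  rw [h7] at h10
  have h11 : |Real.cos t - 2| = 2 - Real.cos t := by
    rw [abs_of_neg (by linarith)]; ring
  rw [h11] at h10
  linarith

/-- **(UNIQ)** two centres of an end miss different colours -/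
theorem uniq471 (h : Irr U T) {z' : ℂ} {i : Fin 6} (hv : EE T z v) (hv' : EE T z' v)
    (hi : i ∈ T v) (hiz : i ∉ T z) (hiz' : i ∉ T z') : z = z' := by
  by_contra hne
  -- the same pair
  have hP : ∀ {x}, EE T x v → i ∉ T x → T x ∩ T v = T v \ {i} := by
    intro x hx hix
    refine Set.eq_of_subset_of_ncard_le ?_ ?_ (Set.toFinite _)
    · rintro j ⟨h1, h2⟩
      exact ⟨h2, fun h3 => hix (h3 ▸ h1)⟩
    · have h1 := Set.ncard_sdiff_singleton_add_one hi (Set.toFinite _)
      rw [hv.card_v] at h1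
      rw [hx.card_i]
      omega
  have e1 := hP hv hiz
  have e2 := hP hv' hiz'
  obtain ⟨a, b, c, d, h1, h2⟩ := hv'.names
  have hD : DPt T z' a b c d := hv'.dpt h h1 h2
  have e3 : T z ∩ T v = {a, b} := by rw [e1, ← e2, h1]
  obtain ⟨⟨o, ho, hd, -, -, -, ε, hε, hg⟩, -⟩ := hv
  -- points of the arc off `S(z')`
  have hlim : Tendsto (fun t : ℝ => z + (v - z) * cis (-(o * t))) (𝓝[>] 0) (𝓝 v) :=
    tendsto_rot z v o
  have hoff : ∀ᶠ t : ℝ in 𝓝[>] 0, 1 < dist (z + (v - z) * cis (-(o * t))) z' ∨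
      dist (z + (v - z) * cis (-(o * t))) z' < 1 := by
    by_cases hop : z + z' = 2 * v
    · have hs : ∀ᶠ t : ℝ in 𝓝[>] 0, t ∈ Ioo (0 : ℝ) 1 := Ioo_mem_nhdsGT one_pos
      filter_upwards [hs] with t ht
      exact Or.inl (dist_tan hd hop ho ht.1 ht.2)
    · obtain ⟨τ, hτ, -, k1, k2⟩ := branch_sides hd hv'.dist hne hop
      have hcase : τ = -o ∨ -τ = -o := by
        rcases hτ with rfl | rfl <;> rcases ho with rfl | rfl
        · exact Or.inr rfl
        · exact Or.inl (by norm_num)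
        · exact Or.inl rfl
        · exact Or.inr rfl
      rcases hcase with hc | hc
      · rw [hc] at k1
        filter_upwards [k1] with t ht
        left
        rwa [neg_mul] at ht
      · rw [hc] at k2
        filter_upwards [k2] with t ht
        right
        rwa [neg_mul] at ht
  have hex : ∀ᶠ t : ℝ in 𝓝[>] 0, T (z + (v - z) * cis (-(o * t))) = {a, b} := by
    have hs : ∀ᶠ t : ℝ in 𝓝[>] 0, t ∈ Ioo (0 : ℝ) ε := Ioo_mem_nhdsGT hε
    filter_upwards [hs] with t ht
    rw [hg t ht, e3]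
  rcases h.sides hD hv'.dist with hS | hS
  · obtain ⟨t, ⟨k1, k2⟩, k3⟩ := ((hoff.and hex).and (hlim.eventually hS)).exists
    rcases k1 with k1 | k1
    · exact k3.1 k1 (h.sub _ (by rw [k2]; exact Or.inl rfl))
    · exact k3.2 k1 (h.sub _ (by rw [k2]; exact Or.inr rfl))
  · obtain ⟨t, ⟨k1, k2⟩, k3⟩ := ((hoff.and hex).and (hlim.eventually hS)).exists
    rcases k1 with k1 | k1
    · exact k3.1 k1 (h.sub _ (by rw [k2]; exact Or.inr rfl))
    · exact k3.2 k1 (h.sub _ (by rw [k2]; exact Or.inl rfl))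

/-- the pairs of a centre -/
theorem prs_ee (h : Irr U T) (hv : EE T z v) : Prs T z (T v ∩ T z) := by
  obtain ⟨a, b, c, d, h1, h2⟩ := hv.names
  exact ⟨a, b, c, d, hv.dpt h h1 h2, by rw [inter_comm]; exact h1⟩

theorem Prs.compl (hX : Prs T z X) : Prs T z (T z \ X) := by
  obtain ⟨a, b, c, d, hD, rfl⟩ := hX
  refine ⟨c, d, a, b, hD.swap, ?_⟩
  rw [hD.pal]
  ext i
  simp only [Set.mem_sdiff, mem_insert_iff, mem_singleton_iff, not_or]
  constructor
  · rintro ⟨k1 | k1 | k1 | k1, k2, k3⟩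
    exacts [absurd k1 k2, absurd k1 k3, Or.inl k1, Or.inr k1]
  · rintro (rfl | rfl)
    · exact ⟨by simp, hD.ac.symm, hD.bc.symm⟩
    · exact ⟨by simp, hD.ad.symm, hD.bd.symm⟩

theorem Prs.card (hX : Prs T z X) : X.ncard = 2 := by
  obtain ⟨a, b, c, d, hD, rfl⟩ := hX
  exact Set.ncard_pair hD.ab

theorem Prs.tp (hX : Prs T z X) : Tp T z := by
  obtain ⟨a, b, c, d, hD, -⟩ := hX
  exact ⟨a, b, c, d, hD⟩

theorem Tp.card (hz : Tp T z) : (T z).ncard = 4 := by
  obtain ⟨a, b, c, d, hz⟩ := hz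
  rw [hz.pal, Set.ncard_insert_of_notMem, Set.ncard_insert_of_notMem, Set.ncard_pair hz.cd]
  · simp only [mem_insert_iff, mem_singleton_iff, not_or]
    exact ⟨hz.bc, hz.bd⟩
  · simp only [mem_insert_iff, mem_singleton_iff, not_or]
    exact ⟨hz.ab, hz.ac, hz.ad⟩

theorem Prs.sub (hX : Prs T z X) : X ⊆ T z := by
  obtain ⟨a, b, c, d, hD, rfl⟩ := hX
  rw [hD.pal]
  rintro i (rfl | rfl) <;> simp

theorem Prs.union (hX : Prs T z X) : T z = X ∪ (T z \ X) :=
  (Set.union_sdiff_cancel hX.sub).symm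

theorem Prs.twoPairs (h : Irr U T) (hX : Prs T z X) : TwoPairs T z X (T z \ X) := by
  have h2 := hX.compl
  obtain ⟨a, b, c, d, hD, rfl⟩ := hX
  have e : T z \ {a, b} = {c, d} := by
    rw [hD.pal]
    ext i
    simp only [Set.mem_sdiff, mem_insert_iff, mem_singleton_iff, not_or]
    constructor
    · rintro ⟨k1 | k1 | k1 | k1, k2, k3⟩
      exacts [absurd k1 k2, absurd k1 k3, Or.inl k1, Or.inr k1]
    · rintro (rfl | rfl)
      · exact ⟨by simp, hD.ac.symm, hD.bc.symm⟩
      · exact ⟨by simp, hD.ad.symm, hD.bd.symm⟩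
  rw [e]
  exact h.twoPairs hD

/-- an end from a pair of the palette -/
theorem ee_prs (h : Irr U T) (hX : Prs T z X) (hw : Tp T w) (hmz : dist m z = 1)
    (hmw : dist m w = 1) (h1 : w ≠ z) (h2 : w + z ≠ 2 * m) (hm : (T m).ncard = 3)
    (hXm : T z ∩ T m = X) (hcov : ∀ i, i ∈ T z ∨ i ∈ T w) : EE T z m := by
  obtain ⟨a, b, c, d, hD, rfl⟩ := hX
  have h3 : (T m \ {a, b}).Nonempty := by
    apply Set.nonempty_of_ncard_ne_zero
    have := Set.ncard_sdiff_add_ncard_of_subset (s := {a, b}) (t := T m)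
      (by rw [← hXm]; exact inter_subset_right) (Set.toFinite _)
    rw [hm, Set.ncard_pair hD.ab] at this
    omega
  obtain ⟨e, he, hne⟩ := h3
  have hez : e ∉ T z := fun hc => hne (by rw [← hXm]; exact ⟨hc, he⟩)
  exact ee_cross471 h hD hw hmz hmw h1 h2 hm hXm he hez ((hcov e).resolve_left hez)

/-- **(UA)** the common points of the circles of two two-pair points with all six colours -/
theorem ua471 (h : Irr U T) (hX : Prs T z X) (hY : Prs T w Y) (hcov : ∀ i, i ∈ T z ∨ i ∈ T w)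
    (h1 : (X ∩ Y).ncard = 1) (h2 : ((T z \ X) ∩ (T w \ Y)).ncard = 1) (hne : z ≠ w)
    (hne2 : z + w ≠ 2 * m) (hmz : dist m z = 1) (hmw : dist m w = 1) (hm : (T m).ncard ≤ 3) :
    (T m = X ∪ Y ∨ T m = (X ∪ Y)ᶜ) ∧ EE T z m ∧ EE T w m := by
  have c4 := hX.tp.card
  have c4' := hY.tp.card
  have hun : T z ∪ T w = univ := eq_univ_of_forall hcov
  have hcard : (T z ∩ T w).ncard = 2 := by
    have h3 := Set.ncard_union_add_ncard_inter (T z) (T w) (Set.toFinite _) (Set.toFinite _)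
    rw [hun, Set.ncard_univ, Nat.card_eq_fintype_card, Fintype.card_fin] at h3
    omega
  have hdj : Disjoint (X ∩ Y) ((T z \ X) ∩ (T w \ Y)) := by
    rw [Set.disjoint_left]
    rintro i ⟨k1, -⟩ ⟨⟨-, k2⟩, -⟩
    exact k2 k1
  have htot : (X ∩ Y) ∪ ((T z \ X) ∩ (T w \ Y)) = T z ∩ T w := by
    refine Set.eq_of_subset_of_ncard_le ?_ ?_ (Set.toFinite _)
    · rintro i (⟨k1, k2⟩ | ⟨⟨k1, -⟩, ⟨k2, -⟩⟩)
      · exact ⟨hX.sub k1, hY.sub k2⟩
      · exact ⟨k1, k2⟩
    · rw [Set.ncard_union_eq hdj (Set.toFinite _) (Set.toFinite _), h1, h2, hcard]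
  have eX : X ∩ T w = X ∩ Y := by
    ext i
    constructor
    · rintro ⟨k1, k2⟩
      have : i ∈ T z ∩ T w := ⟨hX.sub k1, k2⟩
      rw [← htot] at this
      rcases this with k3 | k3
      · exact k3
      · exact absurd k1 k3.1.2
    · rintro ⟨k1, k2⟩
      exact ⟨k1, hY.sub k2⟩
  have eY : Y ∩ T z = X ∩ Y := by
    ext i
    constructor
    · rintro ⟨k1, k2⟩
      have : i ∈ T z ∩ T w := ⟨k2, hY.sub k1⟩
      rw [← htot] at this
      rcases this with k3 | k3
      · exact k3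
      · exact absurd k1 k3.2.2
    · rintro ⟨k1, k2⟩
      exact ⟨k2, hX.sub k1⟩
  obtain ⟨k3, k4, k5⟩ := h.common_pairs hmz hmw hne hne2 hcov c4 c4' hX.union hX.card
    hX.compl.card hY.union hY.card hY.compl.card (by rw [eX]; exact h1) (by rw [eY]; exact h1)
    (hX.twoPairs h) (hY.twoPairs h) hm
  -- the palette of `m`
  have hTm : T m = (T m ∩ T z) ∪ (T m ∩ T w) := by
    ext i
    constructor
    · intro k
      rcases hcov i with k6 | k6
      · exact Or.inl ⟨k, k6⟩
      · exact Or.inr ⟨k, k6⟩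
    · rintro (k | k) <;> exact k.1
  have hbad : ∀ {A B : Set (Fin 6)}, A.ncard = 2 → B.ncard = 2 → A ∩ B = ∅ →
      T m ∩ T z = A → T m ∩ T w = B → False := by
    intro A B a1 a2 a3 a4 a5
    rw [a4, a5] at hTm
    have := Set.ncard_union_add_ncard_inter A B (Set.toFinite _) (Set.toFinite _)
    rw [a3, ← hTm, k3, Set.ncard_empty] at this
    omega
  have e1 : X ∩ (T w \ Y) = ∅ := by
    rw [Set.eq_empty_iff_forall_notMem]
    rintro i ⟨k1, k2, k6⟩
    have : i ∈ X ∩ T w := ⟨k1, k2⟩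
    rw [eX] at this
    exact k6 this.2
  have e2 : (T z \ X) ∩ Y = ∅ := by
    rw [Set.eq_empty_iff_forall_notMem]
    rintro i ⟨⟨k1, k2⟩, k6⟩
    have : i ∈ Y ∩ T z := ⟨k6, k1⟩
    rw [eY] at this
    exact k2 this.1
  have hcov' : ∀ i, i ∈ T w ∨ i ∈ T z := fun i => (hcov i).symm
  have hne2' : w + z ≠ 2 * m := by rw [add_comm]; exact hne2
  rcases k4 with k4 | k4 <;> rcases k5 with k5 | k5
  · rw [k4, k5] at hTm
    exact ⟨Or.inl hTm, ee_prs h hX hY.tp hmz hmw hne.symm hne2' k3 (by rw [inter_comm]; exact k4)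
      hcov, ee_prs h hY hX.tp hmw hmz hne hne2 k3 (by rw [inter_comm]; exact k5) hcov'⟩
  · exact (hbad hX.card hY.compl.card e1 k4 k5).elim
  · exact (hbad hX.compl.card hY.card e2 k4 k5).elim
  · refine ⟨Or.inr ?_, ee_prs h hX.compl hY.tp hmz hmw hne.symm hne2' k3
      (by rw [inter_comm]; exact k4) hcov, ee_prs h hY.compl hX.tp hmw hmz hne hne2 k3
      (by rw [inter_comm]; exact k5) hcov'⟩
    rw [k4, k5] at hTm
    rw [hTm]
    ext i
    simp only [mem_union, Set.mem_sdiff, mem_compl_iff, not_or]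
    constructor
    · rintro (⟨k6, k7⟩ | ⟨k6, k7⟩)
      · refine ⟨k7, fun k8 => ?_⟩
        have : i ∈ (T z \ X) ∩ Y := ⟨⟨k6, k7⟩, k8⟩
        rw [e2] at this
        exact this
      · refine ⟨fun k8 => ?_, k7⟩
        have : i ∈ X ∩ (T w \ Y) := ⟨k8, k6, k7⟩
        rw [e1] at this
        exact this
    · rintro ⟨k6, k7⟩
      rcases hcov i with k8 | k8
      · exact Or.inl ⟨k8, k6⟩
      · exact Or.inr ⟨k8, k7⟩

/-- **the frame has the fields of `JNet`**; the hypotheses are `Sec4` and the word facts -/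
theorem jnet471 (h : Irr U T) (hS : Sec4 T)
    (w0 : ∀ {z m}, (H946.Comp T (EE T) z ∨ ∃ y, Jp T z y) → dist m z = 1 → 4 ≤ (T m).ncard →
      T m = T z)
    (one : ∀ {z y}, H946.Comp T (EE T) z → Jp T z y → H946.Two (Jp T) z)
    (two_compl : ∀ {z v}, H946.Two (Jp T) z → H946.Comp T (EE T) z → EE T z v →
      ∃ q, EE T z q ∧ T q = (T v)ᶜ)
    (two_ori : ∀ {z v q}, H946.Two (Jp T) z → EE T z v → EE T z q → T q = (T v)ᶜ →
      ore T z q = - ore T z v)
    (two_dist : ∀ {z v q}, H946.Two (Jp T) z → EE T z v → EE T z q → T q = (T v)ᶜ →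
      1 ≤ dist (v + q - z) z)
    (two_cone : ∀ {z v v' q}, H946.Two (Jp T) z → EE T z v → EE T z v' → T v' = T v → v ≠ v' →
      EE T z q → T q = (T v)ᶜ →
      ∃ α β : ℝ, 0 < α ∧ 0 < β ∧ q - z = (α : ℂ) * (v - z) + (β : ℂ) * (v' - z)) :
    H946.JNet T (EE T) (Jp T) (Prs T) (ore T) (inn U T) where
  dist_E := fun hv => hv.dist
  card_z := fun hv => hv.card_z
  card_v := fun hv => hv.card_v
  card_i := fun hv => hv.card_i'
  rh := fun hv hq hc => ⟨rh471 h hS hv hq hc, rh471' h hS hv hq hc⟩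
  anti := fun hv hq hc => hv.anti h hq hc
  cov := fun hv hq hc => cov471 h hS hv hq hc
  ori := fun {z v} _ => ore_or T z v
  inn_mem := fun hv => hv.inn_mem h
  LP1 := fun hv hq hc => lp1_471 h hS hv hq hc
  LP3 := fun hv hq hc hv' hp hc' hcz hcw => lp3_471 h hS hv hq hc hv' hp hc' hcz hcw
  uniq := fun hv hv' hi hiz hiz' => uniq471 h hv hv' hi hiz hiz'
  pr_E := fun hv => prs_ee h hv
  ua := fun hX hY hcov h1 h2 hne hne2 hmz hmw hm =>
    ua471 h hX hY hcov h1 h2 hne hne2 hmz hmw hm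
  J_dist := fun hJ => hJ.2.2.1
  J_T := fun hJ => hJ.2.2.2
  J_symm := fun hJ => hJ.symm
  w0 := w0
  one := one
  two_compl := two_compl
  two_ori := two_ori
  two_dist := two_dist
  two_cone := two_cone

end Vale.Agent.P032.H471
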