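import Vale.Agent.P032.H471.Inst
import Vale.Agent.P032.H471.Jnet

/-!
# P032: the clusters of the centres with two points of both palettes, without `Sec4`

`Two2 T X z` : the circle of `z` has two points of palette `X` and two of palette `Xᶜ`.
`Q22 T X z` : `z` is four coloured and `Two2`, or it is the second centre of a node of such a centre.
`Q22.node` : the second centres of a `Q22` centre have four colours and are `Q22`.
`E22 T z v` : `EE T z v` and `Q22 T (T v) z`.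
`cnet22` : `Irr` and the hypothesis on the four coloured points of the circles of the `E22` centres
give `CNet T (E22 T) (ore T) (inn U T)`.
The lemmas `_loc` are the facts of `Inst` at one node with a second centre of at most four colours.
-/

open Set Filter Topology Metric

noncomputable section

namespace Vale.Agent.P032.H471

open Vale.Agent.P032.Six Vale.Agent.P032.S5.H450 Vale.Agent.P032.H838
  Vale.Agent.P032.Net.H672

variable {U : Fin 6 → Set ℂ} {T : ℂ → Set (Fin 6)} {X : Set (Fin 6)} {z v q m : ℂ}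

/-! ### one node -/

theorem ncfg_loc (h : Irr U T) (N : Nd T X z v q) (h4 : (T z).ncard = 4)
    (hw : (T (v + q - z)).ncard ≤ 4) : ∃ a b c d e f, NCfg T z v q a b c d e f := by
  obtain ⟨a, b, c, d, e, f, C⟩ := cfg_of_nd h N h4
  rcases C.normal h hw with N | N | N | N
  exacts [⟨_, _, _, _, _, _, N⟩, ⟨_, _, _, _, _, _, N⟩, ⟨_, _, _, _, _, _, N⟩,
    ⟨_, _, _, _, _, _, N⟩]

/-- the ends of a node -/
theorem ee_loc (h : Irr U T) (N : Nd T X z v q) (h4 : (T z).ncard = 4)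
    (hw : (T (v + q - z)).ncard ≤ 4) : EE T z v ∧ EE T z q := by
  obtain ⟨a, b, c, d, e, f, C⟩ := ncfg_loc h N h4 hw
  exact ⟨C.ee h, C.swap.ee h⟩

/-- the four ends of a node -/
theorem ee_loc' (h : Irr U T) (N : Nd T X z v q) (h4 : (T z).ncard = 4)
    (hw : (T (v + q - z)).ncard ≤ 4) : EE T (v + q - z) v ∧ EE T (v + q - z) q := by
  obtain ⟨a, b, c, d, e, f, C⟩ := ncfg_loc h N h4 hw
  have h1 := (C.conj h).ee h
  have h2 := (C.swap.conj h).ee h
  rw [add_comm q v] at h2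
  exact ⟨h1, h2⟩

section fields

variable (h : Irr U T) (hv : EE T z v) (hq : EE T z q) (hc : T q = (T v)ᶜ)
  (hw : (T (v + q - z)).ncard ≤ 4)
include h hv hq hc hw

theorem rh_loc : EE T (v + q - z) v := by
  obtain ⟨a, b, c, d, e, f, C, -, -⟩ := exists_ncfg h hv hv.dist rfl hq.dist hc hw
  exact (C.conj h).ee h

theorem rh_loc' : EE T (v + q - z) q := by
  have := rh_loc h hq hv (by rw [hc, compl_compl]) (by rwa [add_comm q v])
  rwa [add_comm q v] at this

theorem cov_loc (i : Fin 6) : i ∈ T z ∨ i ∈ T (v + q - z) := by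
  obtain ⟨a, b, c, d, e, f, C, -, -⟩ := exists_ncfg h hv hv.dist rfl hq.dist hc hw
  rw [C.dp.pal, C.TW]
  have := C.cover i
  simp only [mem_insert_iff, mem_singleton_iff]
  tauto

theorem lp1_loc : 0 < ore T z v * cr (z - v) (q - z) ↔ inn U T (v + q - z) v ∈ T z := by
  obtain ⟨a, b, c, d, e, f, C, -, -⟩ := exists_ncfg h hv hv.dist rfl hq.dist hc hw
  obtain ⟨o, h1, h2⟩ := C.lp1 h
  have ho : ore T z v = o := h1.ore_eq C.inter (ore_spec hv.1)
  rw [ho]
  rw [show v + q - z - v = q - z by ring] at h2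
  have hi := (C.conj h).inter
  have haz : a ∈ T z := by rw [C.dp.pal]; simp
  rcases h2 with ⟨h2, h3⟩ | ⟨h2, h3⟩
  · rw [EE.inn_eq h ⟨e, C.ea.symm, hi, h2⟩]
    exact ⟨fun _ => haz, fun _ => h3⟩
  · rw [EE.inn_eq h ⟨a, C.ea, by rw [hi, pair_comm], h2⟩]
    exact ⟨fun h5 => absurd h5 (not_lt.2 h3.le), fun h5 => absurd h5 C.he⟩

theorem lp3_loc {c p : ℂ} (hv' : EE T c v) (hp : EE T c p) (hc' : T p = (T v)ᶜ) (hcz : c ≠ z)
    (hcw : c ≠ v + q - z) : ∃ a b : ℝ, 0 ≤ a ∧ 0 ≤ b ∧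
      ((ore T c v : ℝ) : ℂ) * (c - v) + (a : ℂ) * (((ore T z v : ℝ) : ℂ) * (z - v))
        + (b : ℂ) * (((ore T (v + q - z) v : ℝ) : ℂ) * (q - z)) = 0 := by
  have hwv := rh_loc h hv hq hc hw
  have hwq := rh_loc' h hv hq hc hw
  have hop := hv.anti h hq hc
  have hvq : v ≠ q := (hv.en rfl).ne hv.card_v (hq.en hc)
  have hzw : z ≠ v + q - z := fun h5 => hop (by linear_combination -h5)
  have := h.lp3 (ore_spec hv.1) (ore_spec hwv.1) (ore_spec hv'.1) hv.2 hwv.2 hzw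
    (fun h5 => hvq (by linear_combination -h5))
    (fun h5 => hzw (hv.unique_pair h hwv hq hc hwq hc h5))
    (fun h5 => hcz (hv'.unique_pair h hv hp hc' hq hc h5))
    (fun h5 => hcw (hv'.unique_pair h hwv hp hc' hwq hc h5))
  rw [show v + q - z - v = q - z by ring] at this
  exact this

end fields

/-! ### centres with two points of both palettes -/

/-- two points of both palettes -/
def Two2 (T : ℂ → Set (Fin 6)) (X : Set (Fin 6)) (z : ℂ) : Prop :=
  (∃ x x', x ≠ x' ∧ dist x z = 1 ∧ dist x' z = 1 ∧ T x = X ∧ T x' = X) ∧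
    ∃ y y', y ≠ y' ∧ dist y z = 1 ∧ dist y' z = 1 ∧ T y = Xᶜ ∧ T y' = Xᶜ

/-- four coloured, and two points of both palettes or the second centre of a node of such a
centre -/
def Q22 (T : ℂ → Set (Fin 6)) (X : Set (Fin 6)) (z : ℂ) : Prop :=
  Two2 T X z ∨ ∃ z0 v q, (T z0).ncard = 4 ∧ Two2 T X z0 ∧ Nd T X z0 v q ∧ z = v + q - z0

theorem Two2.compl (h2 : Two2 T X z) : Two2 T Xᶜ z := ⟨h2.2, by rw [compl_compl]; exact h2.1⟩

theorem Q22.compl (h2 : Q22 T X z) : Q22 T Xᶜ z := by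
  rcases h2 with h2 | ⟨z0, v, q, h4, h2, N, rfl⟩
  · exact Or.inl h2.compl
  · exact Or.inr ⟨z0, q, v, h4, h2.compl, N.swap, by ring⟩

theorem Q22.of_compl (h2 : Q22 T Xᶜ z) : Q22 T X z := by
  have := h2.compl
  rwa [compl_compl] at this

/-- a set which misses a colour of `X` and one of `Xᶜ` -/
theorem card_le_four {S : Set (Fin 6)} {a d : Fin 6} (ha : a ∈ X) (hd : d ∈ Xᶜ) (haS : a ∉ S)
    (hdS : d ∉ S) : S.ncard ≤ 4 := by
  have had : a ≠ d := fun h1 => hd (h1 ▸ ha)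
  have h1 : S ⊆ ({a, d} : Set (Fin 6))ᶜ := by
    rintro i hi (rfl | h2)
    · exact haS hi
    · rw [mem_singleton_iff] at h2
      exact hdS (h2 ▸ hi)
  have h2 := Set.ncard_le_ncard h1 (Set.toFinite _)
  have h3 := Set.ncard_add_ncard_compl ({a, d} : Set (Fin 6))
  rw [Nat.card_eq_fintype_card, Fintype.card_fin, Set.ncard_pair had] at h3
  omega

/-- another point -/
theorem exists_other {P : ℂ → Prop} {x x' : ℂ} (hne : x ≠ x') (hx : P x) (hx' : P x') (y : ℂ) :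
    ∃ y', y' ≠ y ∧ P y' := by
  by_cases h1 : x = y
  · exact ⟨x', fun h2 => hne (h1.trans h2.symm), hx'⟩
  · exact ⟨x, h1, hx⟩

/-- the second `Xᶜ`-node of a centre with two points -/
theorem Two2.other_y (h : Irr U T) (h2 : Two2 T X z) (h4 : (T z).ncard = 4) (N : Nd T X z v q) :
    ∃ q', q' ≠ q ∧ Nd T X z v q' := by
  obtain ⟨⟨r, hr, hrz⟩, -⟩ := light_of_four h N h4
  obtain ⟨-, y, y', hne, d1, d2, t1, t2⟩ := h2
  obtain ⟨q', h1, h3, h5⟩ := exists_other (P := fun p => dist p z = 1 ∧ T p = Xᶜ) hne ⟨d1, t1⟩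
    ⟨d2, t2⟩ q
  exact ⟨q', h1, N.node_y h hr hrz h3 h5⟩

/-- the second centres of a centre with two points of both palettes have four colours -/
theorem Two2.le4 (h : Irr U T) (h2 : Two2 T X z) (h4 : (T z).ncard = 4) (N : Nd T X z v q) :
    (T (v + q - z)).ncard ≤ 4 := by
  obtain ⟨⟨r, hr, hrz⟩, s, hs, hsz⟩ := light_of_four h N h4
  obtain ⟨q', hq', N'⟩ := h2.other_y h h4 N
  obtain ⟨v', hv', N''⟩ := h2.compl.other_y h h4 N.swap
  obtain ⟨a, b, -, -, -, hXe, ha, -⟩ := N.two_light h N' hq'.symm hr hrz hs hsz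
  obtain ⟨d, g, -, -, -, hXe', hd, -⟩ := N.swap.two_light h N'' hv'.symm hs hsz
    (by rw [compl_compl]; exact hr) hrz
  rw [add_comm q v] at hd
  have haX : a ∈ X := by rw [hXe]; exact Or.inl rfl
  have hdX : d ∈ Xᶜ := by rw [hXe']; exact Or.inl rfl
  exact card_le_four haX hdX ha hd

/-- the second centre has four colours -/
theorem card_w (h : Irr U T) (N : Nd T X z v q) (hw : (T (v + q - z)).ncard ≤ 4) :
    (T (v + q - z)).ncard = 4 :=
  le_antisymm hw (N.other.four h)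

/-- a point of the second centre `w` of a centre with two points -/
theorem q22_aux (h : Irr U T) {z0 v0 q0 : ℂ} (h4 : (T z0).ncard = 4) (h2 : Two2 T X z0)
    (N0 : Nd T X z0 v0 q0) (N : Nd T X (v0 + q0 - z0) v0 q) (hq : q ≠ q0) :
    (T (v0 + q - (v0 + q0 - z0))).ncard ≤ 4 ∧ Q22 T X (v0 + q - (v0 + q0 - z0)) := by
  obtain ⟨⟨r, hr, hrz⟩, s, hs, hsz⟩ := light_of_four h N0 h4
  obtain ⟨q', hq', N'⟩ := h2.other_y h h4 N0
  have h5 := N0.ends_w h N' hq'.symm hr hrz hs hsz (by rw [dist_comm]; exact N.dq) N.Tq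
  have h6 : v0 + q - (v0 + q0 - z0) = v0 + q' - z0 := by
    rcases h5 with h5 | h5
    · exact absurd h5 hq
    · rw [h5]; ring
  rw [h6]
  exact ⟨h2.le4 h h4 N', Or.inr ⟨z0, v0, q', h4, h2, N', rfl⟩⟩

/-- **the second centres of a `Q22` centre have four colours and are `Q22`** -/
theorem Q22.node (h : Irr U T) (h2 : Q22 T X z) (h4 : (T z).ncard = 4) (N : Nd T X z v q) :
    (T (v + q - z)).ncard ≤ 4 ∧ Q22 T X (v + q - z) := by
  rcases h2 with h2 | ⟨z0, v0, q0, h40, h2, N0, rfl⟩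
  · exact ⟨h2.le4 h h4 N, Or.inr ⟨z, v, q, h4, h2, N, rfl⟩⟩
  by_cases hv : v = v0
  · subst hv
    by_cases hq : q = q0
    · subst hq
      rw [show v + q - (v + q - z0) = z0 by ring]
      exact ⟨h40.le, Or.inl h2⟩
    · exact q22_aux h h40 h2 N0 N hq
  · by_cases hq : q = q0
    · subst hq
      have e1 : q + v0 - z0 = v0 + q - z0 := by ring
      have h5 := q22_aux (X := Xᶜ) h h40 h2.compl N0.swap (q := v) (by rw [e1]; exact N.swap) hv
      rw [e1, add_comm q v] at h5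
      exact ⟨h5.1, h5.2.of_compl⟩
    · have h3 : Two2 T X (v0 + q0 - z0) :=
        ⟨⟨v, v0, hv, by rw [dist_comm]; exact N.dv, by rw [dist_comm]; exact N0.other.dv, N.Tv,
          N0.Tv⟩, q, q0, hq, by rw [dist_comm]; exact N.dq, by rw [dist_comm]; exact N0.other.dq,
          N.Tq, N0.Tq⟩
      exact ⟨h3.le4 h h4 N, Or.inr ⟨_, v, q, h4, h3, N, rfl⟩⟩

/-- an end of a `Q22` centre -/
def E22 (T : ℂ → Set (Fin 6)) (z v : ℂ) : Prop := EE T z v ∧ Q22 T (T v) z

/-- the points of order at least four of the circles of the `E22` centres -/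
def OnlyJ22 (T : ℂ → Set (Fin 6)) : Prop :=
  ∀ z v q y, E22 T z v → E22 T z q → T q = (T v)ᶜ → dist y z = 1 → (T y).ncard ≤ 3 ∨ T y = T z

theorem OnlyJC.only22 (hJ : OnlyJC T) : OnlyJ22 T := fun z v q y hv hq hc hy =>
  hJ z v q y hv.1 hq.1 hc hy

/-- the nodes of an `E22` centre -/
theorem E22.node (h : Irr U T) (hv : E22 T z v) (hq : E22 T z q) (hc : T q = (T v)ᶜ) :
    (T (v + q - z)).ncard ≤ 4 ∧ Q22 T (T v) (v + q - z) :=
  hv.2.node h hv.1.card_z (nd_of_ee h hv.1 hq.1 hc)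

/-- **`CNet` for the clusters of the `(2,2)`-centres, without `Sec4`** -/
theorem cnet22 (h : Irr U T) (hJ : OnlyJ22 T) : CNet T (E22 T) (ore T) (inn U T) where
  dst := fun hv => hv.1.dist
  rh := fun hv hq hc => ⟨rh_loc h hv.1 hq.1 hc (hv.node h hq hc).1, (hv.node h hq hc).2⟩
  three := fun {v z₁ z₂ z₃ z₄} h1 h2 h3 h4 => by
    have key : ∀ {z}, Full T (E22 T) z v → Full T (EE T) z v := by
      rintro z ⟨hv, q, hq, hc⟩
      exact ⟨hv.1, q, hq.1, hc⟩
    exact three471 h (key h1) (key h2) (key h3) (key h4)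
  sep := fun h1 h2 h3 h4 h5 h6 h7 => sep471 h h1.1 h2.1 h3.1 h4.1 h5 h6 h7
  card_z := fun hv => hv.1.card_z
  card_v := fun hv => hv.1.card_v
  card_i := fun hv => hv.1.card_i'
  cov := fun hv hq hc => cov_loc h hv.1 hq.1 hc (hv.node h hq hc).1
  ori := fun {z v} _ => ore_or T z v
  inn_mem := fun hv => hv.1.inn_mem h
  LP1 := fun hv hq hc => lp1_loc h hv.1 hq.1 hc (hv.node h hq hc).1
  LP2 := fun hq hv hv' h1 h2 => hq.1.lp2 h hv.1 hv'.1 h1 h2
  LP3 := fun hv hq hc hv' hp hc' hcz hcw =>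
    lp3_loc h hv.1 hq.1 hc (hv.node h hq hc).1 hv'.1 hp.1 hc' hcz hcw
  auto := fun {z v q m} hv hq hc hm hTm => by
    have N := nd_of_ee h hv.1 hq.1 hc
    obtain ⟨-, s, hs, hsz⟩ := light_of_four h N hv.1.card_z
    have N' := N.node_x h hs hsz hm hTm
    have h5 := hv.2.node h hv.1.card_z N'
    exact ⟨(ee_loc h N' hv.1.card_z h5.1).1, by rw [hTm]; exact hv.2⟩
  tan := fun hw hw' hop => tan471 h hw.1 hw'.1 hop
  four := fun hv hq hc hy => hJ _ _ _ _ hv hq hc hy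
  common := fun e1 _ e3 e1' _ e3' hne hcov d d' n s s' h3 =>
    e1.1.common h e3 e1'.1 e3' hne hcov d d' n s s' h3

/-- the ends of a `(2,2)`-centre are `E22` -/
theorem e22_of_two (h : Irr U T) (h2 : Two2 T X z) (h4 : (T z).ncard = 4) (N : Nd T X z v q) :
    E22 T z v ∧ E22 T z q := by
  have h5 := ee_loc h N h4 (h2.le4 h h4 N)
  refine ⟨⟨h5.1, Or.inl (by rw [N.Tv]; exact h2)⟩, h5.2, Or.inl ?_⟩
  rw [N.Tq]; exact h2.compl

/-- a `(2,2)`-centre with complementary ends -/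
theorem e22_of_ee (h : Irr U T) (hv : EE T z v) (hq : EE T z q) (hc : T q = (T v)ᶜ)
    (h2 : Two2 T (T v) z) : E22 T z v ∧ E22 T z q :=
  e22_of_two h h2 hv.card_z (nd_of_ee h hv hq hc)

/-- all points of palette `T v` or `(T v)ᶜ` on the circle of an `E22` centre are `E22` ends -/
theorem e22_auto (h : Irr U T) (hv : E22 T z v) (hq : E22 T z q) (hc : T q = (T v)ᶜ)
    (hm : dist m z = 1) (hT : T m = T v ∨ T m = (T v)ᶜ) : E22 T z m := by
  have N := nd_of_ee h hv.1 hq.1 hc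
  obtain ⟨⟨r, hr, hrz⟩, s, hs, hsz⟩ := light_of_four h N hv.1.card_z
  rcases hT with hT | hT
  · have N' := N.node_x h hs hsz hm hT
    exact ⟨(ee_loc h N' hv.1.card_z (hv.2.node h hv.1.card_z N').1).1, by rw [hT]; exact hv.2⟩
  · have N' := N.node_y h hr hrz hm hT
    exact ⟨(ee_loc h N' hv.1.card_z (hv.2.node h hv.1.card_z N').1).2,
      by rw [hT]; exact hv.2.compl⟩

/-- (UA) for `E22` centres, with `E22` ends -/
theorem e22_common (h : Irr U T) {w v' q' : ℂ} (hv : E22 T z v) (hq : E22 T z q)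
    (hc : T q = (T v)ᶜ) (hv' : E22 T w v') (hq' : E22 T w q') (hc' : T q' = (T v')ᶜ)
    (hTT : T v' = T v) (hcov : ∀ i, i ∈ T z ∨ i ∈ T w) (hne : z ≠ w)
    (hne2 : z + w ≠ 2 * m) (hmz : dist m z = 1) (hmw : dist m w = 1) (hm : (T m).ncard ≤ 3) :
    (T m = T v ∨ T m = (T v)ᶜ) ∧ E22 T z m ∧ E22 T w m := by
  have cz := hv.1.card_z
  have cw := hv'.1.card_z
  have hun : T z ∪ T w = univ := eq_univ_of_forall hcov
  -- the missing colours
  obtain ⟨⟨r, hr, hrz⟩, s, hs, hsz⟩ := light_of_four h (nd_of_ee h hv.1 hq.1 hc) cz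
  obtain ⟨⟨r', hr', hrw⟩, s', hs', hsw⟩ := light_of_four h (nd_of_ee h hv'.1 hq'.1 hc') cw
  rw [hTT] at hr' hs'
  have hrr : r ≠ r' := fun h1 => (hcov r).elim hrz (h1 ▸ hrw)
  have hss : s ≠ s' := fun h1 => (hcov s).elim hsz (h1 ▸ hsw)
  have c3 := hv.1.card_v
  have c3' : ((T v)ᶜ).ncard = 3 := by rw [← hc]; exact hq.1.card_v
  have key : ∀ {A : Set (Fin 6)} {x y : Fin 6}, A.ncard = 3 → x ∈ A → y ∈ A → x ≠ y →
      (A \ {x} ∩ (A \ {y})).ncard = 1 := by
    intro A x y hA hx hy hxy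
    have e1 : A \ {x} ∩ (A \ {y}) = A \ {x, y} := by
      ext i
      simp only [mem_inter_iff, Set.mem_sdiff, mem_singleton_iff, mem_insert_iff, not_or]
      tauto
    have h2 := Set.ncard_sdiff_add_ncard_of_subset (s := {x, y}) (t := A)
      (by rintro i (rfl | h3)
          · exact hx
          · rw [mem_singleton_iff] at h3; exact h3 ▸ hy) (Set.toFinite _)
    rw [hA, Set.ncard_pair hxy] at h2
    rw [e1]; omega
  have pal : ∀ {c : ℂ} {A : Set (Fin 6)} {x : Fin 6}, A.ncard = 3 → (A ∩ T c).ncard = 2 → x ∈ A →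
      x ∉ T c → A ∩ T c = A \ {x} := by
    intro c A x hA h2 hx hxc
    refine Set.eq_of_subset_of_ncard_le ?_ ?_ (Set.toFinite _)
    · rintro i ⟨h3, h4⟩
      exact ⟨h3, fun h5 => hxc (by rw [mem_singleton_iff] at h5; exact h5 ▸ h4)⟩
    · have h3 := Set.ncard_sdiff_singleton_add_one hx (Set.toFinite _)
      omega
  have pz : T v ∩ T z = T v \ {r} := pal c3 hv.1.card_i' hr hrz
  have pw : T v ∩ T w = T v \ {r'} := pal c3 (by rw [← hTT]; exact hv'.1.card_i') hr' hrw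
  have qz : (T v)ᶜ ∩ T z = (T v)ᶜ \ {s} := pal c3' (by rw [← hc]; exact hq.1.card_i') hs hsz
  have qw : (T v)ᶜ ∩ T w = (T v)ᶜ \ {s'} :=
    pal c3' (by rw [← hTT, ← hc']; exact hq'.1.card_i') hs' hsw
  have hX : Prs T z (T v ∩ T z) := prs_ee h hv.1
  have hY : Prs T w (T v ∩ T w) := by
    have := prs_ee h hv'.1
    rwa [hTT] at this
  have e1 : ∀ c : ℂ, T c \ (T v ∩ T c) = (T v)ᶜ ∩ T c := by
    intro c
    ext i
    simp only [Set.mem_sdiff, mem_inter_iff, mem_compl_iff]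
    tauto
  obtain ⟨h1, h2, h3⟩ := ua471 h hX hY hcov (by rw [pz, pw]; exact key c3 hr hr' hrr)
    (by rw [e1, e1, qz, qw]; exact key c3' hs hs' hss) hne hne2 hmz hmw hm
  have eX : T v ∩ T z ∪ T v ∩ T w = T v := by
    rw [← Set.inter_union_distrib_left, hun, inter_univ]
  rw [eX] at h1
  exact ⟨h1, e22_auto h hv hq hc hmz h1, e22_auto h hv' hq' hc' hmw (by rw [hTT]; exact h1)⟩

end Vale.Agent.P032.H471
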