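import Vale.Agent.P032.S5.H913.Sides
import Vale.Agent.P032.S5.H824.Pairs

/-!
# P032: common points of two circles, one-sided letters

Frame `Irr U T` (plus the two-pair rule `TwoPairs`).  `z` a two-pair point, `m` a common point of
`S(z)` and `S(w)`, no tangency.

`Irr.cross471` : the half branch of `S(w)` at `m` outside `D(z)` misses one colour of each pair of
`z`, the half branch inside `D(z)` misses the two other ones ((1S) of 838).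
`Irr.ub471` : (UB) of 838: `T z ∪ T w` everything, `z = st|s't'`, `w = se|te'`, `|T m| ≤ 3`: the two
half branches of `S(w)` at `m` carry `s'` and `t'`.
-/

open Set Filter Topology Metric

noncomputable section

namespace Vale.Agent.P032.Six

section

variable {k : ℕ} {U : Fin k → Set ℂ} {T : ℂ → Set (Fin k)} {a b c d : Fin k}

/-- the half branch `τ` of `S(w)` at `m` -/
def hbr (w m : ℂ) (τ t : ℝ) : ℂ := w + (m - w) * cis (τ * t)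

theorem dist_hbr {w m : ℂ} (h : dist m w = 1) (τ t : ℝ) : dist (hbr w m τ t) w = 1 := by
  unfold hbr
  rw [dist_eq_norm, add_sub_cancel_left, norm_mul, norm_cis, mul_one, ← dist_eq_norm, h]

theorem tendsto_hbr (w m : ℂ) (τ : ℝ) : Tendsto (hbr w m τ) (𝓝[>] 0) (𝓝 m) := tendsto_arc w m τ

/-- **(1S)** the half branches of a circle through `m ∈ S(z)` -/
theorem Irr.cross471 (h : Irr U T) {z w m : ℂ} (hz : DPt T z a b c d) (hmz : dist m z = 1)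
    (hmw : dist m w = 1) (h1 : w ≠ z) (h2 : w + z ≠ 2 * m) :
    ∃ i i' j j' : Fin k, ((i = a ∧ i' = b) ∨ (i = b ∧ i' = a)) ∧
      ((j = c ∧ j' = d) ∨ (j = d ∧ j' = c)) ∧ Sd U z m i i' ∧ Sd U z m j j' ∧
      ∃ τ : ℝ, (τ = 1 ∨ τ = -1) ∧ 0 < τ * cr (m - w) (m - z) ∧
        (∀ᶠ t in 𝓝[>] (0 : ℝ), i ∉ T (hbr w m τ t) ∧ j ∉ T (hbr w m τ t)) ∧
        ∀ᶠ t in 𝓝[>] (0 : ℝ), i' ∉ T (hbr w m (-τ) t) ∧ j' ∉ T (hbr w m (-τ) t) := by
  obtain ⟨τ, hτ, hs, ho, hi⟩ := branch_sides hmw hmz h1 h2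
  have key : ∀ {i i' j j' : Fin k}, Sd U z m i i' → Sd U z m j j' →
      (∀ᶠ t in 𝓝[>] (0 : ℝ), i ∉ T (hbr w m τ t) ∧ j ∉ T (hbr w m τ t)) ∧
        ∀ᶠ t in 𝓝[>] (0 : ℝ), i' ∉ T (hbr w m (-τ) t) ∧ j' ∉ T (hbr w m (-τ) t) := by
    intro i i' j j' k1 k2
    constructor
    · filter_upwards [(tendsto_hbr w m τ).eventually k1, (tendsto_hbr w m τ).eventually k2, ho]
        with t e1 e2 e3
      exact ⟨fun hi => e1.1 e3 (h.sub _ hi), fun hi => e2.1 e3 (h.sub _ hi)⟩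
    · filter_upwards [(tendsto_hbr w m (-τ)).eventually k1,
        (tendsto_hbr w m (-τ)).eventually k2, hi] with t e1 e2 e3
      exact ⟨fun hi => e1.2 e3 (h.sub _ hi), fun hi => e2.2 e3 (h.sub _ hi)⟩
  rcases h.sides hz hmz with k1 | k1 <;> rcases h.sides hz.swap hmz with k2 | k2
  · exact ⟨a, b, c, d, Or.inl ⟨rfl, rfl⟩, Or.inl ⟨rfl, rfl⟩, k1, k2, τ, hτ, hs, key k1 k2⟩
  · exact ⟨a, b, d, c, Or.inl ⟨rfl, rfl⟩, Or.inr ⟨rfl, rfl⟩, k1, k2, τ, hτ, hs, key k1 k2⟩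
  · exact ⟨b, a, c, d, Or.inr ⟨rfl, rfl⟩, Or.inl ⟨rfl, rfl⟩, k1, k2, τ, hτ, hs, key k1 k2⟩
  · exact ⟨b, a, d, c, Or.inr ⟨rfl, rfl⟩, Or.inr ⟨rfl, rfl⟩, k1, k2, τ, hτ, hs, key k1 k2⟩

end

section

variable {U : Fin 6 → Set ℂ} {T : ℂ → Set (Fin 6)}

/-- the letter of a point of `S(z)`, `z` with the two exact pairs `P`, `Q` only -/
theorem Irr.letter471 (h : Irr U T) {z q : ℂ} {P Q : Set (Fin 6)} (hp : TwoPairs T z P Q)
    (hq : dist q z = 1) : (∃ i ∈ T q, i ∉ T z) ∨ P ⊆ T q ∨ Q ⊆ T q := by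
  by_cases hs : T q ⊆ T z
  · exact Or.inr (h.pair_of_subT hp hq hs)
  · obtain ⟨i, h1, h2⟩ := Set.not_subset.1 hs
    exact Or.inl ⟨i, h1, h2⟩

/-- **(UB)**, one half -/
theorem Irr.ub_half471 (h : Irr U T) {z w m : ℂ} {s t s' t' e e' i i' j j' : Fin 6}
    (hmz : dist m z = 1) (hmw : dist m w = 1) (h1 : w ≠ z) (h2 : w + z ≠ 2 * m)
    (hnd : [s, t, s', t', e, e'].Nodup)
    (hz : T z = {s, t, s', t'}) (hw : T w = {s, t, e, e'}) (hm : (T m).ncard ≤ 3)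
    (hpz : TwoPairs T z {s, t} {s', t'}) (hpw : TwoPairs T w {s, e} {t, e'})
    (hi : (i = s ∧ i' = t) ∨ (i = t ∧ i' = s)) (hj : (j = s' ∧ j' = t') ∨ (j = t' ∧ j' = s'))
    {τ τ' : ℝ}
    (ho : ∀ᶠ x in 𝓝[>] (0 : ℝ), i ∉ T (hbr w m τ x) ∧ j ∉ T (hbr w m τ x))
    (hin : ∀ᶠ x in 𝓝[>] (0 : ℝ), i' ∉ T (hbr w m τ' x) ∧ j' ∉ T (hbr w m τ' x)) :
    ∀ᶠ x in 𝓝[>] (0 : ℝ), j' ∈ T (hbr w m τ x) := by
  have hall := all_six hnd
  have hn := hnd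
  simp only [List.nodup_cons, List.mem_cons, List.not_mem_nil, or_false, not_or, not_false_eq_true,
    and_true, List.nodup_nil] at hn
  obtain ⟨⟨nst, nss', nst', nse, nse'⟩, ⟨nts', ntt', nte, nte'⟩, ⟨ns't', ns'e, ns'e'⟩,
    ⟨nt'e, nt'e'⟩, nee'⟩ := hn
  have hsub : ∀ σ : ℝ, ∀ᶠ x in 𝓝[>] (0 : ℝ), T (hbr w m σ x) ⊆ T m := fun σ =>
    (tendsto_hbr w m σ).eventually (h.nhd m)
  -- the letter of a point of the half branch which misses `x1`, `s'` and `t'`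
  have lt : ∀ {q : ℂ} {x1 x2 : Fin 6}, dist q w = 1 → ((x1 = s ∧ x2 = t) ∨ (x1 = t ∧ x2 = s)) →
      x1 ∉ T q → s' ∉ T q → t' ∉ T q →
      ∃ g, ((x2 = s ∧ g = e) ∨ (x2 = t ∧ g = e')) ∧ x2 ∈ T q ∧ g ∈ T q := by
    intro q x1 x2 hq hx k1 k2 k3
    rcases h.letter471 hpw hq with ⟨y, k4, k5⟩ | k4 | k4
    · rw [hw] at k5
      simp only [mem_insert_iff, mem_singleton_iff, not_or] at k5
      rcases hall y with rfl | rfl | rfl | rfl | rfl | rfl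
      exacts [absurd rfl k5.1, absurd rfl k5.2.1, absurd k4 k2, absurd k4 k3,
        absurd rfl k5.2.2.1, absurd rfl k5.2.2.2]
    · have hs : s ∈ T q := k4 (Or.inl rfl)
      have he : e ∈ T q := k4 (Or.inr rfl)
      rcases hx with ⟨rfl, rfl⟩ | ⟨rfl, rfl⟩
      · exact absurd hs k1
      · exact ⟨e, Or.inl ⟨rfl, rfl⟩, hs, he⟩
    · have hs : t ∈ T q := k4 (Or.inl rfl)
      have he : e' ∈ T q := k4 (Or.inr rfl)
      rcases hx with ⟨rfl, rfl⟩ | ⟨rfl, rfl⟩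
      · exact ⟨e', Or.inr ⟨rfl, rfl⟩, hs, he⟩
      · exact absurd hs k1
  by_contra hcon
  have hfr : ∃ᶠ x in 𝓝[>] (0 : ℝ), j' ∉ T (hbr w m τ x) := by
    rw [Filter.not_eventually] at hcon; exact hcon
  obtain ⟨x, ⟨hx1, hx2⟩, hx3⟩ := ((hfr.and_eventually ho).and_eventually (hsub τ)).exists
  have hs't' : s' ∉ T (hbr w m τ x) ∧ t' ∉ T (hbr w m τ x) := by
    rcases hj with ⟨rfl, rfl⟩ | ⟨rfl, rfl⟩
    · exact ⟨hx2.2, hx1⟩
    · exact ⟨hx1, hx2.2⟩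
  obtain ⟨g, hg, hg1, hg2⟩ := lt (dist_hbr hmw τ x) hi hx2.1 hs't'.1 hs't'.2
  have mi' : i' ∈ T m := hx3 hg1
  have mg : g ∈ T m := hx3 hg2
  have ngi' : g ≠ i' := by
    rcases hg with ⟨rfl, rfl⟩ | ⟨rfl, rfl⟩
    · exact Ne.symm nse
    · exact Ne.symm nte'
  -- the inner branch carries `j`
  have hjm : ∀ᶠ x in 𝓝[>] (0 : ℝ), j ∈ T (hbr w m τ' x) := by
    filter_upwards [hin, hsub τ'] with y hy1 hy2
    by_contra hjy
    have h3 : s' ∉ T (hbr w m τ' y) ∧ t' ∉ T (hbr w m τ' y) := by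
      rcases hj with ⟨rfl, rfl⟩ | ⟨rfl, rfl⟩
      · exact ⟨hjy, hy1.2⟩
      · exact ⟨hy1.2, hjy⟩
    obtain ⟨g', hg', k1, k2⟩ := lt (x1 := i') (x2 := i) (dist_hbr hmw τ' y)
      (by rcases hi with ⟨rfl, rfl⟩ | ⟨rfl, rfl⟩
          · exact Or.inr ⟨rfl, rfl⟩
          · exact Or.inl ⟨rfl, rfl⟩) hy1.1 h3.1 h3.2
    have mi : i ∈ T m := hy2 k1
    have mg' : g' ∈ T m := hy2 k2
    rcases hi with ⟨rfl, rfl⟩ | ⟨rfl, rfl⟩ <;> rcases hg with ⟨q1, rfl⟩ | ⟨q1, rfl⟩ <;>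
      rcases hg' with ⟨q2, rfl⟩ | ⟨q2, rfl⟩
    · exact absurd q1 (Ne.symm nst)
    · exact absurd q1 (Ne.symm nst)
    · exact four_false hm mi mi' mg mg' nst nse' nse nte' nte (Ne.symm nee')
    · exact absurd q2 nst
    · exact absurd q2 (Ne.symm nst)
    · exact four_false hm mi mi' mg mg' (Ne.symm nst) nte nte' nse nse' nee'
    · exact absurd q1 nst
    · exact absurd q1 nst
  obtain ⟨y, hy1, hy2⟩ := (hjm.and (hsub τ')).exists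
  have mj : j ∈ T m := hy2 hy1
  -- the palette of `m`
  have nji' : j ≠ i' := by
    rcases hj with ⟨rfl, rfl⟩ | ⟨rfl, rfl⟩ <;> rcases hi with ⟨rfl, rfl⟩ | ⟨rfl, rfl⟩
    exacts [Ne.symm nts', Ne.symm nss', Ne.symm ntt', Ne.symm nst']
  have njg : j ≠ g := by
    rcases hj with ⟨rfl, rfl⟩ | ⟨rfl, rfl⟩ <;> rcases hg with ⟨-, rfl⟩ | ⟨-, rfl⟩
    exacts [ns'e, ns'e', nt'e, nt'e']
  have hTm : ∀ x ∈ T m, x = i' ∨ x = g ∨ x = j := by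
    intro x hx
    by_contra hcon
    push Not at hcon
    exact four_false hm hx mi' mg mj hcon.1 hcon.2.1 hcon.2.2 (Ne.symm ngi') (Ne.symm nji')
      (Ne.symm njg)
  -- `S(z)` near `m` carries `g`
  have hgw : g ∈ T w := by
    rw [hw]
    rcases hg with ⟨-, rfl⟩ | ⟨-, rfl⟩ <;> simp
  have hmi : i ∉ T m := by
    intro k1
    rcases hTm i k1 with k2 | k2 | k2
    · rcases hi with ⟨rfl, rfl⟩ | ⟨rfl, rfl⟩
      · exact nst k2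
      · exact nst k2.symm
    · rcases hi with ⟨rfl, -⟩ | ⟨rfl, -⟩ <;> rcases hg with ⟨-, rfl⟩ | ⟨-, rfl⟩
      exacts [nse k2, nse' k2, nte k2, nte' k2]
    · rcases hj with ⟨rfl, -⟩ | ⟨rfl, -⟩ <;> rcases hi with ⟨rfl, -⟩ | ⟨rfl, -⟩
      exacts [nss' k2, nts' k2, nst' k2, ntt' k2]
  have hmj' : j' ∉ T m := by
    intro k1
    rcases hTm j' k1 with k2 | k2 | k2
    · rcases hj with ⟨-, rfl⟩ | ⟨-, rfl⟩ <;> rcases hi with ⟨-, rfl⟩ | ⟨-, rfl⟩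
      exacts [ntt' k2.symm, nst' k2.symm, nts' k2.symm, nss' k2.symm]
    · rcases hj with ⟨-, rfl⟩ | ⟨-, rfl⟩ <;> rcases hg with ⟨-, rfl⟩ | ⟨-, rfl⟩
      exacts [nt'e k2, nt'e' k2, ns'e k2, ns'e' k2]
    · rcases hj with ⟨rfl, rfl⟩ | ⟨rfl, rfl⟩
      · exact ns't' k2.symm
      · exact ns't' k2
  refine h.not_eventually hmz hmw h1 h2 hgw ?_
  filter_upwards [mem_nhdsWithin_of_mem_nhds (h.nhd m), self_mem_nhdsWithin] with q k1 k2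
  rcases h.letter471 hpz (show dist q z = 1 from k2) with ⟨y, k3, k4⟩ | k3 | k3
  · have k5 := hTm y (k1 k3)
    rcases k5 with rfl | rfl | rfl
    · exfalso; apply k4; rw [hz]
      rcases hi with ⟨-, rfl⟩ | ⟨-, rfl⟩ <;> simp
    · exact k3
    · exfalso; apply k4; rw [hz]
      rcases hj with ⟨rfl, -⟩ | ⟨rfl, -⟩ <;> simp
  · exfalso
    rcases hi with ⟨rfl, rfl⟩ | ⟨rfl, rfl⟩
    · exact hmi (k1 (k3 (Or.inl rfl)))
    · exact hmi (k1 (k3 (Or.inr rfl)))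
  · exfalso
    rcases hj with ⟨rfl, rfl⟩ | ⟨rfl, rfl⟩
    · exact hmj' (k1 (k3 (Or.inr rfl)))
    · exact hmj' (k1 (k3 (Or.inl rfl)))

/-- **(UB)**: `z = st|s't'`, `w = se|te'` with all six colours; at a common point `m` with at most
three colours the two half branches of `S(w)` carry `s'` and `t'` (and not the other one) -/
theorem Irr.ub471 (h : Irr U T) {z w m : ℂ} {s t s' t' e e' : Fin 6}
    (hD : DPt T z s t s' t') (hmz : dist m z = 1) (hmw : dist m w = 1) (h1 : w ≠ z)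
    (h2 : w + z ≠ 2 * m) (hnd : [s, t, s', t', e, e'].Nodup)
    (hw : T w = {s, t, e, e'}) (hm : (T m).ncard ≤ 3)
    (hpz : TwoPairs T z {s, t} {s', t'}) (hpw : TwoPairs T w {s, e} {t, e'}) :
    ∃ j j' : Fin 6, ((j = s' ∧ j' = t') ∨ (j = t' ∧ j' = s')) ∧ Sd U z m j j' ∧
      ∃ τ : ℝ, (τ = 1 ∨ τ = -1) ∧ 0 < τ * cr (m - w) (m - z) ∧
        (∀ᶠ x in 𝓝[>] (0 : ℝ), j' ∈ T (hbr w m τ x) ∧ j ∉ T (hbr w m τ x)) ∧
        ∀ᶠ x in 𝓝[>] (0 : ℝ), j ∈ T (hbr w m (-τ) x) ∧ j' ∉ T (hbr w m (-τ) x) := by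
  obtain ⟨i, i', j, j', hi, hj, -, hs, τ, hτ, hcr, ho, hin⟩ := h.cross471 hD hmz hmw h1 h2
  refine ⟨j, j', hj, hs, τ, hτ, hcr, ?_, ?_⟩
  · have k1 := h.ub_half471 hmz hmw h1 h2 hnd hD.pal hw hm hpz hpw hi hj ho hin
    filter_upwards [k1, ho] with x e1 e2
    exact ⟨e1, e2.2⟩
  · have hi' : (i' = s ∧ i = t) ∨ (i' = t ∧ i = s) := by
      rcases hi with ⟨rfl, rfl⟩ | ⟨rfl, rfl⟩
      · exact Or.inr ⟨rfl, rfl⟩
      · exact Or.inl ⟨rfl, rfl⟩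
    have hj' : (j' = s' ∧ j = t') ∨ (j' = t' ∧ j = s') := by
      rcases hj with ⟨rfl, rfl⟩ | ⟨rfl, rfl⟩
      · exact Or.inr ⟨rfl, rfl⟩
      · exact Or.inl ⟨rfl, rfl⟩
    have k1 := h.ub_half471 hmz hmw h1 h2 hnd hD.pal hw hm hpz hpw hi' hj' hin ho
    filter_upwards [k1, hin] with x e1 e2
    exact ⟨e1, e2.2⟩

end

end Vale.Agent.P032.Six
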