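import Vale.Agent.P032.H471.KBits
import Vale.Agent.P032.H646.Glue
import Vale.Agent.P032.S5.H767.Raw

/-!
# P032: the missing colours of the partners of a (2,2)-centre

`hP_of` : from the kernel check of 646 and the two word facts (`R3`, `R4`) on the centres with two
ends of one type and one or two ends of the other type: the partners of a (2,2)-centre through
`q 0` miss the same colour of the palette of `v 0`.
-/

open Set Filter Topology Metric

noncomputable section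

namespace Vale.Agent.P032.H471

open Vale.Agent.P032.Six Vale.Agent.P032.S5.H450 Vale.Agent.P032.H838
  Vale.Agent.P032.Net.H672 Vale.Agent.P032.H646 Vale.Agent.P032.S5.H767

variable {U : Fin 6 → Set ℂ} {T : ℂ → Set (Fin 6)} {X : Set (Fin 6)} {z : ℂ} {v q : Fin 2 → ℂ}

/-! ### signs as Booleans -/

theorem or_eq {o s : ℝ} {P : Prop} {bo bs bP : Bool} (ho : o = 1 ∨ o = -1)
    (hbo : bo = true ↔ o = 1) (hs : s ≠ 0) (hbs : bs = true ↔ 0 < s) (hP : bP = true ↔ P)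
    (h : 0 < o * s ↔ P) : bo = (bs == bP) := by
  rw [← hP] at h
  rcases ho with ho | ho
  · have e1 : bo = true := hbo.2 ho
    rw [ho, one_mul, ← hbs] at h
    subst e1
    cases bs <;> cases bP <;> simp_all
  · have e1 : bo = false := by
      rw [Bool.eq_false_iff]; intro h1; have := hbo.1 h1; rw [ho] at this; norm_num at this
    have h2 : 0 < o * s ↔ ¬ 0 < s := by
      rw [ho]; constructor
      · intro h3 h4; linarith
      · intro h3; rcases lt_or_gt_of_ne hs with h4 | h4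
        · linarith
        · exact absurd h4 h3
    rw [h2, ← hbs] at h
    subst e1
    cases bs <;> cases bP <;> simp_all

theorem mul_b {x y : ℝ} {bx by' : Bool} (hx : x ≠ 0) (hy : y ≠ 0) (h1 : bx = true ↔ 0 < x)
    (h2 : by' = true ↔ 0 < y) : 0 < x * y ↔ (bx == by') = true := by
  rcases lt_or_gt_of_ne hx with h3 | h3 <;> rcases lt_or_gt_of_ne hy with h4 | h4
  · have e1 : bx = false := by rw [Bool.eq_false_iff]; intro h; have := h1.1 h; linarith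
    have e2 : by' = false := by rw [Bool.eq_false_iff]; intro h; have := h2.1 h; linarith
    rw [e1, e2]
    exact ⟨fun _ => rfl, fun _ => mul_pos_of_neg_of_neg h3 h4⟩
  · have e1 : bx = false := by rw [Bool.eq_false_iff]; intro h; have := h1.1 h; linarith
    have e2 : by' = true := h2.2 h4
    rw [e1, e2]
    refine ⟨fun h => ?_, fun h => by simp at h⟩
    nlinarith [mul_pos_of_neg_of_neg h3 (neg_neg_of_pos h4)]
  · have e1 : bx = true := h1.2 h3
    have e2 : by' = false := by rw [Bool.eq_false_iff]; intro h; have := h2.1 h; linarith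
    rw [e1, e2]
    refine ⟨fun h => ?_, fun h => by simp at h⟩
    nlinarith [mul_pos_of_neg_of_neg (neg_neg_of_pos h3) h4]
  · have e1 : bx = true := h1.2 h3
    have e2 : by' = true := h2.2 h4
    rw [e1, e2]
    exact ⟨fun _ => rfl, fun _ => mul_pos h3 h4⟩

theorem ori_b {o : ℝ} {bo : Bool} (ho : o = 1 ∨ o = -1) (hbo : bo = true ↔ o = 1) :
    o ≠ 0 ∧ (bo = true ↔ 0 < o) := by
  rcases ho with ho | ho
  · rw [ho] at hbo ⊢
    refine ⟨one_ne_zero, ⟨fun _ => one_pos, fun _ => hbo.2 rfl⟩⟩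
  · rw [ho] at hbo ⊢
    refine ⟨by norm_num, ⟨fun h => ?_, fun h => ?_⟩⟩
    · have := hbo.1 h; norm_num at this
    · norm_num at h

theorem mul3_b {x y s : ℝ} {bx by' bs : Bool} (hx : x ≠ 0 ∧ (bx = true ↔ 0 < x))
    (hy : y ≠ 0 ∧ (by' = true ↔ 0 < y)) (hs : s ≠ 0) (hbs : bs = true ↔ 0 < s) :
    0 < x * y * s ↔ ((bx == by') == bs) = true :=
  mul_b (mul_ne_zero hx.1 hy.1) hs (mul_b hx.1 hy.1 hx.2 hy.2).symm hbs

theorem beq_of_iff {a b : Bool} {P Q : Prop} (h1 : P ↔ a = true) (h2 : Q ↔ b = true) (h : P ↔ Q) :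
    (a == b) = true := by
  have : a = true ↔ b = true := h1.symm.trans (h.trans h2)
  cases a <;> cases b <;> simp_all

/-- the `c`-fields -/
theorem c_b {o s o' s' x y : ℝ} {bo bs bo' bs' bx by' : Bool} (ho : o = 1 ∨ o = -1)
    (hbo : bo = true ↔ o = 1) (ho' : o' = 1 ∨ o' = -1) (hbo' : bo' = true ↔ o' = 1)
    (hs : s ≠ 0) (hbs : bs = true ↔ 0 < s) (hs' : s' ≠ 0) (hbs' : bs' = true ↔ 0 < s')
    (hx : x ≠ 0) (hbx : bx = true ↔ 0 < x) (hy : y ≠ 0) (hby : by' = true ↔ 0 < y)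
    (h : (0 < x * y → (0 < o * s ↔ ¬ 0 < o' * s')) ∧ (¬ 0 < x * y → (0 < o * s ↔ 0 < o' * s'))) :
    bo = (bs == ((bx == by') != (bo' == bs'))) := by
  obtain ⟨u1, u2⟩ := ori_b ho hbo
  obtain ⟨w1, w2⟩ := ori_b ho' hbo'
  rw [mul_b hx hy hbx hby, mul_b u1 hs u2 hbs, mul_b w1 hs' w2 hbs'] at h
  cases bo <;> cases bs <;> cases bo' <;> cases bs' <;> cases bx <;> cases by' <;> simp_all

/-- the `d`-fields -/
theorem d_b {o s o' s' : ℝ} {bo bs bo' bs' : Bool} (ho : o = 1 ∨ o = -1)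
    (hbo : bo = true ↔ o = 1) (ho' : o' = 1 ∨ o' = -1) (hbo' : bo' = true ↔ o' = 1)
    (hs : s ≠ 0) (hbs : bs = true ↔ 0 < s) (hs' : s' ≠ 0) (hbs' : bs' = true ↔ 0 < s')
    (h : 0 < o * s ↔ ¬ 0 < o' * s') : ((bo == bs) == !(bo' == bs')) = true := by
  obtain ⟨u1, u2⟩ := ori_b ho hbo
  obtain ⟨w1, w2⟩ := ori_b ho' hbo'
  rw [mul_b u1 hs u2 hbs, mul_b w1 hs' w2 hbs'] at h
  cases bo <;> cases bs <;> cases bo' <;> cases bs' <;> simp_all

/-- the `a5`, `b5` fields -/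
theorem x_b {x y : ℝ} {P Q : Prop} {bx by' bP bQ : Bool} (hx : x ≠ 0) (hbx : bx = true ↔ 0 < x)
    (hy : y ≠ 0) (hby : by' = true ↔ 0 < y) (hP : bP = true ↔ P) (hQ : bQ = true ↔ Q)
    (h : (0 < x * y → (P ↔ ¬ Q)) ∧ (¬ 0 < x * y → (P ↔ Q))) : bP = ((bx == by') != bQ) := by
  rw [mul_b hx hy hbx hby, ← hP, ← hQ] at h
  revert h
  clear hbx hby hP hQ
  revert bx by' bP bQ
  decide

theorem y_b {x y : ℝ} {P Q : Prop} {bx by' bP bQ : Bool} (hx : x ≠ 0) (hbx : bx = true ↔ 0 < x)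
    (hy : y ≠ 0) (hby : by' = true ↔ 0 < y) (hP : bP = true ↔ P) (hQ : bQ = true ↔ Q)
    (h : (0 < x * y → (P ↔ Q)) ∧ (¬ 0 < x * y → (P ↔ ¬ Q))) : bP = ((bx == by') == bQ) := by
  rw [mul_b hx hy hbx hby, ← hP, ← hQ] at h
  revert h
  clear hbx hby hP hQ
  revert bx by' bP bQ
  decide

theorem not_beq471 (a b : Bool) : ((!a) == b) = !(a == b) := by
  revert a b; decide

/-! ### directions -/

theorem dt_cis (x y : ℝ) : dt (cis (x * (Real.pi / 3))) (cis (y * (Real.pi / 3))) =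
    Real.sin ((y - x) * (Real.pi / 3)) := by
  unfold dt cis
  rw [Complex.exp_ofReal_mul_I_re, Complex.exp_ofReal_mul_I_im, Complex.exp_ofReal_mul_I_re,
    Complex.exp_ofReal_mul_I_im, show (y - x) * (Real.pi / 3) =
      y * (Real.pi / 3) - x * (Real.pi / 3) by ring, Real.sin_sub]
  ring

theorem sR_iff (x y : ℝ) : sR x y = true ↔ 0 < Real.sin ((y - x) * (Real.pi / 3)) := by
  unfold sR
  rw [decide_eq_true_iff]

theorem exists_dir {a : ℂ} (ha : ‖a‖ = 1) : ∃ t : ℝ, a = cis (t * (Real.pi / 3)) := by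
  obtain ⟨t, ht⟩ := exists_cis ha
  refine ⟨t / (Real.pi / 3), ?_⟩
  rw [div_mul_cancel₀ _ (by positivity), ht]

theorem pt_of {w p a : ℂ} {t : ℝ} (h1 : p - w = a) (h2 : a = cis (t * (Real.pi / 3))) :
    p = pt w t := by
  unfold pt
  rw [← h2, ← h1]; ring

theorem pt_of' {w p a : ℂ} {t : ℝ} (h1 : p - w = -a) (h2 : a = cis (t * (Real.pi / 3))) :
    p = pt w (t + 3) := by
  rw [pt_three, ← pt_of (w := w) (p := w + a) (by ring) h2]
  linear_combination h1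

/-- the word facts at the centres with two ends of one type and one of the other -/
def W3 (T : ℂ → Set (Fin 6)) : Prop :=
  ∀ (w x x' y : ℂ) (X : Set (Fin 6)) (tx tx' ty : ℝ), X.ncard = 3 → E22 T w x → E22 T w x' →
    E22 T w y → T x = X → T x' = X → T y = Xᶜ → x ≠ x' →
    (∀ p, dist p w = 1 → T p = X → p = x ∨ p = x') → (∀ p, dist p w = 1 → T p = Xᶜ → p = y) →
    x = pt w tx → x' = pt w tx' → y = pt w ty →
    t3 (kR3 tx tx' ty) (decide (ore T w x = 1)) (decide (ore T w x' = 1))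
      (decide (ore T w y = 1)) = true

/-- the word facts at the (2,2)-centres -/
def W4 (T : ℂ → Set (Fin 6)) : Prop :=
  ∀ (X : Set (Fin 6)) (z : ℂ) (v q : Fin 2 → ℂ), K4 T X z v q → ∀ t0 t1 s0 s1 : ℝ,
    v 0 = pt z t0 → v 1 = pt z t1 → q 0 = pt z s0 → q 1 = pt z s1 → patR t0 t1 s0 s1 →
    ore T z (v 0) = ore T z (v 1) → ore T z (q 0) = ore T z (q 1) →
    ore T z (q 0) ≠ ore T z (v 0) → False

theorem K4.perm (K : K4 T X z v q) : K4 T X z ![v 1, v 0] q :=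
  ⟨K.card, K.hX, fun i => by fin_cases i; exacts [K.dv 1, K.dv 0], K.dq,
    fun i => by fin_cases i; exacts [K.Tv 1, K.Tv 0], K.Tq, K.vne.symm, K.qne⟩

theorem dec_iff {o : ℝ} : decide (o = 1) = true ↔ o = 1 := decide_eq_true_iff

theorem not_b {s : ℝ} {b : Bool} (hs : s ≠ 0) (hb : b = true ↔ 0 < s) : (!b) = true ↔ 0 < -s := by
  rcases lt_or_gt_of_ne hs with h | h
  · have : b = false := by rw [Bool.eq_false_iff]; intro h1; have := hb.1 h1; linarith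
    rw [this]
    exact ⟨fun _ => by linarith, fun _ => rfl⟩
  · have : b = true := hb.2 h
    rw [this]
    refine ⟨fun h1 => by simp at h1, fun h1 => by linarith⟩

/-- **the partners of a (2,2)-centre miss the same colour** -/
theorem hP_of (h : Irr U T) (hJ : OnlyJ22 T) (R3 : W3 T) (R4 : W4 T) :
    ∀ (X : Set (Fin 6)) (z : ℂ) (v q : Fin 2 → ℂ), K4 T X z v q →
      mc T X (v 0 + q 0 - z) = mc T X (v 1 + q 0 - z) := by
  intro X z v q K
  by_contra hne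
  have heq : mc T Xᶜ (v 0 + q 0 - z) = mc T Xᶜ (v 0 + q 1 - z) := by
    by_contra hne'
    exact K.not_both h hJ hne hne'
  obtain ⟨i, j, i2, j2, B⟩ := K.kbits h hJ hne heq
  -- directions
  have nA : ‖z - v 0‖ = 1 := by rw [← dist_eq_norm, dist_comm]; exact K.dv 0
  have nB : ‖z - v 1‖ = 1 := by rw [← dist_eq_norm, dist_comm]; exact K.dv 1
  have nC : ‖q 0 - z‖ = 1 := by rw [← dist_eq_norm]; exact K.dq 0
  have nD : ‖q 1 - z‖ = 1 := by rw [← dist_eq_norm]; exact K.dq 1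
  obtain ⟨tA, hA⟩ := exists_dir nA
  obtain ⟨tB, hB⟩ := exists_dir nB
  obtain ⟨tC, hC⟩ := exists_dir nC
  obtain ⟨tD, hD⟩ := exists_dir nD
  -- the determinants
  have dAC : dt (z - v 0) (q 0 - z) = Real.sin ((tC - tA) * (Real.pi / 3)) := by
    rw [hA, hC, dt_cis]
  have dAD : dt (z - v 0) (q 1 - z) = Real.sin ((tD - tA) * (Real.pi / 3)) := by
    rw [hA, hD, dt_cis]
  have dAB : dt (z - v 0) (z - v 1) = Real.sin ((tB - tA) * (Real.pi / 3)) := by
    rw [hA, hB, dt_cis]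
  have dBC : dt (z - v 1) (q 0 - z) = Real.sin ((tC - tB) * (Real.pi / 3)) := by
    rw [hB, hC, dt_cis]
  have dBD : dt (z - v 1) (q 1 - z) = Real.sin ((tD - tB) * (Real.pi / 3)) := by
    rw [hB, hD, dt_cis]
  have dCD : dt (q 0 - z) (q 1 - z) = Real.sin ((tD - tC) * (Real.pi / 3)) := by
    rw [hC, hD, dt_cis]
  have sAC : sR tA tC = true ↔ 0 < dt (z - v 0) (q 0 - z) := by rw [dAC]; exact sR_iff _ _
  have sAD : sR tA tD = true ↔ 0 < dt (z - v 0) (q 1 - z) := by rw [dAD]; exact sR_iff _ _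
  have sAB : sR tA tB = true ↔ 0 < dt (z - v 0) (z - v 1) := by rw [dAB]; exact sR_iff _ _
  have sBC : sR tB tC = true ↔ 0 < dt (z - v 1) (q 0 - z) := by rw [dBC]; exact sR_iff _ _
  have sBD : sR tB tD = true ↔ 0 < dt (z - v 1) (q 1 - z) := by rw [dBD]; exact sR_iff _ _
  have sCD : sR tC tD = true ↔ 0 < dt (q 0 - z) (q 1 - z) := by rw [dCD]; exact sR_iff _ _
  have zAC := B.nvq 0 0
  have zAD := B.nvq 0 1
  have zBC := B.nvq 1 0
  have zBD := B.nvq 1 1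
  have zAB := B.nvv
  have zCD := B.nqq
  have nb := @not_b
  have tCA : (!sR tA tC) = true ↔ 0 < dt (q 0 - z) (z - v 0) := by
    rw [dt_comm]; exact nb zAC sAC
  have tDA : (!sR tA tD) = true ↔ 0 < dt (q 1 - z) (z - v 0) := by
    rw [dt_comm]; exact nb zAD sAD
  have tBA : (!sR tA tB) = true ↔ 0 < dt (z - v 1) (z - v 0) := by
    rw [dt_comm]; exact nb zAB sAB
  have tCB : (!sR tB tC) = true ↔ 0 < dt (q 0 - z) (z - v 1) := by
    rw [dt_comm]; exact nb zBC sBC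
  have tDB : (!sR tB tD) = true ↔ 0 < dt (q 1 - z) (z - v 1) := by
    rw [dt_comm]; exact nb zBD sBD
  have zCA : dt (q 0 - z) (z - v 0) ≠ 0 := by rw [dt_comm]; exact neg_ne_zero.2 zAC
  have zDA : dt (q 1 - z) (z - v 0) ≠ 0 := by rw [dt_comm]; exact neg_ne_zero.2 zAD
  have zBA : dt (z - v 1) (z - v 0) ≠ 0 := by rw [dt_comm]; exact neg_ne_zero.2 zAB
  have zCB : dt (q 0 - z) (z - v 1) ≠ 0 := by rw [dt_comm]; exact neg_ne_zero.2 zBC
  have zDB : dt (q 1 - z) (z - v 1) ≠ 0 := by rw [dt_comm]; exact neg_ne_zero.2 zBD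
  classical
  have di : (decide i) = true ↔ i := decide_eq_true_iff
  have dj : (decide j) = true ↔ j := decide_eq_true_iff
  have di2 : (decide i2) = true ↔ i2 := decide_eq_true_iff
  have dj2 : (decide j2) = true ↔ j2 := decide_eq_true_iff
  have dni : (!decide i) = true ↔ ¬ i := by by_cases hi : i <;> simp [hi]
  have dnj : (!decide j) = true ↔ ¬ j := by by_cases hi : j <;> simp [hi]
  have dni2 : (!decide i2) = true ↔ ¬ i2 := by by_cases hi : i2 <;> simp [hi]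
  have dnj2 : (!decide j2) = true ↔ ¬ j2 := by by_cases hi : j2 <;> simp [hi]
  -- the orientations
  have ei2 := x_b zCA tCA zCB tCB di2 di B.a5
  have ej2 := y_b zAC sAC zAD sAD dj2 dj B.b5
  have a0 := or_eq (B.ori (v 0 + q 0 - z) (v 0)) dec_iff zCA tCA di B.a1
  have a1 := or_eq (B.ori (v 0 + q 1 - z) (v 0)) dec_iff zDA tDA dni B.a2
  have a2 := or_eq (B.ori (v 1 + q 0 - z) (v 1)) dec_iff zCB tCB di2 B.a3
  have a3 := or_eq (B.ori (v 1 + q 1 - z) (v 1)) dec_iff zDB tDB dni2 B.a4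
  have q0 := or_eq (B.ori (v 0 + q 0 - z) (q 0)) dec_iff zAC sAC dj B.b1
  have q1 := or_eq (B.ori (v 0 + q 1 - z) (q 1)) dec_iff zAD sAD dj2 B.b3
  have q2 := or_eq (B.ori (v 1 + q 0 - z) (q 0)) dec_iff zBC sBC dnj B.b2
  have q3 := or_eq (B.ori (v 1 + q 1 - z) (q 1)) dec_iff zBD sBD dnj2 B.b4
  have p0 := c_b (B.ori (v 0 + q 0 - z) (v 0 + v 1 + q 0 - 2 * z)) dec_iff (B.ori z (v 1)) dec_iff
    zBA tBA zBC sBC zBC sBC zBA tBA B.c1
  have p1 := c_b (B.ori (v 0 + q 1 - z) (v 0 + v 1 + q 1 - 2 * z)) dec_iff (B.ori z (v 1)) dec_iff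
    zBA tBA zBD sBD zBD sBD zBA tBA B.c3
  have p2 := c_b (B.ori (v 1 + q 0 - z) (v 0 + v 1 + q 0 - 2 * z)) dec_iff (B.ori z (v 0)) dec_iff
    zAB sAB zAC sAC zAC sAC zAB sAB B.c2
  have p3 := c_b (B.ori (v 1 + q 1 - z) (v 0 + v 1 + q 1 - 2 * z)) dec_iff (B.ori z (v 0)) dec_iff
    zAB sAB zAD sAD zAD sAD zAB sAB B.c4
  have d1 := d_b (B.ori (v 0 + q 0 - z) (q 0)) dec_iff (B.ori z (q 0)) dec_iff zAB sAB zCB tCB B.d1
  have d2 := d_b (B.ori (v 1 + q 0 - z) (q 0)) dec_iff (B.ori z (q 0)) dec_iff zBA tBA zCA tCA B.d2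
  have d3 := d_b (B.ori (v 0 + q 1 - z) (q 1)) dec_iff (B.ori z (q 1)) dec_iff zAB sAB zDB tDB B.d3
  have d4 := d_b (B.ori (v 1 + q 1 - z) (q 1)) dec_iff (B.ori z (q 1)) dec_iff zBA tBA zDA tDA B.d4
  -- LP3
  have l0 := B.l1 0
  have l1 := B.l1 1
  have oz0 := ori_b (B.ori z (v 0)) dec_iff
  have oz1 := ori_b (B.ori z (v 1)) dec_iff
  have w00 := ori_b (B.ori (v 0 + q 0 - z) (v 0)) dec_iff
  have w01 := ori_b (B.ori (v 0 + q 1 - z) (v 0)) dec_iff
  have w10 := ori_b (B.ori (v 1 + q 0 - z) (v 1)) dec_iff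
  have w11 := ori_b (B.ori (v 1 + q 1 - z) (v 1)) dec_iff
  have m1 := beq_of_iff (mul3_b oz0 w00 zAC sAC) (mul3_b w00 w01 zCD sCD) l0.1
  have m2 := beq_of_iff (mul3_b w00 w01 zCD sCD) (mul3_b w01 oz0 zDA tDA) (l0.1.symm.trans l0.2)
  have m3 := beq_of_iff (mul3_b oz1 w10 zBC sBC) (mul3_b w10 w11 zCD sCD) l1.1
  have m4 := beq_of_iff (mul3_b w10 w11 zCD sCD) (mul3_b w11 oz1 zDB tDB) (l1.1.symm.trans l1.2)
  -- the partners
  have hw : ∀ a b : Fin 2, ∀ p, dist p (v a + q b - z) = 1 → T p = Xᶜ → p = q b := by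
    intro a b p hp hT
    rcases K.ypts h a b hp hT with k | k
    · exact k
    · exfalso
      refine K.r_not h a ?_ (k ▸ hT)
      fin_cases a
      · exact heq
      · show mc T Xᶜ (v 1 + q 0 - z) = mc T Xᶜ (v 1 + q 1 - z)
        have t := fun x (hx : x ∈ Xᶜ) => three_of K.swap.hX (K.mz' h) (K.mw' h 0 0) (K.mw' h 1 0)
          (K.mc_z_ne' h 0 0) (K.mc_z_ne' h 1 0) (K.mc_w_ne' h 0) hx
        rcases t _ (K.mw' h 1 1) with k1 | k1 | k1
        · exact absurd k1.symm (K.mc_z_ne' h 1 1)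
        · exfalso
          refine K.mc_w_ne' h 1 ?_
          rw [k1, heq]
        · exact k1.symm
  have hx : ∀ a b : Fin 2, ∀ p, dist p (v a + q b - z) = 1 → T p = X →
      p = v a ∨ p = v 0 + v 1 + q b - 2 * z := fun a b p hp hT => K.xpts h a b hp hT
  have hne' : ∀ a b : Fin 2, v a ≠ v 0 + v 1 + q b - 2 * z := by
    intro a b k
    fin_cases a
    · have k : v 0 = v 0 + v 1 + q b - 2 * z := k
      exact (K.nd h 1 b).op (by linear_combination -k)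
    · have k : v 1 = v 0 + v 1 + q b - 2 * z := k
      exact (K.nd h 0 b).op (by linear_combination -k)
  have P0 := K.p_end h hJ 0 (K.ne_cols h hne 0)
  have P1 := K.p_end h hJ 1 (K.ne_cols h hne 1)
  have T00 := R3 (v 0 + q 0 - z) (v 0) (v 0 + v 1 + q 0 - 2 * z) (q 0) X (tC + 3) (tB + 3) tA K.hX
    (K.ew h 0 0) (P0.2 0) (K.ew' h 0 0) (K.Tv 0) P0.1 (K.Tq 0) (hne' 0 0) (hx 0 0) (hw 0 0)
    (pt_of' (by ring) hC) (pt_of' (by ring) hB) (pt_of (by ring) hA)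
  have T01 := R3 (v 0 + q 1 - z) (v 0) (v 0 + v 1 + q 1 - 2 * z) (q 1) X (tD + 3) (tB + 3) tA K.hX
    (K.ew h 0 1) (P1.2 0) (K.ew' h 0 1) (K.Tv 0) P1.1 (K.Tq 1) (hne' 0 1) (hx 0 1) (hw 0 1)
    (pt_of' (by ring) hD) (pt_of' (by ring) hB) (pt_of (by ring) hA)
  have T10 := R3 (v 1 + q 0 - z) (v 1) (v 0 + v 1 + q 0 - 2 * z) (q 0) X (tC + 3) (tA + 3) tB K.hX
    (K.ew h 1 0) (P0.2 1) (K.ew' h 1 0) (K.Tv 1) P0.1 (K.Tq 0) (hne' 1 0) (hx 1 0) (hw 1 0)
    (pt_of' (by ring) hC) (pt_of' (by ring) hA) (pt_of (by ring) hB)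
  have T11 := R3 (v 1 + q 1 - z) (v 1) (v 0 + v 1 + q 1 - 2 * z) (q 1) X (tD + 3) (tA + 3) tB K.hX
    (K.ew h 1 1) (P1.2 1) (K.ew' h 1 1) (K.Tv 1) P1.1 (K.Tq 1) (hne' 1 1) (hx 1 1) (hw 1 1)
    (pt_of' (by ring) hD) (pt_of' (by ring) hA) (pt_of (by ring) hB)
  have e0 : v 0 = pt z (tA + 3) := pt_of' (by ring) hA
  have e1 : v 1 = pt z (tB + 3) := pt_of' (by ring) hB
  have e2 : q 0 = pt z tC := pt_of rfl hC
  have e3 : q 1 = pt z tD := pt_of rfl hD
  have bo : ∀ {x y : ℝ}, (x = 1 ∨ x = -1) → (y = 1 ∨ y = -1) → decide (x = 1) = decide (y = 1) →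
      x = y := by
    rintro x y (rfl | rfl) (rfl | rfl) h
    · rfl
    · norm_num at h
    · norm_num at h
    · rfl
  refine csp646 (by rw [← dAC]; exact zAC) (by rw [← dAD]; exact zAD) (by rw [← dAB]; exact zAB)
    (by rw [← dBC]; exact zBC) (by rw [← dBD]; exact zBD) (by rw [← dCD]; exact zCD)
    (oz0 := decide (ore T z (v 0) = 1)) (oz1 := decide (ore T z (v 1) = 1))
    (zq0 := decide (ore T z (q 0) = 1)) (zq1 := decide (ore T z (q 1) = 1))
    (i := decide i) (j := decide j) ?_ ?_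
  · rw [a0] at m1 m2 T00
    rw [a1] at m1 m2 T01
    rw [a2, ei2] at m3 m4 T10
    rw [a3, ei2] at m3 m4 T11
    rw [q0] at d1 T00
    rw [q1, ej2] at d3 T01
    rw [q2] at d2 T10
    rw [q3, ej2] at d4 T11
    rw [p0] at T00
    rw [p1] at T01
    rw [p2] at T10
    rw [p3] at T11
    unfold cns span
    simp only [Bool.and_eq_true, not_beq471]
    simp only [not_beq471] at m1 m2 m3 m4 T00 T01 T10 T11 d1 d2 d3 d4
    exact ⟨⟨⟨⟨⟨⟨⟨⟨⟨d1, d2⟩, d3⟩, d4⟩, m1, m2⟩, m3, m4⟩, T00⟩, T01⟩, T10⟩, T11⟩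
  · intro hpat k1 k2 k3
    have g1 : ore T z (v 0) = ore T z (v 1) := bo (B.ori _ _) (B.ori _ _) k1
    have g2 : ore T z (q 0) = ore T z (q 1) := bo (B.ori _ _) (B.ori _ _) k2
    have g3 : ore T z (q 0) ≠ ore T z (v 0) := fun g => k3 (by rw [g])
    rcases hpat with hpat | hpat
    · exact R4 X z v q K _ _ _ _ e0 e1 e2 e3 hpat g1 g2 g3
    · exact R4 X z _ q K.perm _ _ _ _ e1 e0 e2 e3 hpat g1.symm g2 (fun g => g3 (g.trans g1.symm))

/-- the hypothesis `hA` of 533's `no_22` -/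
theorem hA_471 (h : Irr U T) (hJ : OnlyJ22 T) (R3 : W3 T) (R4 : W4 T) :
    ∀ z v v' q q', H533.Is22 T z v v' q q' → H533.Is11 T (v + q - z) v q ∧
      T (v + q - z) ∩ T q = T (v + q' - z) ∩ T q ∧
      T (v + q - z) ∩ T v = T (v' + q - z) ∩ T v :=
  hA_of h (hP_of h hJ R3 R4)

end Vale.Agent.P032.H471
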