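import Vale.Agent.P032.H471.Net22

/-!
# P032: the `K₄` cluster of a centre with two points of both palettes

`K4 T X z v q` : `|T z| = 4`, `v 0 ≠ v 1` are points of `S(z)` of palette `X`, `q 0 ≠ q 1` of palette
`Xᶜ`.  The four partners are `v i + q j - z`.
`mc T X c` : the colour of `X` which is missing at `c`.
`K4.ez`, `K4.ew` : the ends.  `K4.mc_ne`, `K4.mc_ne'` : missing colours.  `K4.xpts`, `K4.ypts` : the
points of the partners.  `K4.p_end`, `K4.p_not` : the third point `v 0 + v 1 + q j - 2 * z`.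
All statements have a swapped form by `K4.swap`.
-/

open Set Filter Topology Metric

noncomputable section

namespace Vale.Agent.P032.H471

open Vale.Agent.P032.Six Vale.Agent.P032.S5.H450 Vale.Agent.P032.H838
  Vale.Agent.P032.Net.H672

variable {U : Fin 6 → Set ℂ} {T : ℂ → Set (Fin 6)} {X : Set (Fin 6)} {z c m : ℂ}
  {v q : Fin 2 → ℂ}

/-- the colour of `X` missing at `c` -/
def mc (T : ℂ → Set (Fin 6)) (X : Set (Fin 6)) (c : ℂ) : Fin 6 := by
  classical
  exact if h : ∃ i ∈ X, i ∉ T c then h.choose else 0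

theorem mc_spec' (h : ∃ i ∈ X, i ∉ T c) : mc T X c ∈ X ∧ mc T X c ∉ T c := by
  unfold mc
  rw [dif_pos h]
  exact h.choose_spec

/-- the missing colour -/
theorem mc_spec (hX : X.ncard = 3) (h2 : (X ∩ T c).ncard = 2) :
    mc T X c ∈ X ∧ mc T X c ∉ T c ∧ (∀ i ∈ X, i ∉ T c → i = mc T X c) ∧
      X ∩ T c = X \ {mc T X c} := by
  have h3 : ∃ i ∈ X, i ∉ T c := by
    by_contra hcon
    push Not at hcon
    have : X ∩ T c = X := inter_eq_left.2 hcon
    rw [this] at h2
    omega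
  obtain ⟨h4, h5⟩ := mc_spec' h3
  have h6 : X ∩ T c = X \ {mc T X c} := by
    refine Set.eq_of_subset_of_ncard_le ?_ ?_ (Set.toFinite _)
    · rintro i ⟨k1, k2⟩
      exact ⟨k1, fun k3 => h5 (by rw [mem_singleton_iff] at k3; exact k3 ▸ k2)⟩
    · have k1 := Set.ncard_sdiff_singleton_add_one h4 (Set.toFinite _)
      omega
  refine ⟨h4, h5, fun i k1 k2 => ?_, h6⟩
  by_contra k3
  have : i ∈ X \ {mc T X c} := ⟨k1, k3⟩
  rw [← h6] at this
  exact k2 this.2

/-- the missing colours of a centre with an end -/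
theorem mc_ee {p : ℂ} (hp : EE T c p) (hT : T p = X) :
    mc T X c ∈ X ∧ mc T X c ∉ T c ∧ (∀ i ∈ X, i ∉ T c → i = mc T X c) ∧
      X ∩ T c = X \ {mc T X c} := by
  subst hT
  exact mc_spec hp.card_v hp.card_i'

/-- a centre with two points of both palettes -/
structure K4 (T : ℂ → Set (Fin 6)) (X : Set (Fin 6)) (z : ℂ) (v q : Fin 2 → ℂ) : Prop where
  card : (T z).ncard = 4
  hX : X.ncard = 3
  dv : ∀ i, dist (v i) z = 1
  dq : ∀ j, dist (q j) z = 1
  Tv : ∀ i, T (v i) = X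
  Tq : ∀ j, T (q j) = Xᶜ
  vne : v 0 ≠ v 1
  qne : q 0 ≠ q 1

namespace K4

theorem swap (K : K4 T X z v q) : K4 T Xᶜ z q v :=
  ⟨K.card, ncard_compl_three' K.hX, K.dq, K.dv, K.Tq, fun i => by rw [compl_compl]; exact K.Tv i,
    K.qne, K.vne⟩

theorem two2 (K : K4 T X z v q) : Two2 T X z :=
  ⟨⟨v 0, v 1, K.vne, K.dv 0, K.dv 1, K.Tv 0, K.Tv 1⟩, q 0, q 1, K.qne, K.dq 0, K.dq 1, K.Tq 0,
    K.Tq 1⟩

theorem nd_of (K : K4 T X z v q) {i j : Fin 2} (hop : v i + q j ≠ 2 * z) :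
    Nd T X z (v i) (q j) :=
  ⟨K.hX, by rw [dist_comm]; exact K.dv i, by rw [dist_comm]; exact K.dq j, K.Tv i, K.Tq j, hop⟩

theorem exists_nd (K : K4 T X z v q) : ∃ j, Nd T X z (v 0) (q j) := by
  by_cases h0 : v 0 + q 0 = 2 * z
  · exact ⟨1, K.nd_of fun h1 => K.qne (by linear_combination h0 - h1)⟩
  · exact ⟨0, K.nd_of h0⟩

/-- all pairs are nodes -/
theorem nd (h : Irr U T) (K : K4 T X z v q) (i j : Fin 2) : Nd T X z (v i) (q j) := by
  obtain ⟨j0, N⟩ := K.exists_nd
  obtain ⟨⟨r, hr, hrz⟩, s, hs, hsz⟩ := light_of_four h N K.card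
  exact (N.node_x h hs hsz (K.dv i) (K.Tv i)).node_y h hr hrz (K.dq j) (K.Tq j)

theorem le4 (h : Irr U T) (K : K4 T X z v q) (i j : Fin 2) : (T (v i + q j - z)).ncard ≤ 4 :=
  K.two2.le4 h K.card (K.nd h i j)

theorem card_w (h : Irr U T) (K : K4 T X z v q) (i j : Fin 2) :
    (T (v i + q j - z)).ncard = 4 := H471.card_w h (K.nd h i j) (K.le4 h i j)

/-- the ends of `z` -/
theorem ez (h : Irr U T) (K : K4 T X z v q) (i : Fin 2) : E22 T z (v i) :=
  (e22_of_two h K.two2 K.card (K.nd h i 0)).1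

theorem ez' (h : Irr U T) (K : K4 T X z v q) (j : Fin 2) : E22 T z (q j) :=
  (e22_of_two h K.two2 K.card (K.nd h 0 j)).2

theorem comp (K : K4 T X z v q) (i j : Fin 2) : T (q j) = (T (v i))ᶜ := by
  rw [K.Tq, K.Tv]

/-- the ends of the partners -/
theorem ew (h : Irr U T) (K : K4 T X z v q) (i j : Fin 2) : E22 T (v i + q j - z) (v i) :=
  ⟨rh_loc h (K.ez h i).1 (K.ez' h j).1 (K.comp i j) (K.le4 h i j),
    ((K.ez h i).node h (K.ez' h j) (K.comp i j)).2⟩

theorem ew' (h : Irr U T) (K : K4 T X z v q) (i j : Fin 2) : E22 T (v i + q j - z) (q j) := by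
  have := K.swap.ew h j i
  rwa [add_comm (q j) (v i)] at this

/-- the missing colours at `z` and at the partners through `v i` are different -/
theorem mc_z_ne (h : Irr U T) (K : K4 T X z v q) (i j : Fin 2) :
    mc T X z ≠ mc T X (v i + q j - z) := by
  intro h1
  obtain ⟨a1, a2, -⟩ := mc_ee (K.ez h i).1 (K.Tv i)
  obtain ⟨b1, b2, -⟩ := mc_ee (K.ew h i j).1 (K.Tv i)
  rw [← h1] at b1 b2
  have := uniq471 h (K.ez h i).1 (K.ew h i j).1 (by rw [K.Tv i]; exact a1) a2 b2
  exact (K.nd h i j).ne_other this.symm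

/-- the missing colours at the two partners through `v i` are different -/
theorem mc_w_ne (h : Irr U T) (K : K4 T X z v q) (i : Fin 2) :
    mc T X (v i + q 0 - z) ≠ mc T X (v i + q 1 - z) := by
  intro h1
  obtain ⟨a1, a2, -⟩ := mc_ee (K.ew h i 0).1 (K.Tv i)
  obtain ⟨b1, b2, -⟩ := mc_ee (K.ew h i 1).1 (K.Tv i)
  rw [← h1] at b1 b2
  have := uniq471 h (K.ew h i 0).1 (K.ew h i 1).1 (by rw [K.Tv i]; exact a1) a2 b2
  exact K.qne (by linear_combination this)

theorem mc_z_ne' (h : Irr U T) (K : K4 T X z v q) (i j : Fin 2) :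
    mc T Xᶜ z ≠ mc T Xᶜ (v i + q j - z) := by
  have := K.swap.mc_z_ne h j i
  rwa [add_comm (q j) (v i)] at this

theorem mc_w_ne' (h : Irr U T) (K : K4 T X z v q) (j : Fin 2) :
    mc T Xᶜ (v 0 + q j - z) ≠ mc T Xᶜ (v 1 + q j - z) := by
  have := K.swap.mc_w_ne h j
  rwa [add_comm (q j) (v 0), add_comm (q j) (v 1)] at this

/-- the points of palette `Xᶜ` of a partner -/
theorem ypts (h : Irr U T) (K : K4 T X z v q) (i j : Fin 2) {y : ℂ}
    (hy : dist y (v i + q j - z) = 1) (hT : T y = Xᶜ) :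
    y = q j ∨ y = v i + q 0 + q 1 - 2 * z := by
  obtain ⟨⟨r, hr, hrz⟩, s, hs, hsz⟩ := light_of_four h (K.nd h i j) K.card
  fin_cases j
  · rcases (K.nd h i 0).ends_w h (K.nd h i 1) K.qne hr hrz hs hsz hy hT with h1 | h1
    · exact Or.inl h1
    · right; rw [h1]; ring
  · rcases (K.nd h i 1).ends_w h (K.nd h i 0) K.qne.symm hr hrz hs hsz hy hT with h1 | h1
    · exact Or.inl h1
    · right; rw [h1]; ring

/-- the points of palette `X` of a partner -/
theorem xpts (h : Irr U T) (K : K4 T X z v q) (i j : Fin 2) {x : ℂ}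
    (hx : dist x (v i + q j - z) = 1) (hT : T x = X) :
    x = v i ∨ x = v 0 + v 1 + q j - 2 * z := by
  have h1 := K.swap.ypts h j i (y := x) (by rw [add_comm (q j) (v i)]; exact hx)
    (by rw [compl_compl]; exact hT)
  rcases h1 with h1 | h1
  · exact Or.inl h1
  · right; rw [h1]; ring

/-- the ends of `z` of palette `X` are `v 0`, `v 1` -/
theorem zpts (h : Irr U T) (K : K4 T X z v q) {x : ℂ} (hx : dist x z = 1) (hT : T x = X) :
    x = v 0 ∨ x = v 1 := by
  obtain ⟨⟨r, hr, hrz⟩, s, hs, hsz⟩ := light_of_four h (K.nd h 0 0) K.card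
  exact (K.nd h 0 0).swap.ends_z h (K.nd h 1 0).swap K.vne hs hsz
    (by rw [compl_compl]; exact hr) hrz hx (by rw [compl_compl]; exact hT)

/-- the ends of `z` of palette `Xᶜ` are `q 0`, `q 1` -/
theorem zpts' (h : Irr U T) (K : K4 T X z v q) {y : ℂ} (hy : dist y z = 1) (hT : T y = Xᶜ) :
    y = q 0 ∨ y = q 1 := K.swap.zpts h hy hT

/-- the third point is on the circles of two partners -/
theorem dp (K : K4 T X z v q) (i j : Fin 2) :
    dist (v 0 + v 1 + q j - 2 * z) (v i + q j - z) = 1 := by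
  fin_cases i
  · have := K.dv 1
    rw [dist_eq_norm] at this ⊢
    rw [← this]; congr 1
    show v 0 + v 1 + q j - 2 * z - (v 0 + q j - z) = v 1 - z
    ring
  · have := K.dv 0
    rw [dist_eq_norm] at this ⊢
    rw [← this]; congr 1
    show v 0 + v 1 + q j - 2 * z - (v 1 + q j - z) = v 0 - z
    ring

theorem dr (K : K4 T X z v q) (i j : Fin 2) :
    dist (v i + q 0 + q 1 - 2 * z) (v i + q j - z) = 1 := by
  have := K.swap.dp j i
  rw [add_comm (q j) (v i)] at this
  rw [← this]; congr 1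
  ring

/-- two ends of one type are not antipodal -/
theorem anti_v (h : Irr U T) (hJ : OnlyJ22 T) (K : K4 T X z v q) : v 0 + v 1 ≠ 2 * z := by
  intro h1
  have C := cnet22 h hJ
  have h2 := C.dt_ne_same (K.ez' h 0) (K.ez h 0) (K.ez h 1)
    (by rw [K.Tv, K.Tq, compl_compl]) (by rw [K.Tv, K.Tq, compl_compl]) K.vne
  apply h2
  have e : v 1 - z = -(v 0 - z) := by linear_combination h1
  rw [e]
  unfold dt
  simp only [Complex.neg_re, Complex.neg_im]
  ring

/-- **the third point, present**: if the partners through `q j` miss different colours of `X` -/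
theorem p_end (h : Irr U T) (hJ : OnlyJ22 T) (K : K4 T X z v q) (j : Fin 2)
    (hne : mc T X (v 0 + q j - z) ≠ mc T X (v 1 + q j - z)) :
    T (v 0 + v 1 + q j - 2 * z) = X ∧ ∀ i, E22 T (v i + q j - z) (v 0 + v 1 + q j - 2 * z) := by
  have hanti := K.anti_v h hJ
  have hcov : ∀ i, i ∈ T (v 0 + q j - z) ∨ i ∈ T (v 1 + q j - z) := by
    intro i
    by_contra hcon
    push Not at hcon
    obtain ⟨-, -, a3, -⟩ := mc_ee (K.ew h 0 j).1 (K.Tv 0)
    obtain ⟨-, -, b3, -⟩ := mc_ee (K.ew h 1 j).1 (K.Tv 1)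
    obtain ⟨-, -, c3, -⟩ := mc_ee (K.ew' h 0 j).1 (K.Tq j)
    obtain ⟨-, -, d3, -⟩ := mc_ee (K.ew' h 1 j).1 (K.Tq j)
    by_cases hi : i ∈ X
    · exact hne ((a3 i hi hcon.1).symm.trans (b3 i hi hcon.2))
    · exact K.mc_w_ne' h j ((c3 i hi hcon.1).symm.trans (d3 i hi hcon.2))
  have hww : v 0 + q j - z ≠ v 1 + q j - z := fun h1 => K.vne (by linear_combination h1)
  have hop : v 0 + q j - z + (v 1 + q j - z) ≠ 2 * (v 0 + v 1 + q j - 2 * z) := fun h1 =>
    hanti (by linear_combination -h1)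
  have h3 : (T (v 0 + v 1 + q j - 2 * z)).ncard ≤ 3 := by
    rcases hJ _ _ _ _ (K.ew h 0 j) (K.ew' h 0 j) (K.comp 0 j) (K.dp 0 j) with h3 | h3
    · exact h3
    rcases hJ _ _ _ _ (K.ew h 1 j) (K.ew' h 1 j) (K.comp 1 j) (K.dp 1 j) with h4 | h4
    · exact h4
    exfalso
    have h5 : T (v 0 + q j - z) = univ := by
      refine eq_univ_of_forall fun i => ?_
      rcases hcov i with h6 | h6
      · exact h6
      · rw [← h3, h4]; exact h6
    have h6 := K.card_w h 0 j
    rw [h5, Set.ncard_univ, Nat.card_eq_fintype_card, Fintype.card_fin] at h6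
    omega
  obtain ⟨k1, k2, k3⟩ := e22_common h (K.ew h 0 j) (K.ew' h 0 j) (K.comp 0 j) (K.ew h 1 j)
    (K.ew' h 1 j) (K.comp 1 j) (by rw [K.Tv, K.Tv]) hcov hww hop (K.dp 0 j) (K.dp 1 j) h3
  rw [K.Tv] at k1
  refine ⟨?_, fun i => ?_⟩
  · rcases k1 with k1 | k1
    · exact k1
    exfalso
    rcases K.ypts h 0 j (K.dp 0 j) k1 with h7 | h7
    · exact hanti (by linear_combination h7)
    · have h8 : v 1 = q 0 ∨ v 1 = q 1 := by
        fin_cases j
        · right
          show v 1 = q 1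
          have h9 : v 0 + v 1 + q 0 - 2 * z = v 0 + q 0 + q 1 - 2 * z := h7
          linear_combination h9
        · left
          show v 1 = q 0
          have h9 : v 0 + v 1 + q 1 - 2 * z = v 0 + q 0 + q 1 - 2 * z := h7
          linear_combination h9
      have hXX : X ≠ Xᶜ := by
        intro h9
        obtain ⟨i, hi⟩ : X.Nonempty := Set.nonempty_of_ncard_ne_zero (by rw [K.hX]; norm_num)
        have h10 : i ∈ Xᶜ := h9 ▸ hi
        exact h10 hi
      rcases h8 with h8 | h8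
      · exact hXX ((K.Tv 1).symm.trans ((congrArg T h8).trans (K.Tq 0)))
      · exact hXX ((K.Tv 1).symm.trans ((congrArg T h8).trans (K.Tq 1)))
  · fin_cases i
    · exact k2
    · exact k3

/-- **the third point, absent**: if the partners through `q j` miss the same colour of `X` -/
theorem p_not (h : Irr U T) (K : K4 T X z v q) (j : Fin 2)
    (heq : mc T X (v 0 + q j - z) = mc T X (v 1 + q j - z)) :
    T (v 0 + v 1 + q j - 2 * z) ≠ X := by
  intro hT
  have e0 := e22_auto h (K.ew h 0 j) (K.ew' h 0 j) (K.comp 0 j) (K.dp 0 j)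
    (Or.inl (by rw [hT, K.Tv]))
  have e1 := e22_auto h (K.ew h 1 j) (K.ew' h 1 j) (K.comp 1 j) (K.dp 1 j)
    (Or.inl (by rw [hT, K.Tv]))
  obtain ⟨a1, a2, -⟩ := mc_ee (K.ew h 0 j).1 (K.Tv 0)
  obtain ⟨b1, b2, -⟩ := mc_ee (K.ew h 1 j).1 (K.Tv 1)
  rw [← heq] at b2
  have := uniq471 h e0.1 e1.1 (by rw [hT]; exact a1) a2 b2
  exact K.vne (by linear_combination this)

/-- the third point of palette `Xᶜ`, present -/
theorem r_end (h : Irr U T) (hJ : OnlyJ22 T) (K : K4 T X z v q) (i : Fin 2)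
    (hne : mc T Xᶜ (v i + q 0 - z) ≠ mc T Xᶜ (v i + q 1 - z)) :
    T (v i + q 0 + q 1 - 2 * z) = Xᶜ ∧
      ∀ j, E22 T (v i + q j - z) (v i + q 0 + q 1 - 2 * z) := by
  have e : v i + q 0 + q 1 - 2 * z = q 0 + q 1 + v i - 2 * z := by ring
  have := K.swap.p_end h hJ i (by rwa [add_comm (q 0) (v i), add_comm (q 1) (v i)])
  rw [e]
  refine ⟨this.1, fun j => ?_⟩
  have h2 := this.2 j
  rwa [add_comm (q j) (v i)] at h2

/-- the third point of palette `Xᶜ`, absent -/
theorem r_not (h : Irr U T) (K : K4 T X z v q) (i : Fin 2)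
    (heq : mc T Xᶜ (v i + q 0 - z) = mc T Xᶜ (v i + q 1 - z)) :
    T (v i + q 0 + q 1 - 2 * z) ≠ Xᶜ := by
  have e : v i + q 0 + q 1 - 2 * z = q 0 + q 1 + v i - 2 * z := by ring
  rw [e]
  exact K.swap.p_not h i (by rwa [add_comm (q 0) (v i), add_comm (q 1) (v i)])

/-- if both third points are absent, the partner has exactly one point of each palette -/
theorem one_one (h : Irr U T) (K : K4 T X z v q) (i j : Fin 2)
    (h1 : mc T X (v 0 + q j - z) = mc T X (v 1 + q j - z))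
    (h2 : mc T Xᶜ (v i + q 0 - z) = mc T Xᶜ (v i + q 1 - z)) :
    (∀ x, dist x (v i + q j - z) = 1 → T x = X → x = v i) ∧
      ∀ y, dist y (v i + q j - z) = 1 → T y = Xᶜ → y = q j := by
  refine ⟨fun x hx hT => ?_, fun y hy hT => ?_⟩
  · rcases K.xpts h i j hx hT with k | k
    · exact k
    · exact absurd (k ▸ hT) (K.p_not h j h1)
  · rcases K.ypts h i j hy hT with k | k
    · exact k
    · exact absurd (k ▸ hT) (K.r_not h i h2)

end K4

/-- every centre with complementary ends and two points of both palettes is a `K4` -/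
theorem exists_k4 {p : ℂ} (hv : EE T z p) (h2 : Two2 T (T p) z) :
    ∃ v q : Fin 2 → ℂ, K4 T (T p) z v q := by
  obtain ⟨⟨x, x', hx, a1, a2, a3, a4⟩, y, y', hy, b1, b2, b3, b4⟩ := h2
  refine ⟨![x, x'], ![y, y'], hv.card_z, hv.card_v, ?_, ?_, ?_, ?_, hx, hy⟩
  · intro i; fin_cases i
    exacts [a1, a2]
  · intro i; fin_cases i
    exacts [b1, b2]
  · intro i; fin_cases i
    exacts [a3, a4]
  · intro i; fin_cases i
    exacts [b3, b4]

end Vale.Agent.P032.H471
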