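import Vale.Agent.P032.H471.HP
import Vale.Agent.P032.H646.Hyp

/-!
# P032: `hA` of 533's `no_22` from the word facts `R3`, `R4` of 646
-/

open Set Filter Topology Metric

noncomputable section

namespace Vale.Agent.P032.H471

open Vale.Agent.P032.Six Vale.Agent.P032.S5.H450 Vale.Agent.P032.H838
  Vale.Agent.P032.Net.H672 Vale.Agent.P032.H646 Vale.Agent.P032.S5.H767

variable {U : Fin 6 → Set ℂ} {T : ℂ → Set (Fin 6)} {X : Set (Fin 6)} {z : ℂ} {v q : Fin 2 → ℂ}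

theorem ob_eq (T : ℂ → Set (Fin 6)) (z v : ℂ) : ob T z v = decide (ore T z v = 1) :=
  Bool.eq_iff_iff.2 (ob_iff.trans decide_eq_true_iff.symm)

theorem w3_of (hJ : OnlyJ22 T) (h3 : R3 T) : W3 T := by
  intro w x x' y X tx tx' ty hX ex ex' ey hx hx' hy hne ux uy k1 k2 k3
  subst hx
  have := h3 w x x' y tx tx' ty (fun p hp => hJ w x y p ex ey hy hp) ex.1 ex'.1 ey.1 hx' hy hne ux
    uy k1 k2 k3
  rwa [ob_eq, ob_eq, ob_eq] at this

theorem w4_of (h : Irr U T) (hJ : OnlyJ22 T) (h4 : R4 T) : W4 T := by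
  intro X z v q K t0 t1 s0 s1 e0 e1 e2 e3 hpat g1 g2 g3
  refine h4 z (v 0) (v 1) (q 0) (q 1) t0 t1 s0 s1
    (fun p hp => hJ z (v 0) (q 0) p (K.ez h 0) (K.ez' h 0) (K.comp 0 0) hp) (K.ez h 0).1
    (K.ez h 1).1 (K.ez' h 0).1 (K.ez' h 1).1 ((K.Tv 1).trans (K.Tv 0).symm) (K.comp 0 0)
    (K.comp 0 1) K.vne K.qne (fun p hp hT => K.zpts h hp (hT.trans (K.Tv 0)))
    (fun p hp hT => K.zpts' h hp (by rw [hT, K.Tv 0])) e0 e1 e2 e3 hpat ?_ ?_ ?_
  · rw [ob_eq, ob_eq, g1]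
  · rw [ob_eq, ob_eq, g2]
  · intro k
    rw [ob_eq, ob_eq] at k
    apply g3
    have o1 := ore_or T z (q 0)
    have o2 := ore_or T z (v 0)
    rcases o1 with o1 | o1 <;> rcases o2 with o2 | o2 <;> rw [o1, o2] at k ⊢ <;> norm_num at k

/-- **the partners of a (2,2)-centre miss the same colour** -/
theorem hP_646 (h : Irr U T) (hJ : OnlyJ22 T) (h3 : R3 T) (h4 : R4 T) :
    ∀ (X : Set (Fin 6)) (z : ℂ) (v q : Fin 2 → ℂ), K4 T X z v q →
      mc T X (v 0 + q 0 - z) = mc T X (v 1 + q 0 - z) :=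
  hP_of h hJ (w3_of hJ h3) (w4_of h hJ h4)

/-- **the hypothesis `hA` of 533's `no_22`** -/
theorem hA_646 (h : Irr U T) (hJ : OnlyJ22 T) (h3 : R3 T) (h4 : R4 T) :
    ∀ z v v' q q', H533.Is22 T z v v' q q' → H533.Is11 T (v + q - z) v q ∧
      T (v + q - z) ∩ T q = T (v + q' - z) ∩ T q ∧
      T (v + q - z) ∩ T v = T (v' + q - z) ∩ T v :=
  hA_of h (hP_646 h hJ h3 h4)

end Vale.Agent.P032.H471
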