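import Vale.Agent.P032.H471.Two
import Vale.Agent.P032.S5.H555.Penta
import Vale.Agent.P032.S5.H843.Core7

/-!
# P032: heavy second centres next to a light/light centre with three ends

`z` light at `v` and at `q`, ends `v` (palette `X`), `q ≠ q'` (palette `Xᶜ`).  `w = v + q - z`.
`mid_colour` : at a clean five coloured centre which is light at `v` there is a colour `d ∈ Xᶜ` such
that `Xᶜ \ {d}` is no palette of its circle (pentagon of 555).
`heavy_y` : if `w` is heavy at `q` and its circle is clean then `q` is the only point of palette `Xᶜ`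
on `S(w)`.
`heavy_node` : so `(v, q)` is the only node of `w`.
-/

open Set Filter Topology Metric

noncomputable section

namespace Vale.Agent.P032.S5.H450

open Vale.Agent.P032.Six

variable {U : Fin 6 → Set ℂ} {T : ℂ → Set (Fin 6)} {X : Set (Fin 6)} {z v q q' : ℂ} {r s f : Fin 6}

namespace Nd

/-- a colour which does not disappear near `q` stays -/
theorem stay_of_no (h : Irr U T) (hX : X.ncard = 3) (hXz : Xᶜ ⊆ T z) {d : Fin 6} (hd : d ∈ Xᶜ)
    (hno : ∀ y, dist y z = 1 → T y ≠ Xᶜ \ {d}) (hTq : T q = Xᶜ) : Stay T z q d := by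
  unfold Stay
  filter_upwards [mem_nhdsWithin_of_mem_nhds (h.nhd q), self_mem_nhdsWithin] with x h1 h2
  by_contra h3
  have h4 : T x ⊆ Xᶜ \ {d} := fun i hi => ⟨hTq ▸ h1 hi, fun h6 => h3 (by
    rw [mem_singleton_iff] at h6; exact h6 ▸ hi)⟩
  have h6 : (Xᶜ \ {d} : Set (Fin 6)).ncard = 2 := by
    rw [Set.ncard_sdiff_singleton_of_mem hd, ncard_compl_three' hX]
  have h7 := h.pair_open (z := z) h6 (sdiff_subset.trans hXz) h4
  exact hno x h2 (h7.self_of_nhdsWithin h2)

/-- the palette of a centre light at `v` and heavy at `q` -/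
theorem pal_five (h : Irr U T) (N : Nd T X z v q) (hf : f ∈ X) (hfz : f ∉ T z) (hXz : Xᶜ ⊆ T z) :
    T z = {f}ᶜ := by
  ext i
  rw [mem_compl_iff, mem_singleton_iff]
  constructor
  · rintro hi rfl
    exact hfz hi
  · intro hi
    by_cases h1 : i ∈ X
    · exact N.rest h hf hfz ⟨h1, hi⟩
    · exact hXz h1

theorem card_five (h : Irr U T) (N : Nd T X z v q) (hf : f ∈ X) (hfz : f ∉ T z)
    (hXz : Xᶜ ⊆ T z) : (T z).ncard = 5 := by
  rw [N.pal_five h hf hfz hXz]
  have := Set.ncard_add_ncard_compl ({f} : Set (Fin 6))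
  rw [Nat.card_eq_fintype_card, Fintype.card_fin, Set.ncard_singleton] at this
  omega

/-- **the middle colour** of a clean five coloured centre -/
theorem mid_colour (h : Irr U T) (hmin : Mn U T) (N : Nd T X z v q) (hf : f ∈ X) (hfz : f ∉ T z)
    (hXz : Xᶜ ⊆ T z) (hcl : ∀ y, dist y z = 1 → (T y).ncard ≤ 3) :
    ∃ d ∈ Xᶜ, ∀ y, dist y z = 1 → T y ≠ Xᶜ \ {d} := by
  have h5 := N.card_five h hf hfz hXz
  obtain ⟨c, hc, hTz, hp⟩ := h.penta hmin h5 hcl
  -- a point with the pair of the node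
  obtain ⟨g, -, hg, hgP⟩ := N.acc h hf hfz univ univ_mem
  have hgT : T g = X \ {f} := hgP.self_of_nhdsWithin (show g ∈ sphere z 1 from hg)
  obtain ⟨i, hi⟩ := hp g hg (by rw [hgT]; exact N.two_sdiff hf)
    (by rw [hgT]; exact N.rest h hf hfz)
  rw [hgT] at hi
  have hcz : ∀ j, c j ∈ T z := fun j => by rw [hTz]; exact mem_range_self j
  have hne : ∀ j, c j ≠ f := fun j h1 => hfz (h1 ▸ hcz j)
  have hin : ∀ j, c j ∈ X → j = i ∨ j = i + 2 := by
    intro j hj
    have h1 : c j ∈ X \ {f} := ⟨hj, hne j⟩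
    rw [hi] at h1
    rcases h1 with h2 | h2
    · exact Or.inl (hc h2)
    · exact Or.inr (hc h2)
  have hiX : c i ∈ X := (hi.ge (Or.inl rfl)).1
  have hi2X : c (i + 2) ∈ X := (hi.ge (Or.inr rfl)).1
  have hd : c (i + 1) ∈ Xᶜ := by
    intro h1
    have h2 : ∀ i : Fin 5, i + 1 ≠ i ∧ i + 1 ≠ i + 2 := by decide
    rcases hin _ h1 with h3 | h3
    · exact (h2 i).1 h3
    · exact (h2 i).2 h3
  refine ⟨c (i + 1), hd, fun y hy hTy => ?_⟩
  obtain ⟨j, hj⟩ := hp y hy (by rw [hTy, Set.ncard_sdiff_singleton_of_mem hd, N.hXc])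
    (by rw [hTy]; exact sdiff_subset.trans hXz)
  have h1 : c j ∈ Xᶜ \ {c (i + 1)} := by rw [← hTy, hj]; exact Or.inl rfl
  have h2 : c (j + 2) ∈ Xᶜ \ {c (i + 1)} := by rw [← hTy, hj]; exact Or.inr rfl
  have key : ∀ i j : Fin 5, j = i ∨ j = i + 1 ∨ j = i + 2 ∨ j + 2 = i ∨ j + 2 = i + 1 ∨
      j + 2 = i + 2 := by decide
  rcases key i j with h3 | h3 | h3 | h3 | h3 | h3
  · subst h3; exact h1.1 hiX
  · subst h3; exact h1.2 rfl
  · subst h3; exact h1.1 hi2X
  · rw [h3] at h2; exact h2.1 hiX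
  · rw [h3] at h2; exact h2.2 rfl
  · rw [h3] at h2; exact h2.1 hi2X

/-- **a clean second centre which is heavy at `q` has only one point of palette `Xᶜ`**, if `z` has
two of them -/
theorem heavy_y (h : Irr U T) (hmin : Mn U T) (N : Nd T X z v q) (N' : Nd T X z v q')
    (hqq : q ≠ q') (hr : r ∈ X) (hrz : r ∉ T z) (hs : s ∈ Xᶜ) (hsz : s ∉ T z)
    (hw : Xᶜ ⊆ T (v + q - z)) (hcl : ∀ y, dist y (v + q - z) = 1 → (T y).ncard ≤ 3) {y : ℂ}
    (hy : dist y (v + q - z) = 1) (hTy : T y = Xᶜ) : y = q := by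
  rcases N.ends_w h N' hqq hr hrz hs hsz hy hTy with h1 | h1
  · exact h1
  exfalso
  obtain ⟨a, b, hab, har, hbr, hXe, ha, hb⟩ := N.two_light h N' hqq hr hrz hs hsz
  have haX : a ∈ X := by rw [hXe]; exact Or.inl rfl
  have Nw := N.other
  have Nw2 : Nd T X (v + q - z) v y := Nw.node_y h haX ha hy hTy
  obtain ⟨d, hd, hno⟩ := Nw.mid_colour h hmin haX ha hw hcl
  have e1 : v + q - (v + q - z) = z := by ring
  have e2 : v + y - (v + q - z) = v + q' - z := by linear_combination h1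
  have k1 : d ∉ T z := by
    have := Nw.miss h (stay_of_no h N.hX hw hd hno N.Tq)
    rwa [e1] at this
  have k2 : d ∉ T (v + q' - z) := by
    have := Nw2.miss h (stay_of_no h N.hX hw hd hno hTy)
    rwa [e2] at this
  exact N'.ne_other (N'.other.swap.unique h N'.swap hd k2 k1)

/-- **the only node of a heavy second centre** -/
theorem heavy_node (h : Irr U T) (hmin : Mn U T) (N : Nd T X z v q) (N' : Nd T X z v q')
    (hqq : q ≠ q') (hr : r ∈ X) (hrz : r ∉ T z) (hs : s ∈ Xᶜ) (hsz : s ∉ T z)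
    (hw : Xᶜ ⊆ T (v + q - z)) (hcl : ∀ y, dist y (v + q - z) = 1 → (T y).ncard ≤ 3) {x y : ℂ}
    (M : Nd T X (v + q - z) x y) : x = v ∧ y = q := by
  have hy : y = q := N.heavy_y h hmin N' hqq hr hrz hs hsz hw hcl
    (by rw [dist_comm]; exact M.dq) M.Tq
  subst hy
  exact ⟨N.heavy_x h hs hsz hw (by rw [dist_comm]; exact M.dv) M.Tv M.op, rfl⟩

end Nd

end Vale.Agent.P032.S5.H450
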