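import Vale.Agent.P032.H471.K4
import Vale.Agent.P032.H533.Two22

/-!
# P032: the sign bits of the `K₄` cluster

`K4.not_both` : the third points of both palettes are not both present.
`KB T z v q i j i2 j2` : the sign bits of the cluster, `K4.kbits`.
`hA_of` : the hypothesis `hA` of `H533.no_22` from the equality of the missing colours.
-/

open Set Filter Topology Metric

noncomputable section

namespace Vale.Agent.P032.H471

open Vale.Agent.P032.Six Vale.Agent.P032.S5.H450 Vale.Agent.P032.H838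
  Vale.Agent.P032.Net.H672

variable {U : Fin 6 → Set ℂ} {T : ℂ → Set (Fin 6)} {X : Set (Fin 6)} {z c m : ℂ}
  {v q : Fin 2 → ℂ}

/-- the colours of `X` at a centre with an end of palette `X` -/
theorem mem_mc {p : ℂ} (hp : EE T c p) (hT : T p = X) {x : Fin 6} (hx : x ∈ X) :
    x ∈ T c ↔ x ≠ mc T X c := by
  obtain ⟨-, h2, h3, -⟩ := mc_ee hp hT
  constructor
  · rintro h4 rfl
    exact h2 h4
  · intro h4
    by_contra h5
    exact h4 (h3 x hx h5)

theorem mc_mem {p : ℂ} (hp : EE T c p) (hT : T p = X) : mc T X c ∈ X := (mc_ee hp hT).1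

/-- three different elements of a set of three elements -/
theorem three_of {a b d x : Fin 6} (hX : X.ncard = 3) (ha : a ∈ X) (hb : b ∈ X) (hd : d ∈ X)
    (hab : a ≠ b) (had : a ≠ d) (hbd : b ≠ d) (hx : x ∈ X) : x = a ∨ x = b ∨ x = d := by
  have h1 : ({a, b, d} : Set (Fin 6)) = X := by
    refine Set.eq_of_subset_of_ncard_le ?_ ?_ (Set.toFinite _)
    · rintro i (rfl | rfl | hi)
      · exact ha
      · exact hb
      · rw [mem_singleton_iff] at hi; exact hi ▸ hd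
    · rw [hX, Set.ncard_eq_three.2 ⟨a, b, d, hab, had, hbd, rfl⟩]
  rw [← h1] at hx
  rcases hx with h2 | h2 | h2
  · exact Or.inl h2
  · exact Or.inr (Or.inl h2)
  · exact Or.inr (Or.inr h2)

/-- the position of one colour -/
theorem xor_of {a b d x : Fin 6} (hX : X.ncard = 3) (ha : a ∈ X) (hb : b ∈ X) (hd : d ∈ X)
    (hab : a ≠ b) (had : a ≠ d) (hbd : b ≠ d) (hx : x ∈ X) (hxd : x ≠ d) : x ≠ a ↔ ¬ x ≠ b := by
  rcases three_of hX ha hb hd hab had hbd hx with rfl | rfl | rfl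
  · simp [hab]
  · simp [hab.symm]
  · exact absurd rfl hxd

theorem dt_flip (a b d : ℂ) : dt (a - d) (b - d) = dt (b - d) (d - a) := by
  unfold dt; simp only [Complex.sub_re, Complex.sub_im]; ring

theorem sum_two (v : Fin 2 → ℂ) {i i' : Fin 2} (hi : i ≠ i') : v 0 + v 1 = v i + v i' := by
  fin_cases i <;> fin_cases i'
  · exact absurd rfl hi
  · rfl
  · exact add_comm _ _
  · exact absurd rfl hi

namespace K4

section basic

variable (h : Irr U T) (K : K4 T X z v q)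
include h K

theorem mem_z {x : Fin 6} (hx : x ∈ X) : x ∈ T z ↔ x ≠ mc T X z :=
  mem_mc (K.ez h 0).1 (K.Tv 0) hx

theorem mem_z' {x : Fin 6} (hx : x ∈ Xᶜ) : x ∈ T z ↔ x ≠ mc T Xᶜ z :=
  mem_mc (K.ez' h 0).1 (K.Tq 0) hx

theorem mem_w (i j : Fin 2) {x : Fin 6} (hx : x ∈ X) :
    x ∈ T (v i + q j - z) ↔ x ≠ mc T X (v i + q j - z) :=
  mem_mc (K.ew h i j).1 (K.Tv i) hx

theorem mem_w' (i j : Fin 2) {x : Fin 6} (hx : x ∈ Xᶜ) :
    x ∈ T (v i + q j - z) ↔ x ≠ mc T Xᶜ (v i + q j - z) :=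
  mem_mc (K.ew' h i j).1 (K.Tq j) hx

theorem mz : mc T X z ∈ X := mc_mem (K.ez h 0).1 (K.Tv 0)

theorem mz' : mc T Xᶜ z ∈ Xᶜ := mc_mem (K.ez' h 0).1 (K.Tq 0)

theorem mw (i j : Fin 2) : mc T X (v i + q j - z) ∈ X := mc_mem (K.ew h i j).1 (K.Tv i)

theorem mw' (i j : Fin 2) : mc T Xᶜ (v i + q j - z) ∈ Xᶜ := mc_mem (K.ew' h i j).1 (K.Tq j)

/-- the missing colours of two partners through `v i` -/
theorem mc_w_ne1 (i : Fin 2) {j j' : Fin 2} (hj : j ≠ j') :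
    mc T X (v i + q j - z) ≠ mc T X (v i + q j' - z) := by
  fin_cases j <;> fin_cases j'
  · exact absurd rfl hj
  · exact K.mc_w_ne h i
  · exact (K.mc_w_ne h i).symm
  · exact absurd rfl hj

theorem mc_w_ne1' (j : Fin 2) {i i' : Fin 2} (hi : i ≠ i') :
    mc T Xᶜ (v i + q j - z) ≠ mc T Xᶜ (v i' + q j - z) := by
  fin_cases i <;> fin_cases i'
  · exact absurd rfl hi
  · exact K.mc_w_ne' h j
  · exact (K.mc_w_ne' h j).symm
  · exact absurd rfl hi

/-- if the missing colours are different at one column, they are at the other one -/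
theorem ne_col (hne : mc T X (v 0 + q 0 - z) ≠ mc T X (v 1 + q 0 - z)) :
    mc T X (v 0 + q 0 - z) = mc T X (v 1 + q 1 - z) ∧
      mc T X (v 0 + q 1 - z) = mc T X (v 1 + q 0 - z) := by
  have h1 : ∀ x ∈ X, x = mc T X z ∨ x = mc T X (v 0 + q 0 - z) ∨ x = mc T X (v 0 + q 1 - z) :=
    fun x hx => three_of K.hX (K.mz h) (K.mw h 0 0) (K.mw h 0 1) (K.mc_z_ne h 0 0)
      (K.mc_z_ne h 0 1) (K.mc_w_ne h 0) hx
  have h2 := h1 _ (K.mw h 1 0)
  have h3 := h1 _ (K.mw h 1 1)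
  have n1 := K.mc_z_ne h 1 0
  have n2 := K.mc_z_ne h 1 1
  have n3 := K.mc_w_ne h 1
  rcases h2 with h2 | h2 | h2
  · exact absurd h2.symm n1
  · exact absurd h2.symm hne
  rcases h3 with h3 | h3 | h3
  · exact absurd h3.symm n2
  · exact ⟨h3.symm, h2.symm⟩
  · exact absurd (h2.trans h3.symm) n3

theorem ne_cols (hne : mc T X (v 0 + q 0 - z) ≠ mc T X (v 1 + q 0 - z)) (j : Fin 2) :
    mc T X (v 0 + q j - z) ≠ mc T X (v 1 + q j - z) := by
  obtain ⟨h1, h2⟩ := K.ne_col h hne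
  fin_cases j
  · exact hne
  · show mc T X (v 0 + q 1 - z) ≠ mc T X (v 1 + q 1 - z)
    rw [← h1, h2]
    exact hne.symm

theorem ne_cols' (hne : mc T X (v 0 + q 0 - z) ≠ mc T X (v 1 + q 0 - z)) (j : Fin 2)
    {i i' : Fin 2} (hi : i ≠ i') : mc T X (v i + q j - z) ≠ mc T X (v i' + q j - z) := by
  have := K.ne_cols h hne j
  fin_cases i <;> fin_cases i'
  · exact absurd rfl hi
  · exact this
  · exact this.symm
  · exact absurd rfl hi

/-- a colour of `X` at `z` is at exactly one of the partners through `v i` -/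
theorem row (i : Fin 2) {x : Fin 6} (hx : x ∈ X) (hxz : x ∈ T z) :
    x ∈ T (v i + q 1 - z) ↔ ¬ x ∈ T (v i + q 0 - z) := by
  rw [K.mem_w h i 1 hx, K.mem_w h i 0 hx]
  exact xor_of K.hX (K.mw h i 1) (K.mw h i 0) (K.mz h) (K.mc_w_ne h i).symm
    (K.mc_z_ne h i 1).symm (K.mc_z_ne h i 0).symm hx ((K.mem_z h hx).1 hxz)

theorem row' (j : Fin 2) {x : Fin 6} (hx : x ∈ Xᶜ) (hxz : x ∈ T z) :
    x ∈ T (v 1 + q j - z) ↔ ¬ x ∈ T (v 0 + q j - z) := by
  rw [K.mem_w' h 1 j hx, K.mem_w' h 0 j hx]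
  exact xor_of K.swap.hX (K.mw' h 1 j) (K.mw' h 0 j) (K.mz' h) (K.mc_w_ne' h j).symm
    (K.mc_z_ne' h 1 j).symm (K.mc_z_ne' h 0 j).symm hx ((K.mem_z' h hx).1 hxz)

end basic

section bits

variable (h : Irr U T) (hJ : OnlyJ22 T) (K : K4 T X z v q)
include h hJ K

theorem dt_ne_vq (i j : Fin 2) : dt (z - v i) (q j - z) ≠ 0 := by
  have h1 := (cnet22 h hJ).dt_ne (K.ez h i) (K.ez' h j) (K.comp i j)
  intro h2
  apply h1
  rw [dt_flip, dt_comm, h2, neg_zero]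

theorem dt_ne_vv : dt (z - v 0) (z - v 1) ≠ 0 := by
  have h1 := (cnet22 h hJ).dt_ne_same (K.ez' h 0) (K.ez h 0) (K.ez h 1)
    (by rw [K.Tv, K.Tq, compl_compl]) (by rw [K.Tv, K.Tq, compl_compl]) K.vne
  intro h2
  apply h1
  rw [← h2]
  unfold dt; simp only [Complex.sub_re, Complex.sub_im]; ring

theorem dt_ne_qq : dt (q 0 - z) (q 1 - z) ≠ 0 :=
  (cnet22 h hJ).dt_ne_same (K.ez h 0) (K.ez' h 0) (K.ez' h 1) (K.comp 0 0) (K.comp 0 1) K.qne

/-- the orientation of a partner at `v i` -/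
theorem abit (i j : Fin 2) : 0 < ore T (v i + q j - z) (v i) * dt (q j - z) (z - v i) ↔
    inn U T z (v i) ∈ T (v i + q j - z) := by
  have := (cnet22 h hJ).inner_iff (K.ez h i) (K.ez' h j) (K.comp i j)
  rwa [dt_flip] at this

theorem abit' (i j : Fin 2) : 0 < ore T (v i + q j - z) (q j) * dt (z - v i) (q j - z) ↔
    inn U T z (q j) ∈ T (v i + q j - z) := by
  have := (cnet22 h hJ).inner_iff (K.ez' h j) (K.ez h i)
    (by rw [K.Tv, K.Tq, compl_compl])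
  rw [dt_flip, add_comm (q j) (v i)] at this
  rw [← this, dt_comm, show v i - z = -(z - v i) by ring, show z - q j = -(q j - z) by ring,
    dt_neg_left, dt_neg_right, dt_comm]

/-- two ends of palette `X` at `z`, on the line of `q j` -/
theorem lp2v (j : Fin 2) : inn U T z (v 0) = inn U T z (v 1) ↔
    0 < dt (q j - z) (z - v 0) * dt (q j - z) (z - v 1) := by
  have := (cnet22 h hJ).LP2 (K.ez' h j) (K.ez h 0) (K.ez h 1)
    (by rw [K.Tv, K.Tq]; ext i; simp; tauto) (by rw [K.Tv, K.Tq]; ext i; simp; tauto)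
  rw [this, show v 0 - z = -(z - v 0) by ring, show v 1 - z = -(z - v 1) by ring, dt_neg_right,
    dt_neg_right, neg_mul_neg]

theorem lp2q (i : Fin 2) : inn U T z (q 0) = inn U T z (q 1) ↔
    0 < dt (z - v i) (q 0 - z) * dt (z - v i) (q 1 - z) := by
  have := (cnet22 h hJ).LP2 (K.ez h i) (K.ez' h 0) (K.ez' h 1)
    (by rw [K.Tv, K.Tq]; ext i; simp; tauto) (by rw [K.Tv, K.Tq]; ext i; simp; tauto)
  rw [this, show v i - z = -(z - v i) by ring, dt_neg_left, dt_neg_left, neg_mul_neg]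

/-- LP3 at `v i`, in signs -/
theorem lp3v (i : Fin 2) :
    (0 < ore T z (v i) * ore T (v i + q 0 - z) (v i) * dt (z - v i) (q 0 - z) ↔
      0 < ore T (v i + q 0 - z) (v i) * ore T (v i + q 1 - z) (v i) *
        dt (q 0 - z) (q 1 - z)) ∧
    (0 < ore T z (v i) * ore T (v i + q 0 - z) (v i) * dt (z - v i) (q 0 - z) ↔
      0 < ore T (v i + q 1 - z) (v i) * ore T z (v i) * dt (q 1 - z) (z - v i)) := by
  obtain ⟨a, b, ha, hb, hab⟩ := (cnet22 h hJ).LP3 (K.ez h i) (K.ez' h 0) (K.comp i 0)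
    (K.ew h i 1) (K.ew' h i 1) (K.comp i 1)
    (fun h5 => (K.nd h i 1).op (by linear_combination h5))
    (fun h5 => K.qne (by linear_combination -h5))
  rw [show v i + q 1 - z - v i = q 1 - z by ring] at hab
  have e0 : ((ore T (v i + q 1 - z) (v i) : ℝ) : ℂ) * (q 1 - z) +
      ((a * ore T z (v i) : ℝ) : ℂ) * (z - v i) +
      ((b * ore T (v i + q 0 - z) (v i) : ℝ) : ℂ) * (q 0 - z) = 0 := by
    push_cast
    linear_combination hab
  have e1 := dt_lin (z - v i) e0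
  have e2 := dt_lin (q 0 - z) e0
  rw [dt_self] at e1 e2
  have d1 := K.dt_ne_vq h hJ i 0
  have d2 := K.dt_ne_vq h hJ i 1
  have d3 := K.dt_ne_qq h hJ
  rw [dt_comm (z - v i) (q 0 - z)] at e2
  rw [dt_comm (z - v i) (q 1 - z)]
  set D1 := dt (z - v i) (q 0 - z)
  set D2 := dt (z - v i) (q 1 - z)
  set D3 := dt (q 0 - z) (q 1 - z)
  have o1 := ore_or T (v i + q 0 - z) (v i)
  have o2 := ore_or T (v i + q 1 - z) (v i)
  have o3 := ore_or T z (v i)
  have ha' : 0 < a := by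
    rcases ha.lt_or_eq with h5 | h5
    · exact h5
    · exfalso
      rw [← h5] at e2
      rcases o2 with h6 | h6 <;> rw [h6] at e2 <;> apply d3 <;> linarith
  have hb' : 0 < b := by
    rcases hb.lt_or_eq with h5 | h5
    · exact h5
    · exfalso
      rw [← h5] at e1
      rcases o2 with h6 | h6 <;> rw [h6] at e1 <;> apply d2 <;> linarith
  -- signs
  have f1 : D3 = ore T (v i + q 1 - z) (v i) * ore T z (v i) * (a * D1) := by
    have : ore T (v i + q 1 - z) (v i) * ore T (v i + q 1 - z) (v i) = 1 := by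
      rcases o2 with h6 | h6 <;> rw [h6] <;> norm_num
    linear_combination -D3 * this + ore T (v i + q 1 - z) (v i) * e2
  have f2 : D2 = -(ore T (v i + q 1 - z) (v i) * ore T (v i + q 0 - z) (v i) * (b * D1)) := by
    have : ore T (v i + q 1 - z) (v i) * ore T (v i + q 1 - z) (v i) = 1 := by
      rcases o2 with h6 | h6 <;> rw [h6] <;> norm_num
    linear_combination -D2 * this + ore T (v i + q 1 - z) (v i) * e1
  rw [f1, f2]
  have p1 : ∀ x y : ℝ, 0 < x → (0 < x * y ↔ 0 < y) := fun x y hx => by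
    rw [mul_pos_iff_of_pos_left hx]
  constructor
  · rcases o1 with h5 | h5 <;> rcases o2 with h6 | h6 <;> rcases o3 with h7 | h7 <;>
      rw [h5, h6, h7] <;> simp only [one_mul, mul_one, neg_mul, mul_neg, neg_neg] <;>
      first
        | exact (p1 a D1 ha').symm
        | (rw [← mul_neg]; exact (p1 a (-D1) ha').symm)
  · rcases o1 with h5 | h5 <;> rcases o2 with h6 | h6 <;> rcases o3 with h7 | h7 <;>
      rw [h5, h6, h7] <;> simp only [one_mul, mul_one, neg_mul, mul_neg, neg_neg] <;>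
      first
        | exact (p1 b D1 hb').symm
        | (rw [← mul_neg]; exact (p1 b (-D1) hb').symm)

/-- LP3 at `q j`, in signs -/
theorem lp3q (j : Fin 2) :
    (0 < ore T z (q j) * ore T (v 0 + q j - z) (q j) * dt (q j - z) (z - v 0) ↔
      0 < ore T (v 0 + q j - z) (q j) * ore T (v 1 + q j - z) (q j) *
        dt (z - v 0) (z - v 1)) ∧
    (0 < ore T z (q j) * ore T (v 0 + q j - z) (q j) * dt (q j - z) (z - v 0) ↔
      0 < ore T (v 1 + q j - z) (q j) * ore T z (q j) * dt (z - v 1) (q j - z)) := by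
  have k1 := K.swap.lp3v h hJ j
  have e : ∀ a b : ℂ, dt (-a) (-b) = dt a b := fun a b => by
    rw [dt_neg_left, dt_neg_right, neg_neg]
  have e1 : dt (z - q j) (v 0 - z) = dt (q j - z) (z - v 0) := by
    rw [← e]; congr 1 <;> ring
  have e2 : dt (v 0 - z) (v 1 - z) = dt (z - v 0) (z - v 1) := by
    rw [← e]; congr 1 <;> ring
  have e3 : dt (v 1 - z) (z - q j) = dt (z - v 1) (q j - z) := by
    rw [← e]; congr 1 <;> ring
  rw [add_comm (q j) (v 0), add_comm (q j) (v 1), e1, e2, e3] at k1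
  exact k1

/-- the third point `p j` -/
theorem pbit {i i' : Fin 2} (j : Fin 2) (hi : i ≠ i')
    (hne : mc T X (v 0 + q 0 - z) ≠ mc T X (v 1 + q 0 - z)) :
    (0 < dt (z - v i') (q j - z) * dt (z - v i') (z - v i) →
      (0 < ore T (v i + q j - z) (v 0 + v 1 + q j - 2 * z) * dt (z - v i') (z - v i) ↔
        ¬ 0 < ore T z (v i') * dt (z - v i') (q j - z))) ∧
    (¬ 0 < dt (z - v i') (q j - z) * dt (z - v i') (z - v i) →
      (0 < ore T (v i + q j - z) (v 0 + v 1 + q j - 2 * z) * dt (z - v i') (z - v i) ↔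
        0 < ore T z (v i') * dt (z - v i') (q j - z))) := by
  have C := cnet22 h hJ
  obtain ⟨hTp, hEp⟩ := K.p_end h hJ j (K.ne_cols h hne j)
  have hs := sum_two v hi
  set p := v 0 + v 1 + q j - 2 * z with hp
  have hqp : T (q j) = (T p)ᶜ := by rw [hTp, K.Tq]
  have l1 := C.LP1 (hEp i) (K.ew' h i j) hqp
  rw [show v i + q j - z - p = z - v i' by rw [hp, hs]; ring,
    show q j - (v i + q j - z) = z - v i by ring,
    show p + q j - (v i + q j - z) = v i' + q j - z by rw [hp, hs]; ring] at l1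
  have l2 := C.LP1 (K.ez h i') (K.ez' h j) (K.comp i' j)
  have l3 := C.LP2 (K.ew' h i' j) (K.ew h i' j) (hEp i')
    (by rw [K.Tv, K.Tq]; ext i; simp; tauto) (by rw [hTp, K.Tq]; ext i; simp; tauto)
  rw [show q j - (v i' + q j - z) = z - v i' by ring,
    show v i' - (v i' + q j - z) = -(q j - z) by ring,
    show p - (v i' + q j - z) = -(z - v i) by rw [hp, hs]; ring, dt_neg_right, dt_neg_right,
    neg_mul_neg] at l3
  rw [l1, l2, ← l3]
  -- colours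
  obtain ⟨x1, x2⟩ := C.inn_mem (K.ew h i' j)
  obtain ⟨y1, y2⟩ := C.inn_mem (hEp i')
  set x := inn U T (v i' + q j - z) (v i')
  set y := inn U T (v i' + q j - z) p
  rw [K.Tv] at x1
  rw [hTp] at y1
  have x3 := (K.mem_w h i' j x1).1 x2
  have y3 := (K.mem_w h i' j y1).1 y2
  rw [K.mem_w h i j y1, K.mem_z h x1]
  have n1 := K.ne_cols' h hne j hi
  have n2 := K.mc_z_ne h i j
  have n3 := K.mc_z_ne h i' j
  have tx := three_of K.hX (K.mz h) (K.mw h i j) (K.mw h i' j) n2 n3 n1 x1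
  have ty := three_of K.hX (K.mz h) (K.mw h i j) (K.mw h i' j) n2 n3 n1 y1
  set m0 := mc T X z
  set m1 := mc T X (v i + q j - z)
  set m2 := mc T X (v i' + q j - z)
  rcases tx with h5 | h5 | h5
  · rcases ty with h6 | h6 | h6
    · rw [h5, h6]; simp [n2]
    · rw [h5, h6]; simp [n2]
    · exact absurd h6 y3
  · rcases ty with h6 | h6 | h6
    · rw [h5, h6]; simp [n2, n2.symm]
    · rw [h5, h6]; simp [n2.symm]
    · exact absurd h6 y3
  · exact absurd h5 x3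

/-- the orientation of a partner at `q j` and the third point -/
theorem qbit {i i' : Fin 2} (j : Fin 2) (hi : i ≠ i')
    (hne : mc T X (v 0 + q 0 - z) ≠ mc T X (v 1 + q 0 - z)) :
    0 < ore T (v i + q j - z) (q j) * dt (z - v i) (z - v i') ↔
      ¬ 0 < ore T z (q j) * dt (q j - z) (z - v i') := by
  have C := cnet22 h hJ
  obtain ⟨hTp, hEp⟩ := K.p_end h hJ j (K.ne_cols h hne j)
  have hs := sum_two v hi
  set p := v 0 + v 1 + q j - 2 * z with hp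
  have hqp : T p = (T (q j))ᶜ := by rw [hTp, K.Tq, compl_compl]
  have l1 := C.LP1 (K.ew' h i j) (hEp i) hqp
  rw [show v i + q j - z - q j = -(z - v i) by ring,
    show p - (v i + q j - z) = -(z - v i') by rw [hp, hs]; ring,
    show q j + p - (v i + q j - z) = v i' + q j - z by rw [hp, hs]; ring, dt_neg_left,
    dt_neg_right, neg_neg] at l1
  have l2 := C.LP1 (K.ez' h j) (K.ez h i') (by rw [K.Tv, K.Tq, compl_compl])
  rw [show z - q j = -(q j - z) by ring, show v i' - z = -(z - v i') by ring, dt_neg_left,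
    dt_neg_right, neg_neg, add_comm (q j) (v i')] at l2
  rw [l1, l2]
  obtain ⟨x1, x2⟩ := C.inn_mem (K.ew' h i' j)
  rw [K.Tq] at x1
  rw [K.mem_w' h i j x1, K.mem_z' h x1]
  exact xor_of K.swap.hX (K.mw' h i j) (K.mz' h) (K.mw' h i' j) (K.mc_z_ne' h i j).symm
    (K.mc_w_ne1' h j hi) (K.mc_z_ne' h i' j) x1 ((K.mem_w' h i' j x1).1 x2)

/-- **the third points of both palettes are not both present** -/
theorem not_both (hne : mc T X (v 0 + q 0 - z) ≠ mc T X (v 1 + q 0 - z))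
    (hne' : mc T Xᶜ (v 0 + q 0 - z) ≠ mc T Xᶜ (v 0 + q 1 - z)) : False := by
  have C := cnet22 h hJ
  obtain ⟨a1, a2⟩ := K.p_end h hJ 0 (K.ne_cols h hne 0)
  obtain ⟨b1, b2⟩ := K.p_end h hJ 1 (K.ne_cols h hne 1)
  obtain ⟨c1, c2⟩ := K.r_end h hJ 0 hne'
  have s0 := C.sep (K.ez h 0) (K.ez h 1) (K.ez' h 0) (K.ez' h 1) (by rw [K.Tv, K.Tv])
    (K.comp 0 0) (K.comp 0 1)
  have s1 := C.sep (K.ew h 0 0) (a2 0) (K.ew' h 0 0) (c2 0) (by rw [a1, K.Tv]) (K.comp 0 0)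
    (by rw [c1, K.Tv])
  have s2 := C.sep (K.ew h 0 1) (b2 0) (K.ew' h 0 1) (c2 1) (by rw [b1, K.Tv]) (K.comp 0 1)
    (by rw [c1, K.Tv])
  rw [show v 0 - (v 0 + q 0 - z) = -(q 0 - z) by ring,
    show v 0 + v 1 + q 0 - 2 * z - (v 0 + q 0 - z) = v 1 - z by ring,
    show q 0 - (v 0 + q 0 - z) = -(v 0 - z) by ring,
    show v 0 + q 0 + q 1 - 2 * z - (v 0 + q 0 - z) = q 1 - z by ring] at s1
  rw [show v 0 - (v 0 + q 1 - z) = -(q 1 - z) by ring,
    show v 0 + v 1 + q 1 - 2 * z - (v 0 + q 1 - z) = v 1 - z by ring,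
    show q 1 - (v 0 + q 1 - z) = -(v 0 - z) by ring,
    show v 0 + q 0 + q 1 - 2 * z - (v 0 + q 1 - z) = q 0 - z by ring] at s2
  simp only [dt_neg_left, dt_neg_right, neg_neg] at s1 s2
  rw [dt_comm (v 0 - z) (q 0 - z), dt_comm (v 0 - z) (v 1 - z)] at s1
  rw [dt_comm (v 0 - z) (q 1 - z), dt_comm (v 0 - z) (v 1 - z), dt_comm (q 0 - z) (q 1 - z)] at s2
  have hp := mul_pos (mul_pos s0 s1) s2
  set A := dt (v 0 - z) (q 0 - z)
  set B := dt (v 0 - z) (q 1 - z)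
  set E := dt (v 1 - z) (q 0 - z)
  set F := dt (v 1 - z) (q 1 - z)
  set G := dt (v 0 - z) (v 1 - z)
  set H := dt (q 0 - z) (q 1 - z)
  nlinarith [sq_nonneg (A * B * E * F * G * H)]

end bits

end K4

/-- the sign bits of the cluster; `i`, `j`, `i2`, `j2` : the inner colours of `z` at `v 0`, `q 0`,
`v 1`, `q 1` are colours of the partners `w 0 0`, `w 0 0`, `w 1 0`, `w 0 1` -/
structure KB (T : ℂ → Set (Fin 6)) (z : ℂ) (v q : Fin 2 → ℂ) (i j i2 j2 : Prop) : Prop where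
  /-- at `v 0`, `v 1` -/
  a1 : 0 < ore T (v 0 + q 0 - z) (v 0) * dt (q 0 - z) (z - v 0) ↔ i
  a2 : 0 < ore T (v 0 + q 1 - z) (v 0) * dt (q 1 - z) (z - v 0) ↔ ¬ i
  a3 : 0 < ore T (v 1 + q 0 - z) (v 1) * dt (q 0 - z) (z - v 1) ↔ i2
  a4 : 0 < ore T (v 1 + q 1 - z) (v 1) * dt (q 1 - z) (z - v 1) ↔ ¬ i2
  a5 : (0 < dt (q 0 - z) (z - v 0) * dt (q 0 - z) (z - v 1) → (i2 ↔ ¬ i)) ∧
    (¬ 0 < dt (q 0 - z) (z - v 0) * dt (q 0 - z) (z - v 1) → (i2 ↔ i))
  a6 : (0 < dt (q 1 - z) (z - v 0) * dt (q 1 - z) (z - v 1) → (i2 ↔ ¬ i)) ∧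
    (¬ 0 < dt (q 1 - z) (z - v 0) * dt (q 1 - z) (z - v 1) → (i2 ↔ i))
  /-- at `q 0`, `q 1` -/
  b1 : 0 < ore T (v 0 + q 0 - z) (q 0) * dt (z - v 0) (q 0 - z) ↔ j
  b2 : 0 < ore T (v 1 + q 0 - z) (q 0) * dt (z - v 1) (q 0 - z) ↔ ¬ j
  b3 : 0 < ore T (v 0 + q 1 - z) (q 1) * dt (z - v 0) (q 1 - z) ↔ j2
  b4 : 0 < ore T (v 1 + q 1 - z) (q 1) * dt (z - v 1) (q 1 - z) ↔ ¬ j2
  b5 : (0 < dt (z - v 0) (q 0 - z) * dt (z - v 0) (q 1 - z) → (j2 ↔ j)) ∧
    (¬ 0 < dt (z - v 0) (q 0 - z) * dt (z - v 0) (q 1 - z) → (j2 ↔ ¬ j))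
  b6 : (0 < dt (z - v 1) (q 0 - z) * dt (z - v 1) (q 1 - z) → (j2 ↔ j)) ∧
    (¬ 0 < dt (z - v 1) (q 0 - z) * dt (z - v 1) (q 1 - z) → (j2 ↔ ¬ j))
  /-- at the third points -/
  c1 : (0 < dt (z - v 1) (q 0 - z) * dt (z - v 1) (z - v 0) →
      (0 < ore T (v 0 + q 0 - z) (v 0 + v 1 + q 0 - 2 * z) * dt (z - v 1) (z - v 0) ↔
        ¬ 0 < ore T z (v 1) * dt (z - v 1) (q 0 - z))) ∧
    (¬ 0 < dt (z - v 1) (q 0 - z) * dt (z - v 1) (z - v 0) →
      (0 < ore T (v 0 + q 0 - z) (v 0 + v 1 + q 0 - 2 * z) * dt (z - v 1) (z - v 0) ↔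
        0 < ore T z (v 1) * dt (z - v 1) (q 0 - z)))
  c2 : (0 < dt (z - v 0) (q 0 - z) * dt (z - v 0) (z - v 1) →
      (0 < ore T (v 1 + q 0 - z) (v 0 + v 1 + q 0 - 2 * z) * dt (z - v 0) (z - v 1) ↔
        ¬ 0 < ore T z (v 0) * dt (z - v 0) (q 0 - z))) ∧
    (¬ 0 < dt (z - v 0) (q 0 - z) * dt (z - v 0) (z - v 1) →
      (0 < ore T (v 1 + q 0 - z) (v 0 + v 1 + q 0 - 2 * z) * dt (z - v 0) (z - v 1) ↔
        0 < ore T z (v 0) * dt (z - v 0) (q 0 - z)))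
  c3 : (0 < dt (z - v 1) (q 1 - z) * dt (z - v 1) (z - v 0) →
      (0 < ore T (v 0 + q 1 - z) (v 0 + v 1 + q 1 - 2 * z) * dt (z - v 1) (z - v 0) ↔
        ¬ 0 < ore T z (v 1) * dt (z - v 1) (q 1 - z))) ∧
    (¬ 0 < dt (z - v 1) (q 1 - z) * dt (z - v 1) (z - v 0) →
      (0 < ore T (v 0 + q 1 - z) (v 0 + v 1 + q 1 - 2 * z) * dt (z - v 1) (z - v 0) ↔
        0 < ore T z (v 1) * dt (z - v 1) (q 1 - z)))
  c4 : (0 < dt (z - v 0) (q 1 - z) * dt (z - v 0) (z - v 1) →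
      (0 < ore T (v 1 + q 1 - z) (v 0 + v 1 + q 1 - 2 * z) * dt (z - v 0) (z - v 1) ↔
        ¬ 0 < ore T z (v 0) * dt (z - v 0) (q 1 - z))) ∧
    (¬ 0 < dt (z - v 0) (q 1 - z) * dt (z - v 0) (z - v 1) →
      (0 < ore T (v 1 + q 1 - z) (v 0 + v 1 + q 1 - 2 * z) * dt (z - v 0) (z - v 1) ↔
        0 < ore T z (v 0) * dt (z - v 0) (q 1 - z)))
  /-- the other orientations at `q 0`, `q 1` -/
  d1 : 0 < ore T (v 0 + q 0 - z) (q 0) * dt (z - v 0) (z - v 1) ↔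
    ¬ 0 < ore T z (q 0) * dt (q 0 - z) (z - v 1)
  d2 : 0 < ore T (v 1 + q 0 - z) (q 0) * dt (z - v 1) (z - v 0) ↔
    ¬ 0 < ore T z (q 0) * dt (q 0 - z) (z - v 0)
  d3 : 0 < ore T (v 0 + q 1 - z) (q 1) * dt (z - v 0) (z - v 1) ↔
    ¬ 0 < ore T z (q 1) * dt (q 1 - z) (z - v 1)
  d4 : 0 < ore T (v 1 + q 1 - z) (q 1) * dt (z - v 1) (z - v 0) ↔
    ¬ 0 < ore T z (q 1) * dt (q 1 - z) (z - v 0)
  /-- LP3 at `v 0`, `v 1` -/
  l1 : ∀ i, (0 < ore T z (v i) * ore T (v i + q 0 - z) (v i) * dt (z - v i) (q 0 - z) ↔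
      0 < ore T (v i + q 0 - z) (v i) * ore T (v i + q 1 - z) (v i) *
        dt (q 0 - z) (q 1 - z)) ∧
    (0 < ore T z (v i) * ore T (v i + q 0 - z) (v i) * dt (z - v i) (q 0 - z) ↔
      0 < ore T (v i + q 1 - z) (v i) * ore T z (v i) * dt (q 1 - z) (z - v i))
  /-- LP3 at `q 0`, `q 1` -/
  l2 : ∀ j, (0 < ore T z (q j) * ore T (v 0 + q j - z) (q j) * dt (q j - z) (z - v 0) ↔
      0 < ore T (v 0 + q j - z) (q j) * ore T (v 1 + q j - z) (q j) *
        dt (z - v 0) (z - v 1)) ∧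
    (0 < ore T z (q j) * ore T (v 0 + q j - z) (q j) * dt (q j - z) (z - v 0) ↔
      0 < ore T (v 1 + q j - z) (q j) * ore T z (q j) * dt (z - v 1) (q j - z))
  nvq : ∀ i j, dt (z - v i) (q j - z) ≠ 0
  nvv : dt (z - v 0) (z - v 1) ≠ 0
  nqq : dt (q 0 - z) (q 1 - z) ≠ 0
  ori : ∀ x y, ore T x y = 1 ∨ ore T x y = -1

theorem prop_a {E P Q F : Prop} (h1 : E ↔ (P ↔ ¬ Q)) (h2 : E ↔ F) :
    (F → (P ↔ ¬ Q)) ∧ (¬ F → (P ↔ Q)) := by tauto

theorem prop_b {E P Q F : Prop} (h1 : E ↔ (P ↔ Q)) (h2 : E ↔ F) :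
    (F → (P ↔ Q)) ∧ (¬ F → (P ↔ ¬ Q)) := by tauto

/-- **the sign bits of the cluster** -/
theorem K4.kbits (h : Irr U T) (hJ : OnlyJ22 T) (K : K4 T X z v q)
    (hne : mc T X (v 0 + q 0 - z) ≠ mc T X (v 1 + q 0 - z))
    (heq : mc T Xᶜ (v 0 + q 0 - z) = mc T Xᶜ (v 0 + q 1 - z)) :
    ∃ i j i2 j2 : Prop, KB T z v q i j i2 j2 := by
  have C := cnet22 h hJ
  obtain ⟨x1, x2⟩ := C.inn_mem (K.ez h 0)
  obtain ⟨y1, y2⟩ := C.inn_mem (K.ez h 1)
  obtain ⟨s1, s2⟩ := C.inn_mem (K.ez' h 0)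
  obtain ⟨t1, t2⟩ := C.inn_mem (K.ez' h 1)
  rw [K.Tv] at x1 y1
  rw [K.Tq] at s1 t1
  obtain ⟨e1, e2⟩ := K.ne_col h hne
  -- the colours of `X`
  have hv2 : inn U T z (v 0) = inn U T z (v 1) ↔
      (inn U T z (v 1) ∈ T (v 1 + q 0 - z) ↔ ¬ inn U T z (v 0) ∈ T (v 0 + q 0 - z)) := by
    rw [K.mem_w h 1 0 y1, K.mem_w h 0 0 x1]
    have tx := three_of K.hX (K.mz h) (K.mw h 0 0) (K.mw h 1 0) (K.mc_z_ne h 0 0)
      (K.mc_z_ne h 1 0) hne x1
    have ty := three_of K.hX (K.mz h) (K.mw h 0 0) (K.mw h 1 0) (K.mc_z_ne h 0 0)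
      (K.mc_z_ne h 1 0) hne y1
    have x3 := (K.mem_z h x1).1 x2
    have y3 := (K.mem_z h y1).1 y2
    rcases tx with h5 | h5 | h5
    · exact absurd h5 x3
    · rcases ty with h6 | h6 | h6
      · exact absurd h6 y3
      · rw [h5, h6]; simp [hne]
      · rw [h5, h6]; simp [hne]
    · rcases ty with h6 | h6 | h6
      · exact absurd h6 y3
      · rw [h5, h6]; simp [hne, hne.symm]
      · rw [h5, h6]; simp [hne.symm]
  have n00 := K.mc_w_ne' h 0
  have hq2 : inn U T z (q 0) = inn U T z (q 1) ↔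
      (inn U T z (q 1) ∈ T (v 0 + q 1 - z) ↔ inn U T z (q 0) ∈ T (v 0 + q 0 - z)) := by
    rw [K.mem_w' h 0 1 t1, K.mem_w' h 0 0 s1, ← heq]
    have tx := three_of K.swap.hX (K.mz' h) (K.mw' h 0 0) (K.mw' h 1 0) (K.mc_z_ne' h 0 0)
      (K.mc_z_ne' h 1 0) n00 s1
    have ty := three_of K.swap.hX (K.mz' h) (K.mw' h 0 0) (K.mw' h 1 0) (K.mc_z_ne' h 0 0)
      (K.mc_z_ne' h 1 0) n00 t1
    have x3 := (K.mem_z' h s1).1 s2
    have y3 := (K.mem_z' h t1).1 t2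
    rcases tx with h5 | h5 | h5
    · exact absurd h5 x3
    · rcases ty with h6 | h6 | h6
      · exact absurd h6 y3
      · rw [h5, h6]; simp
      · rw [h5, h6]; simp [n00, n00.symm]
    · rcases ty with h6 | h6 | h6
      · exact absurd h6 y3
      · rw [h5, h6]; simp [n00.symm]
      · rw [h5, h6]; simp
  refine ⟨inn U T z (v 0) ∈ T (v 0 + q 0 - z), inn U T z (q 0) ∈ T (v 0 + q 0 - z),
    inn U T z (v 1) ∈ T (v 1 + q 0 - z), inn U T z (q 1) ∈ T (v 0 + q 1 - z),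
    { a1 := K.abit h hJ 0 0
      a2 := (K.abit h hJ 0 1).trans (K.row h 0 x1 x2)
      a3 := K.abit h hJ 1 0
      a4 := (K.abit h hJ 1 1).trans (K.row h 1 y1 y2)
      a5 := prop_a hv2 (K.lp2v h hJ 0)
      a6 := prop_a hv2 (K.lp2v h hJ 1)
      b1 := K.abit' h hJ 0 0
      b2 := (K.abit' h hJ 1 0).trans (K.row' h 0 s1 s2)
      b3 := K.abit' h hJ 0 1
      b4 := (K.abit' h hJ 1 1).trans (K.row' h 1 t1 t2)
      b5 := prop_b hq2 (K.lp2q h hJ 0)
      b6 := prop_b hq2 (K.lp2q h hJ 1)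
      c1 := K.pbit h hJ 0 (by decide) hne
      c2 := K.pbit h hJ 0 (by decide) hne
      c3 := K.pbit h hJ 1 (by decide) hne
      c4 := K.pbit h hJ 1 (by decide) hne
      d1 := K.qbit h hJ 0 (by decide) hne
      d2 := K.qbit h hJ 0 (by decide) hne
      d3 := K.qbit h hJ 1 (by decide) hne
      d4 := K.qbit h hJ 1 (by decide) hne
      l1 := K.lp3v h hJ
      l2 := K.lp3q h hJ
      nvq := K.dt_ne_vq h hJ
      nvv := K.dt_ne_vv h hJ
      nqq := K.dt_ne_qq h hJ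
      ori := ore_or T }⟩

/-- **`hA` of `no_22`** from the equality of the missing colours -/
theorem hA_of (h : Irr U T)
    (hP : ∀ (X : Set (Fin 6)) (z : ℂ) (v q : Fin 2 → ℂ), K4 T X z v q →
      mc T X (v 0 + q 0 - z) = mc T X (v 1 + q 0 - z)) :
    ∀ z v v' q q', H533.Is22 T z v v' q q' → H533.Is11 T (v + q - z) v q ∧
      T (v + q - z) ∩ T q = T (v + q' - z) ∩ T q ∧
      T (v + q - z) ∩ T v = T (v' + q - z) ∩ T v := by
  intro z v v' q q' I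
  have K : K4 T (T v) z ![v, v'] ![q, q'] :=
    { card := I.ev.card_z
      hX := I.ev.card_v
      dv := fun i => by fin_cases i; exacts [I.ev.dist, I.ev'.dist]
      dq := fun i => by fin_cases i; exacts [I.eq.dist, I.eq'.dist]
      Tv := fun i => by fin_cases i; exacts [rfl, I.hv]
      Tq := fun i => by fin_cases i; exacts [I.c, I.hq.trans I.c]
      vne := I.nv
      qne := I.nq }
  have h1 : mc T (T v) (v + q - z) = mc T (T v) (v' + q - z) := hP _ _ _ _ K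
  have h2 : mc T (T v)ᶜ (q + v - z) = mc T (T v)ᶜ (q' + v - z) := hP _ _ _ _ K.swap
  rw [add_comm q v, add_comm q' v] at h2
  have e1 : EE T (v + q - z) v := (K.ew h 0 0).1
  have e2 : EE T (v + q - z) q := (K.ew' h 0 0).1
  have e3 : EE T (v + q' - z) q' := (K.ew' h 0 1).1
  have e4 : EE T (v' + q - z) v' := (K.ew h 1 0).1
  obtain ⟨u1, u2⟩ := K.one_one h 0 0 h1 h2
  refine ⟨⟨e1, e2, I.c, u1, fun x hx hT => u2 x hx (hT.trans I.c)⟩, ?_, ?_⟩
  · have k1 := (mc_ee e2 I.c).2.2.2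
    have k2 := (mc_ee e3 (I.hq.trans I.c)).2.2.2
    rw [I.c, inter_comm, k1, h2, ← k2, inter_comm]
  · have k1 := (mc_ee e1 rfl).2.2.2
    have k2 := (mc_ee e4 I.hv).2.2.2
    rw [inter_comm, k1, h1, ← k2, inter_comm]

end Vale.Agent.P032.H471
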