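import Vale.Agent.P032.H471.Sec
import Vale.Agent.P032.H471.HP2

/-!
# P032: `N11` and `Sec4` from the facts on the centres with complementary ends

`ee_light` : a light centre with only one point of the palette `X` has an exact arc at this point.
`n11_of` : `N11` from: no `Is11` centre (533's `no_11`).
`sec4_top` : `Sec4` from `OnlyJC`, `R3`, `R4` and the exact arcs of the `Is11` centres.
-/

open Set Filter Topology Metric

noncomputable section

namespace Vale.Agent.P032.H471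

open Vale.Agent.P032.Six Vale.Agent.P032.S5.H450 Vale.Agent.P032.H533 Vale.Agent.P032.H646

variable {U : Fin 6 → Set ℂ} {T : ℂ → Set (Fin 6)} {X P : Set (Fin 6)} {z v q : ℂ} {r s : Fin 6}

/-- an open and closed property is constant -/
theorem const_side {p : ℝ → Prop} {δ : ℝ} (h1 : ∀ t ∈ Ioo 0 δ, p t → ∀ᶠ s in 𝓝 t, p s)
    (h2 : ∀ t ∈ Ioo 0 δ, ¬ p t → ∀ᶠ s in 𝓝 t, ¬ p s) :
    (∀ t ∈ Ioo 0 δ, p t) ∨ ∀ t ∈ Ioo 0 δ, ¬ p t := by
  by_contra hcon
  push Not at hcon
  obtain ⟨⟨t1, k1, k2⟩, t2, k3, k4⟩ := hcon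
  have ho : IsOpen {t | ∀ᶠ s in 𝓝 t, p s} := isOpen_setOfPred_eventually_nhds
  have ho' : IsOpen {t | ∀ᶠ s in 𝓝 t, ¬ p s} := isOpen_setOfPred_eventually_nhds
  obtain ⟨t, -, h3, h4⟩ := isPreconnected_Ioo _ _ ho ho' (fun t ht => by
    by_cases hp : p t
    · exact Or.inl (h1 t ht hp)
    · exact Or.inr (h2 t ht hp)) ⟨t2, k3, h1 t2 k3 k4⟩ ⟨t1, k1, h2 t1 k1 k2⟩
  exact (Eventually.self_of_nhds h4) (Eventually.self_of_nhds h3)

theorem cis_ne_one {x : ℝ} (h0 : x ≠ 0) (h1 : |x| < 1) : cis x ≠ 1 := by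
  intro h
  have h2 := congrArg Complex.im h
  unfold cis at h2
  rw [Complex.exp_ofReal_mul_I_im, Complex.one_im] at h2
  have hpi := Real.pi_gt_three
  obtain ⟨k1, k2⟩ := abs_lt.1 h1
  have h3 := (Real.sin_eq_zero_iff_of_lt_of_lt (by linarith) (by linarith)).1 h2
  exact h0 h3

/-- **a light centre with only one point of the palette `X`** -/
theorem ee_light (h : Irr U T) (N : Nd T X z v q) (hr : r ∈ X) (hrz : r ∉ T z) (hs : s ∈ Xᶜ)
    (hsz : s ∉ T z) (hu : ∀ x, dist x z = 1 → T x = X → x = v) : EE T z v := by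
  have h4 : (T z).ncard = 4 := le_antisymm (card_le_four hr hs hrz hsz) (N.four h)
  obtain ⟨a, b, c, d, e, f, C⟩ := cfg_of_nd h N h4
  -- the pair
  have hdv : dist v z = 1 := by rw [dist_comm]; exact N.dv
  have hin : T z ∩ T v = X \ {r} := N.inter_eq h hr hrz
  have hP2 : (X \ {r}).ncard = 2 := N.two_sdiff hr
  have hcont : ∀ σ : ℝ, Continuous fun t : ℝ => z + (v - z) * cis (-(σ * t)) := fun σ =>
    continuous_const.add (continuous_const.mul (continuous_cis.comp (by fun_prop)))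
  have hnv : ‖v - z‖ = 1 := by rw [← dist_eq_norm]; exact hdv
  have hvz : v - z ≠ 0 := by intro k; rw [k, norm_zero] at hnv; exact one_ne_zero hnv.symm
  have hdist : ∀ σ t : ℝ, dist (z + (v - z) * cis (-(σ * t))) z = 1 := fun σ t => by
    rw [dist_eq_norm, add_sub_cancel_left, norm_mul, hnv, norm_cis, one_mul]
  have hTz : T z \ (X \ {r}) = Xᶜ \ {s} := by
    have := N.swap.inter_eq h hs hsz
    rw [N.swap.Tv] at this
    rw [← this]
    ext i
    simp only [Set.mem_sdiff, mem_singleton_iff, mem_inter_iff, mem_compl_iff, not_and, not_not]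
    constructor
    · rintro ⟨k1, k2⟩
      exact ⟨k1, fun k3 => hrz (k2 k3 ▸ k1)⟩
    · rintro ⟨k1, k2⟩
      exact ⟨k1, fun k3 => absurd k3 k2⟩
  -- the pair rule
  have hpair : ∀ y, dist y z = 1 → T y ⊆ X \ {r} → T y = X \ {r} := by
    intro y hy hsub
    have htp := h.twoPairs C.dp
    have hsz' : T y ⊆ T z := fun i hi => by
      have := hsub hi
      rw [← hin] at this
      exact this.1
    have hab : ({a, b} : Set (Fin 6)) ⊆ X \ {r} ∧ ({c, d} : Set (Fin 6)) ⊆ Xᶜ := by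
      have e1 : ({a, b, e} : Set (Fin 6)) = X := C.TV.symm.trans N.Tv
      have e2 : ({c, d, f} : Set (Fin 6)) = Xᶜ := C.TQ.symm.trans N.Tq
      constructor
      · rintro i hi
        have hiz : i ∈ T z := by
          rw [C.dp.pal]
          rcases hi with hi | hi
          · simp [hi]
          · rw [mem_singleton_iff] at hi; simp [hi]
        refine ⟨?_, fun k => hrz ?_⟩
        · rw [← e1]
          rcases hi with hi | hi
          · simp [hi]
          · rw [mem_singleton_iff] at hi; simp [hi]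
        · rw [mem_singleton_iff] at k; exact k ▸ hiz
      · rintro i hi
        rw [← e2]
        rcases hi with hi | hi
        · simp [hi]
        · rw [mem_singleton_iff] at hi; simp [hi]
    rcases h.pair_of_subT htp hy hsz' with k | k
    · refine Subset.antisymm hsub ?_
      have e3 : ({a, b} : Set (Fin 6)) = X \ {r} := by
        refine Set.eq_of_subset_of_ncard_le hab.1 ?_ (Set.toFinite _)
        rw [hP2, Set.ncard_pair C.dp.ab]
      rw [← e3]; exact k
    · exfalso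
      have k1 : c ∈ T y := k (Or.inl rfl)
      exact hab.2 (Or.inl rfl) (hsub k1).1
  -- near `v`
  have hnear : ∀ σ : ℝ, (σ = 1 ∨ σ = -1) → ∃ δ > 0,
      (∀ t ∈ Ioo 0 δ, T (z + (v - z) * cis (-(σ * t))) = X \ {r}) ∨
      ∀ t ∈ Ioo 0 δ, T (z + (v - z) * cis (-(σ * t))) ≠ X \ {r} := by
    intro σ hσ
    have h0 : Tendsto (fun t : ℝ => z + (v - z) * cis (-(σ * t))) (𝓝 0) (𝓝 v) := by
      have := (hcont σ).tendsto 0
      simp only [mul_zero, neg_zero] at this
      rwa [cis_zero394, mul_one, add_sub_cancel] at this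
    obtain ⟨δ, hδ, hb⟩ := Metric.eventually_nhds_iff.1 (h0.eventually (h.nhd v))
    refine ⟨min δ 1, lt_min hδ one_pos, ?_⟩
    have hsubX : ∀ t ∈ Ioo 0 (min δ 1), T (z + (v - z) * cis (-(σ * t))) ⊆ X := by
      intro t ht
      have := hb (y := t) (by
        rw [Real.dist_eq, sub_zero, abs_of_pos ht.1]; exact lt_of_lt_of_le ht.2 (min_le_left _ _))
      rwa [N.Tv] at this
    refine const_side (fun t ht hp => ?_) fun t ht hp => ?_
    · have h1 := (hcont σ).continuousAt.tendsto.eventually (h.nhd (z + (v - z) * cis (-(σ * t))))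
      filter_upwards [h1] with s' hs'
      exact hpair _ (hdist σ s') (by rw [← hp]; exact hs')
    · by_contra hcon
      rw [not_eventually] at hcon
      have h1 := (hcont σ).continuousAt.tendsto.eventually (h.nhd (z + (v - z) * cis (-(σ * t))))
      obtain ⟨s', k1, k2⟩ := (hcon.and_eventually h1).exists
      rw [not_not] at k1
      rw [k1] at k2
      have k3 : T (z + (v - z) * cis (-(σ * t))) = X := by
        have k4 := hsubX t ht
        refine Set.eq_of_subset_of_ncard_le k4 ?_ (Set.toFinite _)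
        by_contra k5
        push Not at k5
        rw [N.hX] at k5
        refine hp ((Set.eq_of_subset_of_ncard_le k2 ?_ (Set.toFinite _)).symm)
        omega
      have k4 := hu _ (hdist σ t) k3
      have k5 : (v - z) * (cis (-(σ * t)) - 1) = 0 := by linear_combination k4
      rcases mul_eq_zero.1 k5 with k6 | k6
      · exact hvz k6
      · refine cis_ne_one ?_ ?_ (sub_eq_zero.1 k6)
        · rcases hσ with rfl | rfl
          · rw [one_mul]; exact neg_ne_zero.2 ht.1.ne'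
          · rw [neg_one_mul, neg_neg]; exact ht.1.ne'
        · have k7 : t < 1 := lt_of_lt_of_le ht.2 (min_le_right _ _)
          rw [abs_neg, abs_mul]
          have k8 : |σ| = 1 := by rcases hσ with rfl | rfl <;> norm_num
          rw [k8, one_mul, abs_of_pos ht.1]; exact k7
  have hac := N.acc h hr hrz
  have hOE : ∃ o, OEnd T z v o := by
    obtain ⟨δ1, hδ1, c1⟩ := hnear 1 (Or.inl rfl)
    obtain ⟨δ2, hδ2, c2⟩ := hnear (-1) (Or.inr rfl)
    have mk : ∀ σ : ℝ, (σ = 1 ∨ σ = -1) → (∃ δ > 0,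
        ∀ t ∈ Ioo 0 δ, T (z + (v - z) * cis (-(σ * t))) = X \ {r}) → ∃ o, OEnd T z v o := by
      rintro σ hσ ⟨δ, hδ, hg⟩
      refine ⟨σ, hσ, hdv, h4, by rw [N.Tv, N.hX], by rw [hin, hP2], δ, hδ, fun t ht => ?_⟩
      rw [hin]; exact hg t ht
    rcases c1 with c1 | c1
    · exact mk 1 (Or.inl rfl) ⟨δ1, hδ1, c1⟩
    rcases c2 with c2 | c2
    · exact mk (-1) (Or.inr rfl) ⟨δ2, hδ2, c2⟩
    exfalso
    have hev : ∀ᶠ y in 𝓝[sphere z 1] v, T y ≠ X \ {r} := by
      refine eventually_circle_of hdv ?_ hδ1 hδ2 c1 c2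
      intro k
      have k1 : r ∈ T v := by rw [N.Tv]; exact hr
      rw [k] at k1
      exact k1.2 rfl
    obtain ⟨V, hV, hVs⟩ := mem_nhdsWithin_iff_exists_mem_nhds_inter.1 hev
    obtain ⟨y, hyV, hyd, hy⟩ := hac V hV
    have k1 : T y = X \ {r} := by
      have := hy.self_of_nhdsWithin (show y ∈ sphere z 1 from hyd)
      exact this
    exact hVs ⟨hyV, hyd⟩ k1
  refine ⟨hOE, ?_⟩
  have h5 : T z \ T v = Xᶜ \ {s} := by
    rw [← hTz, ← hin]
    ext i
    simp only [Set.mem_sdiff, mem_inter_iff, not_and]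
    constructor
    · rintro ⟨k1, k2⟩; exact ⟨k1, fun _ => k2⟩
    · rintro ⟨k1, k2⟩; exact ⟨k1, k2 k1⟩
  rw [h5]
  obtain ⟨g, -, hg, hgP⟩ := N.swap.acc h hs hsz univ univ_mem
  exact ⟨g, hg, hgP⟩

/-- **`N11`** from `no_11` -/
theorem n11_of (h : Irr U T) (hno : ∀ w v q, ¬ Is11 T w v q) : N11 T := by
  intro X z v q r s N hr hrz hs hsz hu hu'
  have ev := ee_light h N hr hrz hs hsz hu
  have eq := ee_light h N.swap hs hsz (by rw [compl_compl]; exact hr) hrz hu'
  exact hno z v q ⟨ev, eq, by rw [N.Tq, N.Tv], fun x hx hT => hu x hx (hT.trans N.Tv),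
    fun x hx hT => hu' x hx (hT.trans N.Tq)⟩

/-- **`N11`** from the facts on the circles of the centres with complementary ends -/
theorem n11_top (h : Irr U T) (hmin : Mn U T) (h5 : NoPair5 T) (hJ : OnlyJ22 T) (h3 : R3 T)
    (h4 : R4 T) (hB : ∀ w v q, Is11 T w v q → (∃ y, dist y w = 1 ∧ 4 ≤ (T y).ncard) ∧
      ∃ v1 v2 q1 q2, AA T w v v1 ∧ AA T w q q1 ∧ Is22 T w v1 v2 q1 q2) : N11 T :=
  n11_of h (no_11 h hmin (fun x y hx hy hd => h5 x y hd hx hy) (hA_646 h hJ h3 h4)
    (fun w v q hN => hB w v q hN.1) fun w v q O => by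
      obtain ⟨-, v1, v2, q1, q2, -, -, I⟩ := hB w v q O
      exact ⟨v1, v2, q1, q2, I⟩)

/-- **`Sec4`** -/
theorem sec4_top (h : Irr U T) (hmin : Mn U T) (h5 : NoPair5 T) (hJ : OnlyJ22 T) (h3 : R3 T)
    (h4 : R4 T) (hB : ∀ w v q, Is11 T w v q → (∃ y, dist y w = 1 ∧ 4 ≤ (T y).ncard) ∧
      ∃ v1 v2 q1 q2, AA T w v v1 ∧ AA T w q q1 ∧ Is22 T w v1 v2 q1 q2) : Sec4 T :=
  sec4_n11 h hmin h5 (n11_top h hmin h5 hJ h3 h4 hB)

end Vale.Agent.P032.H471
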