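import Vale.Agent.P032.S5.H450.OneOne

/-!
# P032: the nodes of a three coloured point are finite, light ends are clean

Frame `Irr U T` only (no bound on the number of colours anywhere).  `N : Nd T X c v q`, `c` light at
`q`: the set of all centres `p` with `Nd T X p y q` for some `y` is finite, hence the points with
palette `X` on the circle of every such centre are isolated (`Nd.iso471`), and a light centre has a
clean end at `v` (`Nd.cln471`).
-/

open Set Filter Topology Metric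

noncomputable section

namespace Vale.Agent.P032.S5.H450

open Vale.Agent.P032.Six

variable {U : Fin 6 → Set ℂ} {T : ℂ → Set (Fin 6)} {X : Set (Fin 6)} {c v q : ℂ} {d : Fin 6}

namespace Nd

/-- the nodes at `q` -/
def nodes471 (T : ℂ → Set (Fin 6)) (X : Set (Fin 6)) (q : ℂ) : Set ℂ := {p | ∃ y, Nd T X p y q}

/-- **the nodes at `q` are finitely many**, if one of them is light at `q` -/
theorem nodes_finite471 (h : Irr U T) (N : Nd T X c v q) (hd : d ∈ Xᶜ) (hdc : d ∉ T c) :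
    (nodes471 T X q).Finite := by
  have hmem : ∀ p ∈ nodes471 T X q, p ≠ c → d ∈ T p := by
    rintro p ⟨y, Ny⟩ hpc
    by_contra hdp
    exact hpc (Ny.swap.unique h N.swap hd hdp hdc)
  by_cases hH : ∃ p ∈ nodes471 T X q, p ≠ c ∧ Xᶜ ⊆ T p
  · obtain ⟨p, ⟨y, Ny⟩, hpc, hXp⟩ := hH
    refine (Set.toFinite ({c, p, 2 * q - p} : Set ℂ)).subset ?_
    intro p' hp'
    by_cases h1 : p' = c
    · exact Or.inl h1
    obtain ⟨y', Ny'⟩ := hp'
    rcases N.swap.heavy_line h hd hdc Ny.dq hpc hXp (p' := p') Ny'.dq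
      (hmem p' ⟨y', Ny'⟩ h1) with h2 | h2
    · exact Or.inr (Or.inl h2)
    · exact Or.inr (Or.inr (by rw [mem_singleton_iff]; linear_combination h2))
  · push Not at hH
    have h1 : nodes471 T X q ⊆ {c} ∪ ⋃ s : Fin 6, {p | p ∈ nodes471 T X q ∧ s ∈ Xᶜ ∧ s ∉ T p} := by
      intro p hp
      by_cases h2 : p = c
      · exact Or.inl h2
      right
      have h3 : ¬ Xᶜ ⊆ T p := fun h4 => hH p hp h2 h4
      obtain ⟨s, hs, hsp⟩ := Set.not_subset.1 h3
      exact mem_iUnion.2 ⟨s, hp, hs, hsp⟩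
    refine ((Set.finite_singleton c).union (Set.finite_iUnion fun s => ?_)).subset h1
    refine Set.Subsingleton.finite ?_
    rintro p ⟨⟨y, Ny⟩, hs, hsp⟩ p' ⟨⟨y', Ny'⟩, -, hsp'⟩
    exact Ny.swap.unique h Ny'.swap hs hsp hsp'

/-- the points with palette `X` on `S(c')` are finitely many -/
theorem pts_finite471 (h : Irr U T) (N : Nd T X c v q) (hd : d ∈ Xᶜ) (hdc : d ∉ T c) {c' : ℂ}
    (hc' : dist c' q = 1) : {y | dist y c' = 1 ∧ T y = X ∧ y + q ≠ 2 * c'}.Finite := by
  have h1 := N.nodes_finite471 h hd hdc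
  refine (h1.image fun p => p + c' - q).subset ?_
  rintro y ⟨hy, hTy, hne⟩
  have Ny : Nd T X c' y q := ⟨N.hX, by rw [dist_comm]; exact hy, hc', hTy, N.Tq, hne⟩
  exact ⟨y + q - c', ⟨y, Ny.other⟩, by ring⟩

/-- **isolated `X`-points on the circle of every node at `q`** -/
theorem iso471 (h : Irr U T) (N : Nd T X c v q) (hd : d ∈ Xᶜ) (hdc : d ∉ T c) {c' v' : ℂ}
    (N' : Nd T X c' v' q) : ∀ᶠ y in 𝓝[sphere c' 1] v', T y = X → y = v' := by
  have hF := N.pts_finite471 h hd hdc N'.dq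
  have h1 : ∀ᶠ y in 𝓝 v', y ∉ {y | dist y c' = 1 ∧ T y = X ∧ y + q ≠ 2 * c'} \ {v'} := by
    have h2 : IsClosed ({y | dist y c' = 1 ∧ T y = X ∧ y + q ≠ 2 * c'} \ {v'}) :=
      (hF.subset sdiff_subset).isClosed
    exact h2.isOpen_compl.mem_nhds fun h3 => h3.2 rfl
  have h3 : ∀ᶠ y in 𝓝 v', y + q ≠ 2 * c' := by
    have hc : Continuous fun y : ℂ => y + q := by fun_prop
    exact hc.continuousAt.eventually (isOpen_ne.mem_nhds N'.op)
  filter_upwards [mem_nhdsWithin_of_mem_nhds h1, mem_nhdsWithin_of_mem_nhds h3,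
    self_mem_nhdsWithin] with y h4 h5 h6 h7
  by_contra h8
  exact h4 ⟨⟨h6, h7, h5⟩, h8⟩

/-- **a light centre has a clean end at `v`**, if some node at `q` is light at `q` -/
theorem cln471 (h : Irr U T) (N : Nd T X c v q) (hd : d ∈ Xᶜ) (hdc : d ∉ T c) {c' v' : ℂ}
    (N' : Nd T X c' v' q) {r : Fin 6} (hr : r ∈ X) (hrc : r ∉ T c') : H349.Cln T c' v' :=
  N'.cln h hr hrc (N.iso471 h hd hdc N')

end Nd

end Vale.Agent.P032.S5.H450
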