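import Vale.Agent.P032.H471.Nodes
import Vale.Agent.P032.H187.Product

/-!
# P032: the rhombus of two light nodes

`Rh U T z w v q a b r c d s`: `T v = {a, b, r}`, `T q = {c, d, s}`, `T z = {a, b, c, d}`,
`T w = {a, r, c, s}`, `z, w` the two common neighbours of `v` and `q` (`z + w = v + q`, `z ≠ w`).
`exists_rh` : the four cases for the second node of a light/light node.
`Rh.side` : the letters of `S(z)` at `v` and of `S(q)` at `w`, on both sides.
The other six places come from `Rh.swapZW`, `Rh.swapVQ`.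
-/

open Set Filter Topology Metric

noncomputable section

namespace Vale.Agent.P032.H471

open Vale.Agent.P032.Six Vale.Agent.P032.S5.H450 Vale.Agent.P032.H187
  Vale.Agent.P032.S5.H767

variable {U : Fin 6 → Set ℂ} {T : ℂ → Set (Fin 6)}

/-- the point of the circle about `z` in the direction `n` turned by `x` -/
def rt (z n : ℂ) (x : ℝ) : ℂ := z + n * cis x

theorem cis_zero' : cis 0 = 1 := by simp [cis]

theorem rt_zero (z v : ℂ) : rt z (v - z) 0 = v := by
  unfold rt; rw [cis_zero', mul_one]; ring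

theorem dist_rt {z n : ℂ} (hn : ‖n‖ = 1) (x : ℝ) : dist (rt z n x) z = 1 := by
  unfold rt
  rw [dist_eq_norm, add_sub_cancel_left, norm_mul, norm_cis, mul_one, hn]

theorem rt_rt (z n : ℂ) (x y : ℝ) : rt z (rt z n x - z) y = rt z n (x + y) := by
  unfold rt
  rw [cis_add]; ring

theorem continuous_rt (z n : ℂ) : Continuous (rt z n) := by
  unfold rt
  exact continuous_const.add (continuous_const.mul continuous_cis)

theorem rt_shift (z q n : ℂ) (x : ℝ) : q + (rt z n x - z) = rt q n x := by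
  unfold rt; ring

/-- the points of a one-sided neighbourhood -/
theorem one_side {o : ℝ} {p : ℝ → Prop} (h : ∀ᶠ x in 𝓝 (0 : ℝ), p x) :
    ∀ᶠ t in 𝓝[>] (0 : ℝ), p (o * t) := by
  have h1 : Tendsto (fun t : ℝ => o * t) (𝓝[>] 0) (𝓝 0) := by
    have h2 : Continuous fun t : ℝ => o * t := by fun_prop
    have h3 := h2.tendsto 0
    rw [mul_zero] at h3
    exact h3.mono_left nhdsWithin_le_nhds
  exact h1.eventually h

/-- a one-sided open arc of `S(z)` next to `v` whose points all have the colours of `P`: its points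
are in `Cr` -/
theorem cr_of_side (h : Irr U T) {z n : ℂ} (hn : ‖n‖ = 1) {o : ℝ} (ho : o = 1 ∨ o = -1)
    {P : Set (Fin 6)} (hP : ∀ᶠ t in 𝓝[>] (0 : ℝ), P ⊆ T (rt z n (o * t))) :
    ∀ᶠ t in 𝓝[>] (0 : ℝ), rt z n (o * t) ∈ Cr U z P := by
  obtain ⟨δ, hδ, hs⟩ := mem_nhdsGT_iff_exists_Ioo_subset.1 hP
  have hδ : (0 : ℝ) < δ := hδ
  filter_upwards [Ioo_mem_nhdsGT hδ] with t ht
  refine Cr_of_T h (dist_rt hn _) ?_
  rw [eventually_circle (dist_rt hn _)]
  have hoo : o * o = 1 := by rcases ho with rfl | rfl <;> norm_num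
  have h1 : ∀ᶠ x in 𝓝 (0 : ℝ), t + o * x ∈ Ioo 0 δ := by
    have h2 : Continuous fun x : ℝ => t + o * x := by fun_prop
    have h3 := h2.tendsto 0
    rw [mul_zero, add_zero] at h3
    exact h3.eventually (isOpen_Ioo.mem_nhds ht)
  filter_upwards [h1] with x hx
  have h4 : P ⊆ T (rt z n (o * (t + o * x))) := hs hx
  have h5 : o * (t + o * x) = o * t + x := by
    rw [mul_add, ← mul_assoc, hoo, one_mul]
  rw [h5, ← rt_rt] at h4
  exact h4

/-- **Product rule, one-sided form.** -/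
theorem prod_side (h : Irr U T) {z v q : ℂ} (hv : dist v z = 1) (hq : dist q z = 1) (h1 : v ≠ q)
    (h2 : v + q ≠ 2 * z) {o : ℝ} (ho : o = 1 ∨ o = -1) {P : Set (Fin 6)}
    (hP : ∀ᶠ t in 𝓝[>] (0 : ℝ), P ⊆ T (rt z (v - z) (o * t))) :
    ∀ᶠ t in 𝓝[>] (0 : ℝ), ∀ i ∈ P, i ∉ Pal U (rt q (v - z) (o * t)) := by
  have hn : ‖v - z‖ = 1 := by rw [← dist_eq_norm]; exact hv
  have e1 : ∀ᶠ x in 𝓝 (0 : ℝ), rt z (v - z) x ≠ q := by
    have h3 := (continuous_rt z (v - z)).tendsto 0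
    rw [rt_zero] at h3
    exact h3.eventually (isOpen_ne.mem_nhds h1)
  have e2 : ∀ᶠ x in 𝓝 (0 : ℝ), rt z (v - z) x + q ≠ 2 * z := by
    have hc : Continuous fun x : ℝ => rt z (v - z) x + q := (continuous_rt z (v - z)).add
      continuous_const
    have h3 := hc.tendsto 0
    rw [rt_zero] at h3
    exact h3.eventually (isOpen_ne.mem_nhds h2)
  filter_upwards [cr_of_side h hn ho hP, one_side (o := o) e1, one_side (o := o) e2]
    with t h3 h4 h5 i hi
  have h6 := product h.mx (z := z) (y := q) hq h3 hi h4 h5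
  rwa [rt_shift] at h6

/-- the letters of `S(z)` at the end `v`: exactly `P` on the side `-o`, `r` on the side `o` -/
def Side (T : ℂ → Set (Fin 6)) (z v : ℂ) (P : Set (Fin 6)) (r : Fin 6) (o : ℝ) : Prop :=
  ∀ᶠ t in 𝓝[>] (0 : ℝ), T (rt z (v - z) (-o * t)) = P ∧ r ∈ T (rt z (v - z) (o * t)) ∧
    ¬ P ⊆ T (rt z (v - z) (o * t))

/-- the letters at a light node -/
theorem side_of_nd (h : Irr U T) {X : Set (Fin 6)} {c v q : ℂ} (N : Nd T X c v q) {d : Fin 6}
    (hd : d ∈ Xᶜ) (hdc : d ∉ T c) {c' v' : ℂ} (N' : Nd T X c' v' q) {r : Fin 6} (hr : r ∈ X)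
    (hrc : r ∉ T c') : ∃ o : ℝ, (o = 1 ∨ o = -1) ∧ Side T c' v' (X \ {r}) r o := by
  obtain ⟨o, ε, ho, hε, h1, h2⟩ := N.cln471 h hd hdc N' hr hrc
  have hcap : T c' ∩ T v' = X \ {r} := N'.inter_eq h hr hrc
  rw [hcap] at h1 h2
  refine ⟨o, ho, ?_⟩
  have h3 : ∀ᶠ x in 𝓝 (0 : ℝ), T (rt c' (v' - c') x) ⊆ X := by
    have h4 := (continuous_rt c' (v' - c')).tendsto 0
    rw [rt_zero] at h4
    have h5 := h4.eventually (h.nhd v')
    rw [N'.Tv] at h5
    exact h5
  filter_upwards [Ioo_mem_nhdsGT hε, one_side (o := o) h3] with t ht h4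
  have h5 := h2 t ht
  have h6 := h1 t ht
  refine ⟨?_, ?_, h5⟩
  · have e : -o * t = -(o * t) := by ring
    rw [e]; exact h6
  · by_contra h7
    have h8 := N'.exact_or h hr hrc h4 h7
    have h9 : T (rt c' (v' - c') (o * t)) = X \ {r} :=
      h8.self_of_nhdsWithin (dist_rt (by rw [← dist_eq_norm]; exact N'.dvc) _)
    exact h5 (by unfold rt at h9; rw [h9])

/-- the rhombus of two light nodes -/
structure Rh (U : Fin 6 → Set ℂ) (T : ℂ → Set (Fin 6)) (z w v q : ℂ)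
    (a b r c d s : Fin 6) : Prop where
  irr : Irr U T
  nd : [a, b, r, c, d, s].Nodup
  Tz : T z = {a, b, c, d}
  Tw : T w = {a, r, c, s}
  Tv : T v = {a, b, r}
  Tq : T q = {c, d, s}
  zv : dist z v = 1
  zq : dist z q = 1
  sum : z + w = v + q
  ne : z ≠ w

theorem compl_of_nodup {a b r c d s : Fin 6} (nd : [a, b, r, c, d, s].Nodup) :
    ({a, b, r} : Set (Fin 6))ᶜ = {c, d, s} := by
  have h1 : ([a, b, r, c, d, s] : List (Fin 6)).toFinset = Finset.univ :=
    Finset.eq_univ_of_card _ (by rw [List.toFinset_card_of_nodup nd]; rfl)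
  have hall : ∀ i : Fin 6, i = a ∨ i = b ∨ i = r ∨ i = c ∨ i = d ∨ i = s := by
    intro i
    have h2 : i ∈ ([a, b, r, c, d, s] : List (Fin 6)).toFinset := by
      rw [h1]; exact Finset.mem_univ i
    simpa using h2
  simp only [List.nodup_cons, List.mem_cons, List.not_mem_nil, or_false, not_or, List.nodup_nil,
    and_true, not_false_eq_true] at nd
  obtain ⟨⟨ab, ar, ac, ad, as⟩, ⟨br, bc, bd, bs⟩, ⟨rc, rd, rs⟩, ⟨cd, cs⟩, ds⟩ := nd
  ext i
  simp only [mem_compl_iff, mem_insert_iff, mem_singleton_iff, not_or]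
  constructor
  · rintro ⟨h1, h2, h3⟩
    rcases hall i with h | h | h | h | h | h
    exacts [absurd h h1, absurd h h2, absurd h h3, Or.inl h, Or.inr (Or.inl h), Or.inr (Or.inr h)]
  · rintro (rfl | rfl | rfl)
    exacts [⟨Ne.symm ac, Ne.symm bc, Ne.symm rc⟩, ⟨Ne.symm ad, Ne.symm bd, Ne.symm rd⟩,
      ⟨Ne.symm as, Ne.symm bs, Ne.symm rs⟩]

theorem ncard_three {a b r : Fin 6} (h1 : a ≠ b) (h2 : a ≠ r) (h3 : b ≠ r) :
    ({a, b, r} : Set (Fin 6)).ncard = 3 := by
  rw [Set.ncard_insert_of_notMem (by simp [h1, h2]) (Set.toFinite _), Set.ncard_pair h3]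

namespace Rh

variable {z w v q : ℂ} {a b r c d s : Fin 6}

/-- the fifteen inequalities -/
theorem nes (R : Rh U T z w v q a b r c d s) : (a ≠ b ∧ a ≠ r ∧ a ≠ c ∧ a ≠ d ∧ a ≠ s) ∧
    (b ≠ r ∧ b ≠ c ∧ b ≠ d ∧ b ≠ s) ∧ (r ≠ c ∧ r ≠ d ∧ r ≠ s) ∧ (c ≠ d ∧ c ≠ s) ∧ d ≠ s := by
  have nd := R.nd
  simp only [List.nodup_cons, List.mem_cons, List.not_mem_nil, or_false, not_or, List.nodup_nil,
    and_true, not_false_eq_true] at nd
  exact nd

theorem wv (R : Rh U T z w v q a b r c d s) : dist w v = 1 := by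
  rw [dist_eq_norm, show w - v = q - z by linear_combination R.sum, ← dist_eq_norm, dist_comm]
  exact R.zq

theorem wq (R : Rh U T z w v q a b r c d s) : dist w q = 1 := by
  rw [dist_eq_norm, show w - q = v - z by linear_combination R.sum, ← dist_eq_norm, dist_comm]
  exact R.zv

theorem hX (R : Rh U T z w v q a b r c d s) : ({a, b, r} : Set (Fin 6)).ncard = 3 := by
  obtain ⟨⟨ab, ar, -⟩, ⟨br, -⟩, -⟩ := R.nes
  exact ncard_three ab ar br

theorem Nz (R : Rh U T z w v q a b r c d s) : Nd T {a, b, r} z v q where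
  hX := R.hX
  dv := R.zv
  dq := R.zq
  Tv := R.Tv
  Tq := by rw [R.Tq, compl_of_nodup R.nd]
  op := fun h => R.ne (by linear_combination -R.sum - h)

theorem Nw (R : Rh U T z w v q a b r c d s) : Nd T {a, b, r} w v q where
  hX := R.hX
  dv := R.wv
  dq := R.wq
  Tv := R.Tv
  Tq := by rw [R.Tq, compl_of_nodup R.nd]
  op := fun h => R.ne (by linear_combination R.sum + h)

/-- exchange `z` and `w`: the missing colours `r, s` and `b, d` are exchanged -/
theorem swapZW (R : Rh U T z w v q a b r c d s) : Rh U T w z v q a r b c s d where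
  irr := R.irr
  nd := by
    obtain ⟨⟨ab, ar, ac, ad, as⟩, ⟨br, bc, bd, bs⟩, ⟨rc, rd, rs⟩, ⟨cd, cs⟩, ds⟩ := R.nes
    simp only [List.nodup_cons, List.mem_cons, List.not_mem_nil, or_false, not_or, List.nodup_nil,
      and_true, not_false_eq_true]
    exact ⟨⟨ar, ab, ac, as, ad⟩, ⟨Ne.symm br, rc, rs, rd⟩, ⟨bc, bs, bd⟩, ⟨cs, cd⟩, Ne.symm ds⟩
  Tz := R.Tw
  Tw := R.Tz
  Tv := by rw [R.Tv]; ext i; simp only [mem_insert_iff, mem_singleton_iff]; tauto
  Tq := by rw [R.Tq]; ext i; simp only [mem_insert_iff, mem_singleton_iff]; tauto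
  zv := R.wv
  zq := R.wq
  sum := by rw [add_comm]; exact R.sum
  ne := R.ne.symm

/-- exchange `v` and `q` -/
theorem swapVQ (R : Rh U T z w v q a b r c d s) : Rh U T z w q v c d s a b r where
  irr := R.irr
  nd := by
    obtain ⟨⟨ab, ar, ac, ad, as⟩, ⟨br, bc, bd, bs⟩, ⟨rc, rd, rs⟩, ⟨cd, cs⟩, ds⟩ := R.nes
    simp only [List.nodup_cons, List.mem_cons, List.not_mem_nil, or_false, not_or, List.nodup_nil,
      and_true, not_false_eq_true]
    exact ⟨⟨cd, cs, Ne.symm ac, Ne.symm bc, Ne.symm rc⟩, ⟨ds, Ne.symm ad, Ne.symm bd, Ne.symm rd⟩,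
      ⟨Ne.symm as, Ne.symm bs, Ne.symm rs⟩, ⟨ab, ar⟩, br⟩
  Tz := by rw [R.Tz]; ext i; simp only [mem_insert_iff, mem_singleton_iff]; tauto
  Tw := by rw [R.Tw]; ext i; simp only [mem_insert_iff, mem_singleton_iff]; tauto
  Tv := R.Tq
  Tq := R.Tv
  zv := R.zq
  zq := R.zv
  sum := by rw [add_comm q v]; exact R.sum
  ne := R.ne

theorem s_not (R : Rh U T z w v q a b r c d s) : s ∉ T z := by
  obtain ⟨⟨ab, ar, ac, ad, as⟩, ⟨br, bc, bd, bs⟩, ⟨rc, rd, rs⟩, ⟨cd, cs⟩, ds⟩ := R.nes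
  rw [R.Tz]
  rintro (h | h | h | h)
  exacts [as h.symm, bs h.symm, cs h.symm, ds h.symm]

theorem r_not (R : Rh U T z w v q a b r c d s) : r ∉ T z := R.swapVQ.s_not

theorem sdiff_r (R : Rh U T z w v q a b r c d s) : ({a, b, r} : Set (Fin 6)) \ {r} = {a, b} := by
  obtain ⟨⟨ab, ar, ac, ad, as⟩, ⟨br, bc, bd, bs⟩, ⟨rc, rd, rs⟩, ⟨cd, cs⟩, ds⟩ := R.nes
  ext i
  simp only [Set.mem_sdiff, mem_insert_iff, mem_singleton_iff]
  constructor
  · rintro ⟨h | h | h, h2⟩
    exacts [Or.inl h, Or.inr h, absurd h h2]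
  · rintro (rfl | rfl)
    exacts [⟨Or.inl rfl, ar⟩, ⟨Or.inr (Or.inl rfl), br⟩]

/-- **The letters at a plain end.**  On the side `-o` of `v` the circle `S(z)` carries exactly
`{a, b}` and `S(q)` carries `r` and not `a` at `w`; on the side `o` the circle `S(z)` carries `r`
(never the pair) and `S(q)` carries `a` and not `r`. -/
theorem side (R : Rh U T z w v q a b r c d s) : ∃ o : ℝ, (o = 1 ∨ o = -1) ∧
    Side T z v {a, b} r o ∧
    (∀ᶠ t in 𝓝[>] (0 : ℝ), r ∈ T (rt q (w - q) (-o * t)) ∧ a ∉ T (rt q (w - q) (-o * t))) ∧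
    ∀ᶠ t in 𝓝[>] (0 : ℝ), a ∈ T (rt q (w - q) (o * t)) ∧ r ∉ T (rt q (w - q) (o * t)) := by
  have h := R.irr
  have hsX : s ∈ ({a, b, r} : Set (Fin 6))ᶜ := by
    rw [compl_of_nodup R.nd]; exact Or.inr (Or.inr rfl)
  obtain ⟨o, ho, hS⟩ := side_of_nd h R.Nz hsX R.s_not R.Nz (r := r) (Or.inr (Or.inr rfl)) R.r_not
  rw [R.sdiff_r] at hS
  refine ⟨o, ho, hS, ?_⟩
  have hvz : dist v z = 1 := by rw [dist_comm]; exact R.zv
  have hqz : dist q z = 1 := by rw [dist_comm]; exact R.zq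
  have hvq : v ≠ q := R.Nz.ne
  have ewq : w - q = v - z := by linear_combination R.sum
  have ho' : -o = 1 ∨ -o = -1 := by
    rcases ho with rfl | rfl
    · exact Or.inr rfl
    · exact Or.inl (by norm_num)
  have k1 := prod_side h hvz hqz hvq R.Nz.op ho' (P := {a, b})
    (hS.mono fun t ht => (by rw [ht.1] : ({a, b} : Set (Fin 6)) ⊆ T (rt z (v - z) (-o * t))))
  have k2 := prod_side h hvz hqz hvq R.Nz.op ho (P := {r})
    (hS.mono fun t ht => (singleton_subset_iff.2 ht.2.1 :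
      ({r} : Set (Fin 6)) ⊆ T (rt z (v - z) (o * t))))
  have hn : ‖v - z‖ = 1 := by rw [← dist_eq_norm]; exact hvz
  -- near `w` the colours are those of `w`
  have hnear : ∀ᶠ x in 𝓝 (0 : ℝ), T (rt q (v - z) x) ⊆ T w := by
    have h3 := (continuous_rt q (v - z)).tendsto 0
    rw [← ewq, rt_zero] at h3
    rw [← ewq]
    exact h3.eventually (h.nhd w)
  have key : ∀ x : ℝ, T (rt q (v - z) x) ⊆ T w →
      a ∈ T (rt q (v - z) x) ∨ r ∈ T (rt q (v - z) x) := by
    intro x hx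
    obtain ⟨i, hi, hiq⟩ := h.not_sub' (x := q) (y := rt q (v - z) x) (dist_rt hn x)
      (by rw [R.Tq]; exact R.swapVQ.hX.le)
    have h5 := hx hi
    rw [R.Tw] at h5
    rw [R.Tq] at hiq
    simp only [mem_insert_iff, mem_singleton_iff, not_or] at h5 hiq
    rcases h5 with rfl | rfl | rfl | rfl
    · exact Or.inl hi
    · exact Or.inr hi
    · exact absurd rfl hiq.1
    · exact absurd rfl hiq.2.2
  rw [ewq]
  constructor
  · filter_upwards [k1, one_side (o := -o) hnear] with t h1 h2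
    have h3 : a ∉ T (rt q (v - z) (-o * t)) := fun h4 => h1 a (Or.inl rfl) (h.sub _ h4)
    exact ⟨(key _ h2).resolve_left h3, h3⟩
  · filter_upwards [k2, one_side (o := o) hnear] with t h1 h2
    have h3 : r ∉ T (rt q (v - z) (o * t)) := fun h4 => h1 r rfl (h.sub _ h4)
    exact ⟨(key _ h2).resolve_right h3, h3⟩

end Rh

/-- **The four cases of the second node of a light/light node.** -/
theorem exists_rh (h : Irr U T) {X : Set (Fin 6)} {z v q : ℂ} (N : Nd T X z v q) {r s : Fin 6}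
    (hr : r ∈ X) (hrz : r ∉ T z) (hs : s ∈ Xᶜ) (hsz : s ∉ T z) :
    ∃ a b c d, [a, b, r, c, d, s].Nodup ∧ X = {a, b, r} ∧ T z = {a, b, c, d} ∧
      T v = {a, b, r} ∧ T q = {c, d, s} ∧
      (Rh U T z (v + q - z) v q a b r c d s ∨
        T (v + q - z) = {a, r, c, d, s} ∨ T (v + q - z) = {a, b, r, c, s} ∨
        T (v + q - z) = univ) := by
  set w := v + q - z with hw
  have Nw : Nd T X w v q := N.other
  have hrw : r ∈ T w := by
    by_contra h1
    exact N.ne_other (Nw.unique h N hr h1 hrz)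
  have hsw : s ∈ T w := by
    by_contra h1
    exact N.ne_other (Nw.swap.unique h N.swap hs h1 hsz)
  -- a two element form of `X \ {r}` with the first element in `T w`
  have pick : ∀ {Y : Set (Fin 6)} {t : Fin 6}, Y.ncard = 3 → t ∈ Y →
      (∃ x ∈ T w, x ∈ Y ∧ x ≠ t) →
      ∃ x y, x ≠ y ∧ x ≠ t ∧ y ≠ t ∧ Y = {x, y, t} ∧ x ∈ T w := by
    intro Y t hY ht hex
    obtain ⟨x, hxw, hxY, hxt⟩ := hex
    have h1 : (Y \ {t, x}).ncard = 1 := by
      have h2 : ({t, x} : Set (Fin 6)) ⊆ Y := by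
        rintro i (rfl | rfl) <;> assumption
      rw [Set.ncard_sdiff h2 (Set.toFinite _), hY, Set.ncard_pair (Ne.symm hxt)]
    obtain ⟨y, hy⟩ := Set.ncard_eq_one.1 h1
    have hyY : y ∈ Y \ {t, x} := by rw [hy]; exact rfl
    have hyt : y ≠ t := fun h3 => hyY.2 (Or.inl h3)
    have hyx : y ≠ x := fun h3 => hyY.2 (Or.inr h3)
    refine ⟨x, y, Ne.symm hyx, hxt, hyt, ?_, hxw⟩
    refine (Set.eq_of_subset_of_ncard_le ?_ ?_ (Set.toFinite _)).symm
    · rintro i (rfl | rfl | rfl)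
      exacts [hxY, hyY.1, ht]
    · rw [hY, ncard_three (Ne.symm hyx) hxt hyt]
  obtain ⟨a, b, hab, har, hbr, hXe, haw⟩ := pick N.hX hr (Nw.five h r)
  obtain ⟨c, d, hcd, hcs, hds, hXc, hcw⟩ := pick N.hXc hs (Nw.swap.five h s)
  have hcross : ∀ {x y : Fin 6}, x ∈ X → y ∈ Xᶜ → x ≠ y := by
    rintro x y hx hy rfl
    exact hy hx
  have haX : a ∈ X := by rw [hXe]; exact Or.inl rfl
  have hbX : b ∈ X := by rw [hXe]; exact Or.inr (Or.inl rfl)
  have hcX : c ∈ Xᶜ := by rw [hXc]; exact Or.inl rfl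
  have hdX : d ∈ Xᶜ := by rw [hXc]; exact Or.inr (Or.inl rfl)
  have hnd : [a, b, r, c, d, s].Nodup := by
    simp only [List.nodup_cons, List.mem_cons, List.not_mem_nil, or_false, not_or, List.nodup_nil,
      and_true, not_false_eq_true]
    exact ⟨⟨hab, har, hcross haX hcX, hcross haX hdX, hcross haX hs⟩,
      ⟨hbr, hcross hbX hcX, hcross hbX hdX, hcross hbX hs⟩,
      ⟨hcross hr hcX, hcross hr hdX, hcross hr hs⟩, ⟨hcd, hcs⟩, hds⟩
  have hall : ∀ i : Fin 6, i = a ∨ i = b ∨ i = r ∨ i = c ∨ i = d ∨ i = s := by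
    intro i
    by_cases hi : i ∈ X
    · rw [hXe] at hi
      rcases hi with h1 | h1 | h1
      exacts [Or.inl h1, Or.inr (Or.inl h1), Or.inr (Or.inr (Or.inl h1))]
    · have hi' : i ∈ Xᶜ := hi
      rw [hXc] at hi'
      rcases hi' with h1 | h1 | h1
      exacts [Or.inr (Or.inr (Or.inr (Or.inl h1))), Or.inr (Or.inr (Or.inr (Or.inr (Or.inl h1)))),
        Or.inr (Or.inr (Or.inr (Or.inr (Or.inr h1))))]
  have haz : a ∈ T z := N.rest h hr hrz ⟨haX, har⟩
  have hbz : b ∈ T z := N.rest h hr hrz ⟨hbX, hbr⟩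
  have hcz : c ∈ T z := N.swap.rest h hs hsz ⟨hcX, hcs⟩
  have hdz : d ∈ T z := N.swap.rest h hs hsz ⟨hdX, hds⟩
  have hTz : T z = {a, b, c, d} := by
    ext i
    simp only [mem_insert_iff, mem_singleton_iff]
    constructor
    · intro hi
      rcases hall i with h1 | h1 | h1 | h1 | h1 | h1
      · exact Or.inl h1
      · exact Or.inr (Or.inl h1)
      · exact absurd (h1 ▸ hi) hrz
      · exact Or.inr (Or.inr (Or.inl h1))
      · exact Or.inr (Or.inr (Or.inr h1))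
      · exact absurd (h1 ▸ hi) hsz
    · rintro (rfl | rfl | rfl | rfl) <;> assumption
  have hTv : T v = {a, b, r} := by rw [N.Tv, hXe]
  have hTq : T q = {c, d, s} := by rw [N.Tq, hXc]
  refine ⟨a, b, c, d, hnd, hXe, hTz, hTv, hTq, ?_⟩
  by_cases hbw : b ∈ T w <;> by_cases hdw : d ∈ T w
  · right; right; right
    ext i
    simp only [mem_univ, iff_true]
    rcases hall i with rfl | rfl | rfl | rfl | rfl | rfl <;> assumption
  · right; right; left
    ext i
    simp only [mem_insert_iff, mem_singleton_iff]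
    constructor
    · intro hi
      rcases hall i with h1 | h1 | h1 | h1 | h1 | h1
      exacts [Or.inl h1, Or.inr (Or.inl h1), Or.inr (Or.inr (Or.inl h1)),
        Or.inr (Or.inr (Or.inr (Or.inl h1))), absurd (h1 ▸ hi) hdw,
        Or.inr (Or.inr (Or.inr (Or.inr h1)))]
    · rintro (rfl | rfl | rfl | rfl | rfl) <;> assumption
  · right; left
    ext i
    simp only [mem_insert_iff, mem_singleton_iff]
    constructor
    · intro hi
      rcases hall i with h1 | h1 | h1 | h1 | h1 | h1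
      exacts [Or.inl h1, absurd (h1 ▸ hi) hbw, Or.inr (Or.inl h1),
        Or.inr (Or.inr (Or.inl h1)), Or.inr (Or.inr (Or.inr (Or.inl h1))),
        Or.inr (Or.inr (Or.inr (Or.inr h1)))]
    · rintro (rfl | rfl | rfl | rfl | rfl) <;> assumption
  · left
    have hTw : T w = {a, r, c, s} := by
      ext i
      simp only [mem_insert_iff, mem_singleton_iff]
      constructor
      · intro hi
        rcases hall i with h1 | h1 | h1 | h1 | h1 | h1
        exacts [Or.inl h1, absurd (h1 ▸ hi) hbw, Or.inr (Or.inl h1),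
          Or.inr (Or.inr (Or.inl h1)), absurd (h1 ▸ hi) hdw, Or.inr (Or.inr (Or.inr h1))]
      · rintro (rfl | rfl | rfl | rfl) <;> assumption
    exact ⟨h, hnd, hTz, hTw, hTv, hTq, N.dv, N.dq, by rw [hw]; ring, fun h1 => N.ne_other h1.symm⟩

end Vale.Agent.P032.H471
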