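import Vale.Agent.P032.H298.OneTwo
import Vale.Agent.P032.S5.H229.K5
import Vale.Agent.P032.H471.Inst
import Vale.Agent.P032.H471.Heavy
import Vale.Agent.P032.H416.Props

/-!
# P032: no points with five colours, and `Sec4`, from `N11`

`N11 T` : no centre which is light at both ends of a node has only one point of each of the two
palettes.
`no_five_n11` : `Irr`, `Mn`, `N11`: no clean five coloured point.
`sec4_n11` : `Irr`, `Mn`, `NoPair5`, `N11` give `Sec4`.
-/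

open Set Filter Topology Metric

noncomputable section

namespace Vale.Agent.P032.H471

open Vale.Agent.P032.Six Vale.Agent.P032.S5.H450 Vale.Agent.P032.S5.H122 Vale.Agent.P032.S5

variable {U : Fin 6 → Set ℂ} {T : ℂ → Set (Fin 6)} {X : Set (Fin 6)} {z v q : ℂ} {d : Fin 6}

/-- no light centre has exactly one point of palette `X` and exactly one of palette `Xᶜ` -/
def N11 (T : ℂ → Set (Fin 6)) : Prop :=
  ∀ X z v q r s, Nd T X z v q → r ∈ X → r ∉ T z → s ∈ Xᶜ → s ∉ T z →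
    (∀ x, dist x z = 1 → T x = X → x = v) → (∀ y, dist y z = 1 → T y = Xᶜ → y = q) → False

/-- **the rule (1,1) of a five coloured centre** -/
theorem one_one_n11 (h : Irr U T) (hN : N11 T)
    (h5 : (T z).ncard = 5) (hX : X.ncard = 3) (hXz : Xᶜ ⊆ T z) (hd : d ∈ Xᶜ)
    (hno : ∀ y, dist y z = 1 → T y ≠ Xᶜ \ {d}) {v v' q q' : ℂ}
    (hv : ∃ P, T z ∩ X ⊆ P ∧ v ∈ closure (H767.Ex T z P))
    (hv' : ∃ P, T z ∩ X ⊆ P ∧ v' ∈ closure (H767.Ex T z P))
    (hTv : T v = X) (hTv' : T v' = X) (hq : dist q z = 1) (hq' : dist q' z = 1)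
    (hTq : T q = Xᶜ) (hTq' : T q' = Xᶜ) : v = v' ∧ q = q' := by
  have hXc : Xᶜ.ncard = 3 := ncard_compl_three' hX
  -- the missing colour
  obtain ⟨f, hf, hfz⟩ : ∃ f ∈ X, f ∉ T z := by
    by_contra hcon
    push Not at hcon
    have h1 : T z = univ := by
      ext i
      simp only [mem_univ, iff_true]
      by_cases hi : i ∈ X
      · exact hcon i hi
      · exact hXz hi
    rw [h1, Set.ncard_univ, Nat.card_eq_fintype_card, Fintype.card_fin] at h5
    omega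
  -- nodes
  have node : ∀ {x y : ℂ}, (∃ P, T z ∩ X ⊆ P ∧ x ∈ closure (H767.Ex T z P)) → T x = X →
      dist y z = 1 → T y = Xᶜ → Nd T X z x y := by
    rintro x y ⟨P, hP, hx⟩ hTx hy hTy
    refine ⟨hX, by rw [dist_comm]; exact H767.dist_of_closure hx, by rw [dist_comm]; exact hy,
      hTx, hTy, fun h1 => ?_⟩
    refine H767.anti h (z := z) (y := y) hy (by rw [hTy, hXc]) (P := P) (fun i hi => ?_) ?_
    · by_cases h2 : i ∈ X
      · exact Or.inr (hP ⟨hi, h2⟩)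
      · exact Or.inl (by rw [hTy]; exact h2)
    · have e : 2 * z - y = x := by linear_combination -h1
      rw [e]; exact hx
  have stay : ∀ {y : ℂ}, dist y z = 1 → T y = Xᶜ → Stay T z y d := fun {y} _ hTy =>
    Nd.stay_of_no h hX hXz hd hno hTy
  have N := node hv hTv hq hTq
  have st := stay hq hTq
  constructor
  · -- one `X`-end
    have N' := node hv' hTv' hq hTq
    have h1 := N.other.swap.unique h N'.other.swap hd (N.miss h st) (N'.miss h st)
    linear_combination h1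
  · -- one `Xᶜ`-point
    by_contra hqq
    have N' := node hv hTv hq' hTq'
    have st' := stay hq' hTq'
    obtain ⟨a, b, -, -, -, hXe, haw, -, hdw, -, hx, hy, -, -⟩ :=
      N.two_five h N' hqq hf hfz hXz hd st st'
    exact hN X _ v q a d N.other (by rw [hXe]; exact Or.inl rfl) haw hd hdw hx hy

/-- **The contacts `E_a | f` and `E_b | E_c`** (`b`, `c` complementary to `a`, `f`). -/
theorem cnt5_n11 {e : Fin 6 → Fin 6} (C : Cn U T z e) (hN : N11 T)
    {a b c : Fin 6} (ha : a ≠ 5) (hbc : b ≠ c) (hab : ixs b ∪ ixs c = (ixs a ∪ ixs 5)ᶜ)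
    {u u' w w' : ℝ} (hua : u ∈ X5 T z e a) (hu5 : u ∈ X5 T z e 5) (hua' : u' ∈ X5 T z e a)
    (hu5' : u' ∈ X5 T z e 5) (hwb : w ∈ X5 T z e b) (hwc : w ∈ X5 T z e c)
    (hwb' : w' ∈ X5 T z e b) (hwc' : w' ∈ X5 T z e c) :
    (∃ n : ℤ, u = u' + 6 * (n : ℝ)) ∧ ∃ n : ℤ, w = w' + 6 * (n : ℝ) := by
  obtain ⟨⟨x, hxb, hxc⟩, h3, h5bc⟩ := cnt_key2 a b c ha hbc hab
  have h5 : (T z).ncard = 5 := by
    have h1 := C.five
    by_contra hne
    have h2 : e 5 ∈ T z := by
      have h4 : T z = univ := by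
        refine Set.eq_of_subset_of_ncard_le (subset_univ _) ?_ (Set.toFinite _)
        rw [Set.ncard_univ, Nat.card_eq_fintype_card, Fintype.card_fin]
        omega
      rw [h4]; exact mem_univ _
    exact (C.pal 5).1 h2 rfl
  have hX3 : (col e a ∪ col e 5).ncard = 3 := by
    rw [← C.card, Sx_union C, h3]
  have hcompl : col e b ∪ col e c = (col e a ∪ col e 5)ᶜ := by
    refine Sx_inj C ?_
    rw [Sx_union C, Sx_compl, Sx_union C, hab]
  have hXz : (col e a ∪ col e 5)ᶜ ⊆ T z := by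
    rw [← hcompl]
    intro i hi
    obtain ⟨l, rfl⟩ := C.bij.2 i
    have h1 : l ∈ ixs b ∪ ixs c := by rw [← Sx_union C, mem_Sx]; exact hi
    exact (C.pal l).2 fun h2 => h5bc (h2 ▸ h1)
  have hd : e x ∈ (col e a ∪ col e 5)ᶜ := by
    rw [← hcompl]
    exact Or.inl ⟨x, hxb, rfl⟩
  have hno : ∀ y, dist y z = 1 → T y ≠ (col e a ∪ col e 5)ᶜ \ {e x} := by
    intro y hy hTy
    have h1 : T y ⊆ T z := by
      rw [hTy]; exact sdiff_subset.trans hXz
    have h6 : (T y).ncard = 2 := by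
      rw [hTy, Set.ncard_sdiff_singleton_of_mem hd]
      have h7 := Set.ncard_add_ncard_compl (col e a ∪ col e 5)
      rw [hX3, Nat.card_eq_fintype_card, Fintype.card_fin] at h7
      omega
    obtain ⟨l, hl⟩ := C.pairs y hy h6 h1
    refine cnt_key a b c l x ha hbc hab hxb hxc ?_
    rw [← C.Sx_col, ← hl, hTy]
    ext m
    rw [mem_Sx, Finset.mem_sdiff, ← Sx_union C, mem_Sx, hcompl, Finset.mem_singleton]
    constructor
    · rintro ⟨h7, h8⟩
      exact ⟨h7, fun h9 => h8 (by rw [h9]; rfl)⟩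
    · rintro ⟨h7, h8⟩
      exact ⟨h7, fun h9 => h8 (C.inj h9)⟩
  have ends : ∀ {t : ℝ}, t ∈ X5 T z e a → ∃ P, T z ∩ (col e a ∪ col e 5) ⊆ P ∧
      H767.pt z t ∈ closure (H767.Ex T z P) := by
    intro t ht
    obtain ⟨P, hP, hcl⟩ := X5_ex C ht
    refine ⟨P, ?_, hcl⟩
    rintro i ⟨hi, hi' | ⟨l, hl, rfl⟩⟩
    · exact hP hi'
    · exfalso
      have h1 : l = 5 := by
        have h2 : ∀ l : Fin 6, l ∈ ixs 5 → l = 5 := by decide
        exact h2 l hl
      exact (C.pal l).1 hi h1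
  have pal3 : ∀ {t : ℝ}, t ∈ X5 T z e a → t ∈ X5 T z e 5 → T (H767.pt z t) = col e a ∪ col e 5 :=
    fun h1 h2 => pal_of C h1 h2 ha
  have pal3' : ∀ {t : ℝ}, t ∈ X5 T z e b → t ∈ X5 T z e c →
      T (H767.pt z t) = (col e a ∪ col e 5)ᶜ := fun h1 h2 => by rw [pal_of C h1 h2 hbc, hcompl]
  obtain ⟨k1, k2⟩ := one_one_n11 C.irr hN h5 hX3 hXz hd hno (ends hua) (ends hua')
    (pal3 hua hu5) (pal3 hua' hu5') (H767.dist_pt z w) (H767.dist_pt z w') (pal3' hwb hwc)
    (pal3' hwb' hwc')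
  exact ⟨H349.pt_eq k1, H349.pt_eq k2⟩

/-- **The three cases of the pentagon engine.** -/
theorem cnt5_cases_n11 {e : Fin 6 → Fin 6} (C : Cn U T z e) (hN : N11 T)
    {a b c : Fin 6} (ha : a ≠ 5) (hbc : b ≠ c) (hab : ixs b ∪ ixs c = (ixs a ∪ ixs 5)ᶜ) :
    (∀ u, u ∈ X5 T z e a → u ∉ X5 T z e 5) ∨ (∀ u, u ∈ X5 T z e b → u ∉ X5 T z e c) ∨
    ∃ s t : ℝ, (∀ u, u ∈ X5 T z e a → u ∈ X5 T z e 5 → ∃ n : ℤ, u = s + 6 * (n : ℝ)) ∧
      ∀ u, u ∈ X5 T z e b → u ∈ X5 T z e c → ∃ n : ℤ, u = t + 6 * (n : ℝ) := by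
  by_cases h1 : ∀ u, u ∈ X5 T z e a → u ∉ X5 T z e 5
  · exact Or.inl h1
  by_cases h2 : ∀ u, u ∈ X5 T z e b → u ∉ X5 T z e c
  · exact Or.inr (Or.inl h2)
  push Not at h1 h2
  obtain ⟨s, hs, hs'⟩ := h1
  obtain ⟨t, ht, ht'⟩ := h2
  refine Or.inr (Or.inr ⟨s, t, fun u k1 k2 => ?_, fun u k1 k2 => ?_⟩)
  · exact (cnt5_n11 C hN ha hbc hab k1 k2 hs hs' ht ht' ht ht').1
  · exact (cnt5_n11 C hN ha hbc hab hs hs' hs hs' k1 k2 ht ht').2

/-- **no clean five coloured point** -/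
theorem no_five_n11 (h : Irr U T) (hmin : Mn U T) (hN : N11 T)
    (h5 : (T z).ncard = 5) (h3 : ∀ y, dist y z = 1 → (T y).ncard ≤ 3) : False := by
  obtain ⟨e, C⟩ := exists_cn h hmin h5 h3
  refine (S5.H229.cn_pent C).elim fun j => ?_
  obtain ⟨k1, k2, k3⟩ := S5.H229.lets j
  rcases cnt5_cases_n11 C hN k1 k2 k3 with H | H | ⟨s, t, hs, ht⟩
  · exact Or.inl fun u hu => H u hu.1 hu.2
  · exact Or.inr (Or.inl fun u hu => H u hu.1 hu.2)
  · refine Or.inr (Or.inr ⟨fun u v hu hv => ?_, fun u v hu hv => ?_⟩)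
    · obtain ⟨n, hn⟩ := hs u hu.1 hu.2
      obtain ⟨m, hm⟩ := hs v hv.1 hv.2
      exact ⟨m - n, by rw [hn, hm]; push_cast; ring⟩
    · obtain ⟨n, hn⟩ := ht u hu.1 hu.2
      obtain ⟨m, hm⟩ := ht v hv.1 hv.2
      exact ⟨m - n, by rw [hn, hm]; push_cast; ring⟩

/-- **no points with five colours** -/
theorem no5_n11 (h : Irr U T) (hmin : Mn U T) (h5 : NoPair5 T) (hN : N11 T) (z : ℂ) :
    (T z).ncard ≠ 5 := fun hz =>
  no_five_n11 h hmin hN hz fun y hy => by
    by_contra hcon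
    exact h5 z y (by rw [dist_comm]; exact hy) (by omega) (by omega)

/-- a light centre has a second point of one of the two palettes, so its second centres are not
six coloured -/
theorem light_other (h : Irr U T) (hN : N11 T) (N : Nd T X z v q) {r s : Fin 6} (hr : r ∈ X)
    (hrz : r ∉ T z) (hs : s ∈ Xᶜ) (hsz : s ∉ T z) : ∃ i, i ∉ T (v + q - z) := by
  by_contra hcon
  push Not at hcon
  refine hN X z v q r s N hr hrz hs hsz (fun x hx hTx => ?_) fun y hy hTy => ?_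
  · by_contra hne
    have N' := N.node_x h hs hsz hx hTx
    obtain ⟨a, b, -, -, -, -, ha, -⟩ := N.swap.two_light h N'.swap (Ne.symm hne) hs hsz
      (by rw [compl_compl]; exact hr) hrz
    rw [add_comm q v] at ha
    exact ha (hcon a)
  · by_contra hne
    have N' := N.node_y h hr hrz hy hTy
    obtain ⟨a, b, -, -, -, -, ha, -⟩ := N.two_light h N' (Ne.symm hne) hr hrz hs hsz
    exact ha (hcon a)

/-- **`Sec4`** -/
theorem sec4_n11 (h : Irr U T) (hmin : Mn U T) (h5 : NoPair5 T) (hN : N11 T) : Sec4 T := by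
  intro X c v q N h4
  obtain ⟨⟨r, hr, hrz⟩, s, hs, hsz⟩ := light_of_four h N h4
  obtain ⟨i, hi⟩ := light_other h hN N hr hrz hs hsz
  have h1 := no5_n11 h hmin h5 hN (v + q - c)
  have h2 : (T (v + q - c)).ncard ≤ 5 := by
    have h3 : T (v + q - c) ⊆ {i}ᶜ := fun j hj hji => by
      rw [mem_singleton_iff] at hji
      exact hi (hji ▸ hj)
    have h4 := Set.ncard_le_ncard h3 (Set.toFinite _)
    have h6 := Set.ncard_add_ncard_compl ({i} : Set (Fin 6))
    rw [Nat.card_eq_fintype_card, Fintype.card_fin, Set.ncard_singleton] at h6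
    omega
  omega

end Vale.Agent.P032.H471
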