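import Vale.Agent.P032.H471.N11Top
import Vale.Agent.P032.H460.HB2
import Vale.Agent.P032.H594.NCTop

/-!
# P032: the block `Sec4J` from the two word facts `R3`, `R4`
-/

open Set Filter Topology Metric

noncomputable section

namespace Vale.Agent.P032.H471

open Vale.Agent.P032.Six Vale.Agent.P032.S5.H450 Vale.Agent.P032.H533 Vale.Agent.P032.H646
  Vale.Agent.P032.H594

variable {U : Fin 6 → Set ℂ} {T : ℂ → Set (Fin 6)}

/-- **`Sec4`** if the circles of the centres with complementary ends carry only `J`-partners -/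
theorem sec4_of_R (h : Irr U T) (hmin : Mn U T) (h5 : NoPair5 T) (hJ : OnlyJC T) (h3 : R3 T)
    (h4 : R4 T) : Sec4 T :=
  sec4_top h hmin h5 hJ.only22 h3 h4 fun w v q O =>
    H460.hB_460 h (fun y hy => hJ w v q y O.ev O.eq O.c hy) (fun x y hd hx hy => h5 x y hd hx hy) O

/-- **the block `Sec4J`** from the word facts -/
theorem sec4J_of (HR : ∀ (U : Fin 6 → Set ℂ) (T : ℂ → Set (Fin 6)), Irr U T → NoPair5 T →
    R3 T ∧ R4 T) : Sec4J := by
  intro U T W hT
  obtain ⟨h3, h4⟩ := HR U T W.irr W.np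
  exact sec4_of_R W.irr W.mn W.np (hT.onlyJC W.irr W.np) h3 h4

end Vale.Agent.P032.H471
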