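import Vale.Agent.P032.H471.Sec4J
import Vale.Agent.P032.H646.R34

/-!
# P032: the block `Sec4J`

`sec4_471` : `Irr`, `Mn`, `NoPair5` and `OnlyJC` (the points of order at least four of the circles
of the centres with complementary ends are `J`-partners) give `Sec4`.
`n11_471`, `no_comp11`, `no_comp22` : the (1,1)- and the (2,2)-centres.
`sec4J` : the block.
-/

open Set Filter Topology Metric

noncomputable section

namespace Vale.Agent.P032.H471

open Vale.Agent.P032.Six Vale.Agent.P032.S5.H450 Vale.Agent.P032.H533 Vale.Agent.P032.H646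
  Vale.Agent.P032.H594

variable {U : Fin 6 → Set ℂ} {T : ℂ → Set (Fin 6)}

theorem np_flip (h5 : NoPair5 T) :
    ∀ x y, dist x y = 1 → 5 ≤ (T x).ncard → 4 ≤ (T y).ncard → False :=
  fun x y hd hx hy => h5 x y hd hx hy

/-- **`hA`** -/
theorem hA_full (h : Irr U T) (h5 : NoPair5 T) (hJ : OnlyJ22 T) :
    ∀ z v v' q q', Is22 T z v v' q q' → Is11 T (v + q - z) v q ∧
      T (v + q - z) ∩ T q = T (v + q' - z) ∩ T q ∧
      T (v + q - z) ∩ T v = T (v' + q - z) ∩ T v :=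
  hA_646 h hJ (r3_646 h (np_flip h5)) (r4_646 h (np_flip h5))

/-- **no (2,2)-centre** -/
theorem no_comp22 (h : Irr U T) (hmin : Mn U T) (h5 : NoPair5 T) (hJ : OnlyJC T) :
    ∀ z v v' q q', ¬ Is22 T z v v' q q' :=
  no_22 h hmin (fun x y hx hy hd => h5 x y hd hx hy) (hA_full h h5 hJ.only22) fun w v q hN =>
    H460.hB_460 h (fun y hy => hJ w v q y hN.1.ev hN.1.eq hN.1.c hy) (np_flip h5) hN.1

/-- **no (1,1)-centre** -/
theorem no_comp11 (h : Irr U T) (hmin : Mn U T) (h5 : NoPair5 T) (hJ : OnlyJC T) :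
    ∀ w v q, ¬ Is11 T w v q := by
  intro w v q O
  obtain ⟨-, v1, v2, q1, q2, -, -, I⟩ :=
    H460.hB_460 h (fun y hy => hJ w v q y O.ev O.eq O.c hy) (np_flip h5) O
  exact no_comp22 h hmin h5 hJ _ _ _ _ _ I

/-- **`N11`** -/
theorem n11_471 (h : Irr U T) (hmin : Mn U T) (h5 : NoPair5 T) (hJ : OnlyJC T) : N11 T :=
  n11_of h (no_comp11 h hmin h5 hJ)

/-- **`Sec4`** -/
theorem sec4_471 (h : Irr U T) (hmin : Mn U T) (h5 : NoPair5 T) (hJ : OnlyJC T) : Sec4 T :=
  sec4_n11 h hmin h5 (n11_471 h hmin h5 hJ)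

/-- **the block `Sec4J`** -/
theorem sec4J : Sec4J := sec4J_of fun _ _ h h5 => ⟨r3_646 h (np_flip h5), r4_646 h (np_flip h5)⟩

end Vale.Agent.P032.H471
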